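import Vale.Agent.P242.H937.Wt
import Vale.Agent.P242.H363.Prof

/-! P242, package A-GL1 (helper937), part a2: the radial weights `Φ(β_{y,t}/t)` as classes; bounds by
the heat kernel; the cutoffs `Ψ` and `Ξ`. -/

set_option linter.all false

open MeasureTheory Filter Topology Set
open scoped ENNReal NNReal ContDiff

universe u

namespace Vale.Agent.P242.H937

open Vale.Agent.P233 Vale.Agent.P242.H520 Vale.Agent.P242.H990
open Vale.Agent.P233.RA (gg ww cc)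

/-! ### profiles -/

/-- smooth profile vanishing on `[a,∞)` -/
structure Sf (a : ℝ) (Φ : ℝ → ℝ) : Prop where
  smooth : ContDiff ℝ ∞ Φ
  zero : ∀ x, a ≤ x → Φ x = 0

namespace Sf

variable {a : ℝ} {Φ : ℝ → ℝ} (h : Sf a Φ)
include h

theorem cont : Continuous Φ := h.smooth.continuous

theorem diff : Differentiable ℝ Φ := h.smooth.differentiable (by simp)

theorem hasDeriv (x : ℝ) : HasDerivAt Φ (deriv Φ x) x := (h.diff x).hasDerivAt

theorem deriv : Sf a (deriv Φ) where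
  smooth := (contDiff_infty_iff_deriv.1 h.smooth).2
  zero := by
    have hc : Continuous (_root_.deriv Φ) := (contDiff_infty_iff_deriv.1 h.smooth).2.continuous
    have h1 : ∀ x, a < x → _root_.deriv Φ x = 0 := by
      intro x hx
      have : Φ =ᶠ[𝓝 x] fun _ => 0 := by
        filter_upwards [lt_mem_nhds hx] with y hy
        exact h.zero y hy.le
      rw [this.deriv_eq]; simp
    have hcl : IsClosed {x | _root_.deriv Φ x = 0} := isClosed_eq hc continuous_const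
    have hsub : Ioi a ⊆ {x | _root_.deriv Φ x = 0} := fun x hx => h1 x hx
    intro x hx
    have := (hcl.closure_subset_iff.2 hsub)
    rw [closure_Ioi] at this
    exact this hx

theorem bdd (c : ℝ) : ∃ B : ℝ, 1 ≤ B ∧ ∀ x, c ≤ x → |Φ x| ≤ B := by
  obtain ⟨B, hB⟩ := (isCompact_Icc (a := c) (b := a)).exists_bound_of_continuousOn
    h.cont.continuousOn
  refine ⟨max 1 B, le_max_left _ _, fun x hx => ?_⟩
  rcases le_or_gt x a with h1 | h1
  · exact (hB x ⟨hx, h1⟩).trans (le_max_right _ _)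
  · rw [h.zero x h1.le, abs_zero]
    exact zero_le_one.trans (le_max_left _ _)

theorem smul (c : ℝ) : Sf a (fun x => c * Φ x) where
  smooth := contDiff_const.mul h.smooth
  zero := fun x hx => by rw [h.zero x hx, mul_zero]

end Sf

/-- the cutoff `Ψ`: `1` on `(-∞,1/2]`, `0` on `[1,∞)` -/
noncomputable def Psi (x : ℝ) : ℝ := Real.smoothTransition (2 - 2 * x)

theorem Psi_sf : Sf 1 Psi where
  smooth := by
    unfold Psi
    have h1 : ContDiff ℝ ∞ Real.smoothTransition := Real.smoothTransition.contDiff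
    have h2 : ContDiff ℝ ∞ (fun x : ℝ => 2 - 2 * x) := by fun_prop
    exact h1.comp h2
  zero := fun x hx => Real.smoothTransition.zero_of_nonpos (by linarith)

theorem Psi_one {x : ℝ} (hx : x ≤ 1 / 2) : Psi x = 1 :=
  Real.smoothTransition.one_of_one_le (by linarith)

theorem Psi_nonneg (x : ℝ) : 0 ≤ Psi x := Real.smoothTransition.nonneg _

theorem Psi_le_one (x : ℝ) : Psi x ≤ 1 := Real.smoothTransition.le_one _

/-- `Ξ(x) = ∫_x^1 Ψ` -/
noncomputable def Xi (x : ℝ) : ℝ := ∫ s in x..1, Psi s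

theorem Xi_deriv (x : ℝ) : HasDerivAt Xi (-Psi x) x := by
  have hc := Psi_sf.cont
  have h : HasDerivAt (fun x => ∫ s in (1 : ℝ)..x, Psi s) (Psi x) x :=
    intervalIntegral.integral_hasDerivAt_right (hc.intervalIntegrable _ _)
      (hc.stronglyMeasurableAtFilter _ _) hc.continuousAt
  have e : Xi = fun x => -∫ s in (1 : ℝ)..x, Psi s := by
    funext y; unfold Xi; rw [intervalIntegral.integral_symm]
  rw [e]; exact h.neg

theorem Xi_zero {x : ℝ} (hx : 1 ≤ x) : Xi x = 0 := by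
  unfold Xi
  rw [intervalIntegral.integral_symm, neg_eq_zero]
  rw [intervalIntegral.integral_congr (g := fun _ => (0 : ℝ))]
  · simp
  · intro s hs
    rw [uIcc_of_le hx] at hs
    exact Psi_sf.zero s hs.1

theorem Xi_nonneg (x : ℝ) : 0 ≤ Xi x := by
  rcases le_total x 1 with h | h
  · exact intervalIntegral.integral_nonneg h fun s _ => Psi_nonneg s
  · rw [Xi_zero h]

theorem Xi_ge {x : ℝ} (hx : x ≤ 1 / 4) : 1 / 4 ≤ Xi x := by
  have hc := Psi_sf.cont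
  have h1 : Xi x = (∫ s in x..(1 / 2), Psi s) + ∫ s in (1 / 2 : ℝ)..1, Psi s :=
    (intervalIntegral.integral_add_adjacent_intervals (hc.intervalIntegrable _ _)
      (hc.intervalIntegrable _ _)).symm
  have h2 : 0 ≤ ∫ s in (1 / 2 : ℝ)..1, Psi s :=
    intervalIntegral.integral_nonneg (by norm_num) fun s _ => Psi_nonneg s
  have h3 : ∫ s in x..(1 / 2), Psi s = ∫ s in x..(1 / 2), (1 : ℝ) := by
    apply intervalIntegral.integral_congr
    intro s hs
    rw [uIcc_of_le (by linarith)] at hs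
    exact Psi_one hs.2
  rw [h1, h3]
  simp only [intervalIntegral.integral_const, smul_eq_mul, mul_one]
  linarith

theorem Xi_sf : Sf 1 Xi where
  smooth := by
    rw [contDiff_infty_iff_deriv]
    refine ⟨fun x => (Xi_deriv x).differentiableAt, ?_⟩
    have : _root_.deriv Xi = fun x => -Psi x := by
      funext x; exact (Xi_deriv x).deriv
    rw [this]
    exact Psi_sf.smooth.neg
  zero := fun x hx => Xi_zero hx

/-- helper363's profiles -/
theorem psi_sf : Sf 2 H363.psi := ⟨H363.psi_contDiff, fun _ => H363.psi_zero⟩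

theorem Xi363_sf : Sf 2 H363.Xi where
  smooth := by
    rw [contDiff_infty_iff_deriv]
    refine ⟨fun x => (H363.Xi_hd x).differentiableAt, ?_⟩
    have : _root_.deriv H363.Xi = fun x => -H363.psi x := by
      funext x; exact (H363.Xi_hd x).deriv
    rw [this]
    exact H363.psi_contDiff.neg
  zero := fun _ => H363.Xi_zero

/-! ### the weights -/

variable {M : Type u} [MetricSpace M] [CompleteSpace M] [SecondCountableTopology M]
  [MeasurableSpace M] [BorelSpace M] {m : Measure M} {n : ℕ} {K : ℝ} {p : ℝ → M → M → ℝ}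

/-- the weight `Φ(β_{y,t}/t)` -/
noncomputable def wt (m : Measure M) (n : ℕ) (p : ℝ → M → M → ℝ) (Φ : ℝ → ℝ) (y : M) (t : ℝ) :
    M →ₘ[m] ℝ := cl m fun z => Φ (bp m n p y t z / t)

/-- the radius constant `C₂ = 4 (C + n + a)` -/
noncomputable def cL (n : ℕ) (Cm a : ℝ) : ℝ := 4 * (Cm + n + a)

/-- admissible scales (for profiles vanishing on `[a,∞)`) -/
structure Sc (n : ℕ) (K Cm a t : ℝ) : Prop where
  one : 1 ≤ a
  pos : 0 < t
  far : t ≤ (4 * (Cm + n + a) ^ 2)⁻¹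
  near : |K| * t * (16 * (Cm + 1)) ≤ 1

theorem Sc.le {n : ℕ} {K Cm a t t' : ℝ} (hC : 1 ≤ Cm) (h : Sc n K Cm a t) (h0 : 0 < t')
    (h1 : t' ≤ t) : Sc n K Cm a t' where
  one := h.one
  pos := h0
  far := h1.trans h.far
  near := by
    refine le_trans ?_ h.near
    have := abs_nonneg K
    gcongr

theorem Sc.ex (n : ℕ) (K : ℝ) {Cm a : ℝ} (hC : 1 ≤ Cm) (ha : 1 ≤ a) : ∃ t₀, Sc n K Cm a t₀ := by
  refine ⟨min (4 * (Cm + n + a) ^ 2)⁻¹ ((|K| + 1) * (16 * (Cm + 1)))⁻¹, ha, ?_, min_le_left _ _, ?_⟩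
  · have := abs_nonneg K
    positivity
  · have hK := abs_nonneg K
    have h1 : min (4 * (Cm + n + a) ^ 2)⁻¹ ((|K| + 1) * (16 * (Cm + 1)))⁻¹
        ≤ ((|K| + 1) * (16 * (Cm + 1)))⁻¹ := min_le_right _ _
    have h0 : 0 < (|K| + 1) * (16 * (Cm + 1)) := by positivity
    calc |K| * min (4 * (Cm + n + a) ^ 2)⁻¹ ((|K| + 1) * (16 * (Cm + 1)))⁻¹ * (16 * (Cm + 1))
        ≤ |K| * ((|K| + 1) * (16 * (Cm + 1)))⁻¹ * (16 * (Cm + 1)) := by gcongr
      _ = |K| / (|K| + 1) := by field_simp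
      _ ≤ 1 := by rw [div_le_one (by positivity)]; linarith

theorem Sc.le16 {n : ℕ} {K Cm a t : ℝ} (hC : 1 ≤ Cm) (hn : (0 : ℝ) ≤ n) (h : Sc n K Cm a t) :
    t ≤ 1 / 16 := by
  refine h.far.trans ?_
  have ha := h.one
  rw [inv_le_comm₀ (by positivity) (by norm_num)]
  have : 2 ≤ Cm + n + a := by linarith
  have : 4 ≤ (Cm + n + a) ^ 2 := by nlinarith
  norm_num; linarith

theorem Sc.zero {n : ℕ} {K Cm a t : ℝ} (hC : 1 ≤ Cm) (hn : (0 : ℝ) ≤ n) (h : Sc n K Cm a t) :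
    a < (1 / 2 - n * t) / t := by
  have ht := h.pos
  have ha := h.one
  rw [lt_div_iff₀ ht]
  have h1 : t * (4 * (Cm + n + a) ^ 2) ≤ 1 := by
    have := h.far
    rwa [← one_div, le_div_iff₀ (by positivity)] at this
  have h2 : (Cm + n + a) * 2 ≤ 4 * (Cm + n + a) ^ 2 := by
    have : 2 ≤ Cm + n + a := by linarith
    nlinarith
  have h3 := mul_le_mul_of_nonneg_left h2 ht.le
  nlinarith

namespace Base

variable {o : M} {A Cm : ℝ} (H : Base m n K o A p Cm) {Φ : ℝ → ℝ} {t a : ℝ}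
include H

theorem wt_ae (hΦ : Continuous Φ) (y : M) (ht : 0 < t) :
    ∀ᵐ z ∂m, wt m n p Φ y t z = Φ (bp m n p y t z / t) := by
  have hc : Continuous fun z => Φ (bp m n p y t z / t) := hΦ.comp ((H.bp_cont y ht).div_const t)
  exact H183.cl_cont hc

theorem wt_Cm (hΦ : Continuous Φ) (y : M) (ht : 0 < t) :
    H363.Cm (bb m y t) (1 / 2 - n * t) (fun τ => Φ (τ / t)) (wt m n p Φ y t) := by
  filter_upwards [H.wt_ae hΦ y ht, H.bp_ae y ht] with z h1 h2
  rw [h1, h2]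

theorem bb_test (y : M) (ht : 0 < t) : bb m y t ∈ (sob m).Test :=
  IsGamma.P_test_pos H.gamma H.bei ht (H.w_mem2 y) (H.w_A y).2

theorem bb_testI (y : M) (ht : 0 < t) : bb m y t ∈ (sob m).TestI := by
  have := H.sfin
  exact H715.P_testI_pos H.gamma H.n_pos H.be ht (H.w_mem2 y) (H.w_A y).2

/-- the weights are radial in the sense of `H363` -/
theorem wt_RP (hΦ : Sf a Φ) (y : M) (hs : Sc n K Cm a t) :
    H363.RP (sob m) (bb m y t) (wt m n p Φ y t) (t⁻¹ • wt m n p (deriv Φ) y t)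
      ((t⁻¹ * t⁻¹) • wt m n p (deriv (deriv Φ)) y t) := by
  have ht := hs.pos
  have d1 := hΦ.deriv
  have d2 := d1.deriv
  have d3 := d2.deriv
  have z := (hs.zero H.one H.n_pos.le).le
  have hdiv : ∀ (F : ℝ → ℝ) (F' : ℝ → ℝ), (∀ x, HasDerivAt F (F' x) x) → ∀ (c x : ℝ),
      HasDerivAt (fun τ => c * F (τ / t)) (c * t⁻¹ * F' (x / t)) x := by
    intro F F' hF c x
    have h1 : HasDerivAt (fun τ : ℝ => τ / t) t⁻¹ x := by
      simpa [div_eq_mul_inv] using (hasDerivAt_id x).mul_const t⁻¹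
    have h2 := (HasDerivAt.comp x (hF (x / t)) h1).const_mul c
    refine h2.congr_deriv ?_
    ring
  refine H363.RP.of (φ := fun τ => 1 * Φ (τ / t)) (φ1 := fun τ => 1 * t⁻¹ * deriv Φ (τ / t))
    (φ2 := fun τ => 1 * t⁻¹ * t⁻¹ * deriv (deriv Φ) (τ / t))
    (φ3 := fun τ => 1 * t⁻¹ * t⁻¹ * t⁻¹ * deriv (deriv (deriv Φ)) (τ / t))
    (c0 := 1 / 2 - n * t) H.dir
    ((H.gamma).test_A (H.bb_test y ht)) (hdiv _ _ hΦ.hasDeriv 1) (hdiv _ _ d1.hasDeriv _)
    (hdiv _ _ d2.hasDeriv _) ?_ ?_ ?_ ?_ ?_ ?_ ?_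
  · exact continuous_const.mul (d3.cont.comp (continuous_id.div_const t))
  · show 1 * Φ _ = 0
    rw [hΦ.zero _ z, mul_zero]
  · show 1 * t⁻¹ * deriv Φ _ = 0
    rw [d1.zero _ z, mul_zero]
  · show 1 * t⁻¹ * t⁻¹ * deriv (deriv Φ) _ = 0
    rw [d2.zero _ z, mul_zero]
  · exact (H.wt_Cm hΦ.cont y ht).congr fun τ => by ring
  · exact ((H.wt_Cm d1.cont y ht).smul t⁻¹).congr fun τ => by ring
  · exact ((H.wt_Cm d2.cont y ht).smul (t⁻¹ * t⁻¹)).congr fun τ => by ring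

theorem wt_A (hΦ : Sf a Φ) (y : M) (hs : Sc n K Cm a t) : wt m n p Φ y t ∈ (sob m).A :=
  (H.wt_RP hΦ y hs).mem0

/-- the primitive weight `X = t Ξ(β/t)`, `Ξ' = -Ψ`: `Γ(X,h) = -P₀ Γ(b,h)` -/
theorem wt_X' {Ξ Ψ : ℝ → ℝ} (hΞ : Sf a Ξ) (hΨ : Sf a Ψ) (hd : ∀ x, HasDerivAt Ξ (-Ψ x) x)
    (y : M) (hs : Sc n K Cm a t) : t • wt m n p Ξ y t ∈ (sob m).A ∧
    ∀ h ∈ (sob m).W, (sob m).Γ (t • wt m n p Ξ y t) h
      = -(wt m n p Ψ y t * (sob m).Γ (bb m y t) h) := by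
  have hC := H.dir
  have ht := hs.pos
  have h0 := H.wt_RP hΞ y hs
  refine ⟨hC.A_smul _ h0.mem0, fun h hh => ?_⟩
  rw [hC.smul_left _ _ h0.mem0.1 _ hh, h0.g0 h hh]
  have e : wt m n p (deriv Ξ) y t = -wt m n p Ψ y t := by
    rw [eq_iff_ae]
    filter_upwards [H.wt_ae hΞ.deriv.cont y ht, H.wt_ae hΨ.cont y ht,
      neg_ae (wt m n p Ψ y t)] with z h1 h2 h3
    rw [h3, h1, h2, (hd _).deriv]
  rw [e]
  have e2 : t • (t⁻¹ • -wt m n p Ψ y t * (sob m).Γ (bb m y t) h)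
      = (t * t⁻¹) • (-(wt m n p Ψ y t * (sob m).Γ (bb m y t) h)) := by algebra
  rw [e2, mul_inv_cancel₀ ht.ne', one_smul]

/-- the primitive weight `X = t Ξ(β/t)`: `Γ(X,h) = -P₀ Γ(b,h)` -/
theorem wt_X (y : M) (hs : Sc n K Cm 1 t) : t • wt m n p Xi y t ∈ (sob m).A ∧
    ∀ h ∈ (sob m).W, (sob m).Γ (t • wt m n p Xi y t) h
      = -(wt m n p Psi y t * (sob m).Γ (bb m y t) h) :=
  H.wt_X' Xi_sf Psi_sf Xi_deriv y hs

/-- outside of a ball the weight vanishes -/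
theorem wt_far (hΦ : Sf a Φ) (y : M) (hs : Sc n K Cm a t) :
    ∀ᵐ z ∂m, cL n Cm a * √t ≤ dist z y → wt m n p Φ y t z = 0 := by
  have ht := hs.pos
  filter_upwards [H.wt_ae hΦ.cont y ht] with z h1 h2
  rw [h1]
  apply hΦ.zero
  rw [le_div_iff₀ ht]
  exact H.bp_far ht hs.one hs.far h2

/-- the weight is bounded by the kernel at comparable scales and centres -/
theorem wt_le (hΦ : Sf a Φ) {B : ℝ} (hB : ∀ x, -(n : ℝ) ≤ x → |Φ x| ≤ B) {y q : M}
    (hs : Sc n K Cm a t) {s Γ C₀ R₁ : ℝ} (s0 : 0 < s) (h1 : t ≤ Γ * s) (h2 : s ≤ Γ * t)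
    (h3 : s ≤ 1 / 2) (hq : dist q o ≤ R₁) (hyq : dist y q ≤ C₀ * √t) :
    ∀ᵐ z ∂m, |wt m n p Φ y t z| ≤ B * (cB n A Γ (cL n Cm a + C₀) R₁ * √t ^ n) * ph m p s q z := by
  have ht := hs.pos
  have hB0 : 0 ≤ B := (abs_nonneg _).trans (hB 0 (by have := H.n_pos; linarith))
  filter_upwards [H.wt_ae hΦ.cont y ht, H.wt_far hΦ y hs, ph_ae H.ker s0 q] with z e1 e2 e3
  have p0 := H.ker.nonneg s s0 q z
  have hΓ : 0 < Γ := by
    by_contra hc
    rw [not_lt] at hc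
    nlinarith
  have c0 : 0 < cB n A Γ (cL n Cm a + C₀) R₁ := cB_pos H.kb.one_le hΓ
  rw [e3]
  rcases le_or_gt (cL n Cm a * √t) (dist z y) with hz | hz
  · rw [e2 hz, abs_zero]; positivity
  · have h4 : 1 ≤ cB n A Γ (cL n Cm a + C₀) R₁ * √t ^ n * p s q z := by
      refine one_le_p H.kb s0 ht h1 h2 h3 hq ?_
      have := dist_triangle q y z
      rw [dist_comm q y, dist_comm y z] at this
      nlinarith
    have h5 : |wt m n p Φ y t z| ≤ B := by
      rw [e1]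
      apply hB
      rw [le_div_iff₀ ht]
      have := H.bp_ge (n := n) y z ht
      linarith
    calc |wt m n p Φ y t z| ≤ B * 1 := by rw [mul_one]; exact h5
      _ ≤ B * (cB n A Γ (cL n Cm a + C₀) R₁ * √t ^ n * p s q z) := by gcongr
      _ = _ := by ring

/-- class form of `wt_le` -/
theorem wt_le' (hΦ : Sf a Φ) {B : ℝ} (hB : ∀ x, -(n : ℝ) ≤ x → |Φ x| ≤ B) {y q : M}
    (hs : Sc n K Cm a t) {s Γ C₀ R₁ : ℝ} (s0 : 0 < s) (h1 : t ≤ Γ * s) (h2 : s ≤ Γ * t)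
    (h3 : s ≤ 1 / 2) (hq : dist q o ≤ R₁) (hyq : dist y q ≤ C₀ * √t) :
    wt m n p Φ y t ≤ (B * (cB n A Γ (cL n Cm a + C₀) R₁ * √t ^ n)) • ph m p s q ∧
    -wt m n p Φ y t ≤ (B * (cB n A Γ (cL n Cm a + C₀) R₁ * √t ^ n)) • ph m p s q := by
  have h := H.wt_le hΦ hB hs s0 h1 h2 h3 hq hyq
  constructor
  · rw [le_iff_ae]
    filter_upwards [h, smul_ae (ph m p s q) (B * (cB n A Γ (cL n Cm a + C₀) R₁ * √t ^ n))]
      with z a b
    rw [b]; exact (le_abs_self _).trans a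
  · rw [le_iff_ae]
    filter_upwards [h, smul_ae (ph m p s q) (B * (cB n A Γ (cL n Cm a + C₀) R₁ * √t ^ n)),
      neg_ae (wt m n p Φ y t)] with z a b c
    rw [b, c]; exact (neg_le_abs _).trans a

theorem wt_nonneg (hΦ : Continuous Φ) (h0 : ∀ x, 0 ≤ Φ x) (y : M) (ht : 0 < t) :
    0 ≤ wt m n p Φ y t := by
  rw [nonneg_iff_ae]
  filter_upwards [H.wt_ae hΦ y ht] with z h1
  rw [h1]; exact h0 _

/-- near `y`, `Ψ = 1` and `Ξ ≥ 1/4` -/
theorem wt_near (y : M) (hs : Sc n K Cm a t) : ∀ᵐ z ∂m, dist z y ≤ √t / 2 →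
    wt m n p Psi y t z = 1 ∧ 1 / 4 ≤ wt m n p Xi y t z := by
  have ht := hs.pos
  have h16 := hs.le16 H.one H.n_pos.le
  filter_upwards [H.wt_ae Psi_sf.cont y ht, H.wt_ae Xi_sf.cont y ht] with z h1 h2 hz
  have h3 := H.bp_near ht (by linarith) hs.near hz
  have h4 : bp m n p y t z / t ≤ 1 / 4 := by
    rw [div_le_iff₀ ht]; linarith
  rw [h1, h2]
  exact ⟨Psi_one (by linarith), Xi_ge h4⟩

theorem wt_int (hΦ : Sf a Φ) {R₁ : ℝ} {y : M} (hy : dist y o ≤ R₁) (hs : Sc n K Cm a t) :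
    MemLp (wt m n p Φ y t) 1 m := by
  obtain ⟨B, -, hB⟩ := hΦ.bdd (-(n : ℝ))
  have ht := hs.pos
  have h16 := hs.le16 H.one H.n_pos.le
  have hA := H.wt_A hΦ y hs
  rw [memLp_one_iff_integrable]
  have h1 := (memLp_one_iff_integrable.1 (ph_mem1 H.ker ht y)).const_mul
    (B * (cB n A 1 (cL n Cm a + 0) R₁ * √t ^ n))
  refine h1.mono' (H.dir.memLp _ hA.1).1 ?_
  filter_upwards [H.wt_le hΦ hB hs (s := t) (Γ := 1) (C₀ := 0) (R₁ := R₁) (q := y) (y := y) ht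
    (by linarith) (by linarith) (by linarith) hy (by simp)] with z hz
  rw [Real.norm_eq_abs]; exact hz

/-- near `y` a profile takes its values on `(-∞,1/4]` -/
theorem wt_near' (hΦ : Continuous Φ) (y : M) (hs : Sc n K Cm a t) :
    ∀ᵐ z ∂m, dist z y ≤ √t / 2 → ∃ x, x ≤ 1 / 4 ∧ wt m n p Φ y t z = Φ x := by
  have ht := hs.pos
  have h16 := hs.le16 H.one H.n_pos.le
  filter_upwards [H.wt_ae hΦ y ht] with z h1 hz
  have h3 := H.bp_near ht (by linarith) hs.near hz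
  refine ⟨bp m n p y t z / t, ?_, h1⟩
  rw [div_le_iff₀ ht]; linarith

/-- upper bound of `V` -/
theorem V_le (hΦ : Sf a Φ) (h1 : ∀ x, |Φ x| ≤ 1) {R₁ : ℝ} {y : M} (hy : dist y o ≤ R₁)
    (hs : Sc n K Cm a t) : I (wt m n p Φ y t) ≤ cB n A 1 (cL n Cm a) R₁ * √t ^ n := by
  have ht := hs.pos
  have h16 := hs.le16 H.one H.n_pos.le
  have h1 := H.wt_le' hΦ (fun x _ => h1 x) hs (s := t) (Γ := 1) (C₀ := 0) (R₁ := R₁) (q := y)
    (y := y) ht (by linarith) (by linarith) (by linarith) hy (by simp)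
  have h2 := I_mono (H.wt_int hΦ hy hs) (mem_smul _ (ph_mem1 H.ker ht y)) h1.1
  rw [I_smul, I_ph H.ker ht y, add_zero, one_mul, mul_one] at h2
  exact h2

/-- the constant of `V_ge` -/
noncomputable def _root_.Vale.Agent.P242.H937.cV (n : ℕ) (A Cm R₁ : ℝ) : ℝ :=
  2 * A * Real.exp (A * R₁) * (2 * Real.log (2 * Cm)) ^ n

/-- lower bound of `V` -/
theorem V_ge (hΦ : Sf a Φ) (h0 : ∀ x, 0 ≤ Φ x) (h1 : ∀ x, x ≤ 1 / 4 → 1 ≤ Φ x) {R₁ : ℝ} {y : M}
    (hy : dist y o ≤ R₁) (hs : Sc n K Cm a t) :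
    √t ^ n ≤ cV n A Cm R₁ * I (wt m n p Φ y t) := by
  have ht := hs.pos
  have h16 := hs.le16 H.one H.n_pos.le
  refine (H.vol_ge ht (by linarith) hy).trans ?_
  unfold cV
  have hlog : 0 ≤ Real.log (2 * Cm) := Real.log_nonneg (by have := H.one; linarith)
  have hA0 := H.kb.pos
  refine mul_le_mul_of_nonneg_left ?_ (by positivity)
  have i1 := memLp_one_iff_integrable.1 (H.wt_int hΦ hy hs)
  have e1 : (m (Metric.ball y (√t / 2))).toReal = ∫ z in Metric.ball y (√t / 2), (1 : ℝ) ∂m := by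
    simp [Measure.real]
  rw [e1]
  calc ∫ z in Metric.ball y (√t / 2), (1 : ℝ) ∂m
      ≤ ∫ z in Metric.ball y (√t / 2), wt m n p Φ y t z ∂m := by
        refine setIntegral_mono_on_ae (integrableOn_const (H.fin y _).ne) i1.integrableOn
          Metric.isOpen_ball.measurableSet ?_
        filter_upwards [H.wt_near' hΦ.cont y hs] with z hz hb
        obtain ⟨x, hx, e⟩ := hz (Metric.mem_ball.1 hb).le
        rw [e]; exact h1 x hx
    _ ≤ ∫ z, wt m n p Φ y t z ∂m := by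
        refine setIntegral_le_integral i1 ?_
        exact nonneg_iff_ae.1 (H.wt_nonneg hΦ.cont h0 y ht)

end Base

end Vale.Agent.P242.H937
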