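import Vale.Agent.P242.H937.SBW1
import Vale.Agent.P242.H363.KW3

/-! P242, packages A-RAD, A-GL1 (helper937, with helper363): the block `SB_W` of `H771/Sub.lean`. -/

set_option linter.all false

open MeasureTheory Filter Topology Set Metric
open scoped ENNReal NNReal ContDiff InnerProductSpace

universe u

namespace Vale.Agent.P242.H937

open Vale.Agent.P233 Vale.Agent.P242.H520 Vale.Agent.P242.H990
open Vale.Agent.P233.RA (gg ww cc)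
open Vale.Agent.P242.H71 (Env Cfg Gm gm Nt Dt uc E)
open Vale.Agent.P242.H703 (cH hf hf_hyp hf_Nt hf_gam hf_G one_le_cH sgn_bd)
open Vale.Agent.P242.H771 (SB_E1 SB_W EvO EvI E1At WAt)
open Vale.Agent.P242.H852 (tl ws)

variable {M : Type u} [MetricSpace M] [CompleteSpace M] [SecondCountableTopology M]
  [MeasurableSpace M] [BorelSpace M] {m : Measure M} {n : ℕ} {K : ℝ} {p : ℝ → M → M → ℝ}
  {o : M} {A Cm R Q η ρ A₀ a t : ℝ} {u : Fin n → M →ₘ[m] ℝ} {uu : M → E n} {Φ : ℝ → ℝ} {y : M}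

/-- **GL1-c** at one vertex and one time -/
theorem glc (h : Env m n K o A p) (H : Base m n K o A p Cm) {δ Λ B₁ Bν Λν CV : ℝ} (hΛ : 1 < Λ)
    (hV : ∀ (y : M) (t t' D : ℝ), dist y o ≤ 1 → Sc n K Cm a t → 0 < t' → t' < t → t ≤ Λ ^ 2 * t' →
      I (ph m p t y * |(n : ℝ) • 1 - (sob m).lap (bb m y t)|) ≤ D →
      I (ph m p t y * |(sob m).Γ (bb m y t) (bb m y t)
        - (2 : ℝ) • (bb m y t + (1 / 2 - n * t) • 1)|) ≤ t * D →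
      (∀ s, t < s → s ≤ 2 * t → nu m n K p y s y ≤ D) → (|K| + 1) * t ≤ D →
      |(√t ^ n)⁻¹ * I (wt m n p Φ y t) - (√t' ^ n)⁻¹ * I (wt m n p Φ y t')| ≤ CV * D)
    (hCV : 1 ≤ CV) (hB₁ : 1 ≤ B₁) (hBν : 1 ≤ Bν)
    (hν : ∀ (x y : M) (t s Q A₀ ρ : ℝ), dist x o ≤ 1 →
      0 < t → 1 * t ≤ s → s ≤ 2 * t → Λν * t ≤ Q * ρ ^ 2 → Q * ρ ^ 2 ≤ 1 / 2 → 0 ≤ A₀ →
      dist x y ≤ 0 * √t →
      H71.nu m n K p y s x ≤ Bν * ∫ s' in t..Q * ρ ^ 2, (t / s') ^ (1 / 8 : ℝ)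
        * (H71.nu m n K p y s' y / s') ∧
      H71.nu m n K p y s x ≤ Bν * H71.Dt m n K p Q A₀ ρ t y)
    (hρ : 0 < ρ) (hQ1 : 1 ≤ Q) (hQρ : Q * ρ ^ 2 ≤ 1 / 2) (hA₀ : 0 < A₀)
    (hDr : H71.DropS m n K o p R Q δ ρ) (hyR : y ∈ ball o (R * ρ)) (hyo : dist y o ≤ 1)
    (hs : Sc n K Cm a t) (tρ : t ≤ ρ ^ 2) (htν : Λν * t ≤ Q * ρ ^ 2)
    (hD1' : δ + A₀ ≤ 1) (hKρ : (|K| + 1) * ρ ^ 2 ≤ A₀) (e1 : E1At m n K p Q A₀ ρ B₁ t y) :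
    |I (wt m n p Φ y t) / √t ^ n - I (wt m n p Φ y (t / Λ ^ 2)) / √(t / Λ ^ 2) ^ n|
      ≤ CV * (B₁ + Bν + 1) * √(Dt m n K p Q A₀ ρ t y) := by
  have ht0 := hs.pos
  have hρ2 : 0 < ρ ^ 2 := by positivity
  have hKn := abs_nonneg K
  have hΛ2 : 1 < Λ ^ 2 := by nlinarith
  have hTQ : ρ ^ 2 ≤ Q * ρ ^ 2 := le_mul_of_one_le_left hρ2.le hQ1
  set DD : ℝ := B₁ + Bν + 1 with hDD
  set D := Dt m n K p Q A₀ ρ t y with hD
  have hfl : A₀ * (t / ρ ^ 2) ^ (1 / 8 : ℝ) ≤ D := H744.dt_ge_floor h ht0 (tρ.trans hTQ) y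
  have hD0 : 0 ≤ D := le_trans (by positivity) hfl
  have hD1 : D ≤ 1 := by
    have := H744.dt_le h hQ1 hρ hA₀.le hDr hyR ht0 tρ
    linarith
  have hDq : D ≤ √D := by
    rw [Real.le_sqrt hD0 hD0]
    nlinarith
  have hKt : (|K| + 1) * t ≤ D := by
    refine le_trans ?_ hfl
    have h1 : t / ρ ^ 2 ≤ 1 := (div_le_one hρ2).2 tρ
    have h2 : t / ρ ^ 2 ≤ (t / ρ ^ 2) ^ (1 / 8 : ℝ) := by
      conv_lhs => rw [← Real.rpow_one (t / ρ ^ 2)]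
      exact Real.rpow_le_rpow_of_exponent_ge (by positivity) h1 (by norm_num)
    calc (|K| + 1) * t = ((|K| + 1) * ρ ^ 2) * (t / ρ ^ 2) := by field_simp
      _ ≤ A₀ * (t / ρ ^ 2) ^ (1 / 8 : ℝ) := by gcongr
  have t'0 : 0 < t / Λ ^ 2 := by positivity
  have d1 : B₁ ≤ DD := by rw [hDD]; linarith
  have d2 : Bν ≤ DD := by rw [hDD]; linarith
  have d3 : 1 ≤ DD := by rw [hDD]; linarith
  have key := hV y t (t / Λ ^ 2) (DD * D) hyo hs t'0 (div_lt_self ht0 hΛ2)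
    (by rw [mul_div_cancel₀ _ (by positivity)]) (by
      refine (e1.mu).trans ?_
      gcongr) (by
      refine (e1.q).trans ?_
      calc B₁ * (t * D) ≤ DD * (t * D) := by gcongr
        _ = t * (DD * D) := by ring) (by
      intro s h1 h2
      have h3 := (hν y y t s Q A₀ ρ hyo ht0 (by linarith) h2 htν hQρ hA₀.le (by simp)).2
      rw [H.nu_voc y (ht0.trans h1)] at h3
      refine h3.trans ?_
      gcongr) (hKt.trans (le_mul_of_one_le_left hD0 d3))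
  have e2 : I (wt m n p Φ y t) / √t ^ n - I (wt m n p Φ y (t / Λ ^ 2)) / √(t / Λ ^ 2) ^ n
      = (√t ^ n)⁻¹ * I (wt m n p Φ y t) - (√(t / Λ ^ 2) ^ n)⁻¹ * I (wt m n p Φ y (t / Λ ^ 2)) := by
    rw [div_eq_inv_mul, div_eq_inv_mul]
  rw [e2]
  refine key.trans ?_
  calc CV * (DD * D) = (CV * DD) * D := by ring
    _ ≤ CV * DD * √D := by
      have : 0 ≤ CV * DD := by positivity
      gcongr

/-- smallness needed for (K) -/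
theorem kratio {r₀ Λ M' : ℝ} (hρ : 0 < ρ) (hM1 : 1 ≤ M') (hr1 : ρ / M' ≤ r₀) (hη : 0 < η)
    (hA₀ : 0 < A₀) (η2 : η ≤ A₀ / (2 * M' ^ (n + 1))) :
    2 * (ρ / r₀) ^ n * η ≤ A₀ * (tl r₀ Λ 0 / ρ ^ 2) ^ (1 / 4 : ℝ) := by
  have hM0 : 0 < M' := by linarith
  have hr₀ : 0 < r₀ := lt_of_lt_of_le (by positivity) hr1
  have tl0 : tl r₀ Λ 0 = r₀ ^ 2 := by rw [H852.tl_eq]; simp
  have h1 : ρ / r₀ ≤ M' := by
    rw [div_le_iff₀ hr₀]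
    rw [div_le_iff₀ hM0] at hr1
    linarith
  have h2 : (ρ / r₀) ^ n ≤ M' ^ n := pow_le_pow_left₀ (by positivity) h1 n
  have h3 : M'⁻¹ ≤ (tl r₀ Λ 0 / ρ ^ 2) ^ (1 / 4 : ℝ) := by
    rw [tl0]
    have h4 : M'⁻¹ ^ 4 ≤ r₀ ^ 2 / ρ ^ 2 := by
      have h5 : M'⁻¹ ≤ r₀ / ρ := by
        rw [inv_le_comm₀ hM0 (by positivity), inv_div]; exact h1
      have h6 : M'⁻¹ ≤ 1 := inv_le_one_of_one_le₀ hM1
      have h7 : 0 < M'⁻¹ := inv_pos.2 hM0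
      calc M'⁻¹ ^ 4 ≤ M'⁻¹ ^ 2 := pow_le_pow_of_le_one h7.le h6 (by norm_num)
        _ ≤ (r₀ / ρ) ^ 2 := pow_le_pow_left₀ h7.le h5 2
        _ = _ := by rw [div_pow]
    have h8 : M'⁻¹ = (M'⁻¹ ^ 4) ^ (1 / 4 : ℝ) := by
      rw [← Real.rpow_natCast, ← Real.rpow_mul (by positivity)]
      norm_num
    rw [h8]
    exact Real.rpow_le_rpow (by positivity) h4 (by norm_num)
  rw [le_div_iff₀ (by positivity)] at η2
  have h9 : 2 * M' ^ n * η ≤ A₀ * M'⁻¹ := by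
    rw [← div_eq_mul_inv, le_div_iff₀ hM0]
    calc 2 * M' ^ n * η * M' = η * (2 * M' ^ (n + 1)) := by ring
      _ ≤ A₀ := η2
  calc 2 * (ρ / r₀) ^ n * η ≤ 2 * M' ^ n * η := by gcongr
    _ ≤ A₀ * M'⁻¹ := h9
    _ ≤ _ := by gcongr

/-- **(K)** at one vertex -/
theorem kf (h : Env m n K o A p) (H : Base m n K o A p Cm) (hu : Cfg m n K o p R Q η ρ u uu)
    {ε L Λ M' CK r₀ : ℝ} (hη : 0 < η) (hL0 : 1 ≤ L) (hQ : 8 * A ^ 2 ≤ Q) (hQ1 : 1 ≤ Q)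
    (hΛ : 1 < Λ) (hM1 : 1 ≤ M') (hMA : 2 * A ^ 2 * Λ ^ 2 ≤ M') (hA₀ : 0 < A₀)
    (hA16 : A₀ ≤ 1 / 16) (hε' : ε ≤ 1 / 16)
    (q : H703.HF.Par Q (12 * n * cH n A L * η) A₀ (3 / 8)) (η2 : η ≤ A₀ / (2 * M' ^ (n + 1)))
    (hT : H71.TT m K o p (R / 2) Q ε ρ u) (hyR2 : y ∈ ball o (R / 2 * ρ))
    (hyR : y ∈ ball o (R * ρ)) (hyo : dist y o ≤ 1)
    (hsc : ∀ {t}, 0 < t → t ≤ ρ ^ 2 / M' → Sc n K Cm 2 t)
    (hK : Sc n K Cm 2 (r₀ ^ 2) → 2 * A ^ 2 * Λ ^ 2 * r₀ ^ 2 ≤ ρ ^ 2 → ρ ^ 2 ≤ 1 / 2 →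
      2 * (ρ / r₀) ^ n * η ≤ A₀ * (tl r₀ Λ 0 / ρ ^ 2) ^ (1 / 4 : ℝ) →
      (∀ c : E n, uc u c ∈ (sob m).Test) →
      (∀ c : E n, ρ ^ 2 * gm m K p u (ρ ^ 2) y c c ≤ η * ‖c‖ ^ 2) →
      (∀ j (c : E n), (tl r₀ Λ j / ρ ^ 2) ^ (1 / 8 : ℝ) * ‖c‖ ^ 2 ≤
        2 * Gm m p u (tl r₀ Λ j) y c c) →
      ∀ j v s, tl r₀ Λ (j + 1) ≤ s → s ≤ tl r₀ Λ j →
        tl r₀ Λ (j + 1) * gm m K p u s y v v ≤
          CK * (ws (Λ ^ (-(1 / 2) : ℝ) / 2)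
            (fun i => H363.PJ m n K p H363.Xi y (r₀ / Λ ^ i) (uc u v)) (j + 1) +
          A₀ * (tl r₀ Λ 0 / ρ ^ 2) ^ (1 / 8 : ℝ) * (Λ ^ (-(1 / 2) : ℝ) / 2) ^ (j + 1) *
            Gm m p u (tl r₀ Λ (j + 1)) y v v))
    (hr1 : ρ / M' ≤ r₀) (hr2 : r₀ ≤ ρ / √M') {B : ℝ} (hCB : CK ≤ B) (j : ℕ) (v : E n) (s : ℝ)
    (hs1 : tl r₀ Λ (j + 1) ≤ s) (hs2 : s ≤ tl r₀ Λ j) :
    tl r₀ Λ (j + 1) * gm m K p u s y v v ≤
      B * (ws (Λ ^ (-(1 / 2) : ℝ) / 2) (fun i =>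
          (sob m).NN (-|K|) (uc u v) (uc u v) (tl r₀ Λ i • wt m n p H363.Xi y (tl r₀ Λ i)) /
            √(tl r₀ Λ i) ^ n) (j + 1) +
        A₀ * (tl r₀ Λ 0 / ρ ^ 2) ^ (1 / 8 : ℝ) * (Λ ^ (-(1 / 2) : ℝ) / 2) ^ (j + 1) *
          Gm m p u (tl r₀ Λ (j + 1)) y v v) := by
  have hρ := hu.ρ_pos
  have hρ2 : 0 < ρ ^ 2 := by positivity
  have hΛ0 : 0 < Λ := by linarith
  have hΛ2 : 1 < Λ ^ 2 := by nlinarith
  have hM0 : 0 < M' := by linarith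
  have hQρ := hu.Qρ
  have hH := hf_hyp h hu hη.le hL0 hQ (le_refl R)
  have hTQ := hH.T_le
  have hr₀ : 0 < r₀ := lt_of_lt_of_le (by positivity) hr1
  have hr₀2 : r₀ ^ 2 ≤ ρ ^ 2 / M' := by
    have := pow_le_pow_left₀ hr₀.le hr2 2
    rwa [div_pow, Real.sq_sqrt hM0.le] at this
  have hr₀2' : r₀ ^ 2 * M' ≤ ρ ^ 2 := by rwa [le_div_iff₀ hM0] at hr₀2
  have hut : ∀ c : E n, uc u c ∈ (sob m).Test := fun c => H703.uc_test h hu c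
  have tle : ∀ i, tl r₀ Λ i ≤ r₀ ^ 2 := fun i => by
    rw [H852.tl_eq]
    exact div_le_self (by positivity) (one_le_pow₀ hΛ2.le)
  have hKT : 2 * A ^ 2 * Λ ^ 2 * r₀ ^ 2 ≤ ρ ^ 2 := by
    calc 2 * A ^ 2 * Λ ^ 2 * r₀ ^ 2 ≤ M' * r₀ ^ 2 := by gcongr
      _ ≤ ρ ^ 2 := by linarith
  have hlow : ∀ j (c : E n), (tl r₀ Λ j / ρ ^ 2) ^ (1 / 8 : ℝ) * ‖c‖ ^ 2 ≤
      2 * Gm m p u (tl r₀ Λ j) y c c := by
    intro j c
    have tj : 0 < tl r₀ Λ j := H852.tl_pos hr₀ hΛ0 j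
    have tjρ : tl r₀ Λ j ≤ ρ ^ 2 := (tle j).trans (hr₀2.trans (div_le_self hρ2.le hM1))
    have hη8 : 12 * n * cH n A L * η ≤ 1 / 8 := (hH.η_le q).trans (by linarith)
    have hS := H703.hf_small h hu hQ1 hT tj hyR2
    have := hH.G_lower (ε := ε) (a := 1 / 8) (by linarith) (by linarith) hη8 tj tjρ hyR hS c
    rwa [hf_G h hu tj] at this
  have hρ12 : ρ ^ 2 ≤ 1 / 2 := hTQ.trans hQρ
  have hgam : ∀ c : E n, ρ ^ 2 * gm m K p u (ρ ^ 2) y c c ≤ η * ‖c‖ ^ 2 := fun c =>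
    hu.gam y hyR (ρ ^ 2) (div_le_self hρ2.le hQ1) hTQ c
  have key := hK (hsc (by positivity) hr₀2) hKT hρ12 (kratio hρ hM1 hr1 hη hA₀ η2) hut hgam hlow
    j v s hs1 hs2
  refine key.trans ?_
  have eP : (fun i => H363.PJ m n K p H363.Xi y (r₀ / Λ ^ i) (uc u v))
      = fun i => (sob m).NN (-|K|) (uc u v) (uc u v) (tl r₀ Λ i • wt m n p H363.Xi y (tl r₀ Λ i))
        / √(tl r₀ Λ i) ^ n := by
    funext i
    have e1 : tl r₀ Λ i = (r₀ / Λ ^ i) ^ 2 := rfl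
    have e2 : √(tl r₀ Λ i) = r₀ / Λ ^ i := by
      rw [e1, Real.sqrt_sq (by positivity)]
    rw [e2, e1]
    unfold H363.PJ
    exact inv_mul_eq_div _ _
  rw [eP]
  refine mul_le_mul_of_nonneg_right hCB ?_
  have hP0 : ∀ i, 0 ≤ (sob m).NN (-|K|) (uc u v) (uc u v)
      (tl r₀ Λ i • wt m n p H363.Xi y (tl r₀ Λ i)) / √(tl r₀ Λ i) ^ n := by
    intro i
    have ti : 0 < tl r₀ Λ i := H852.tl_pos hr₀ hΛ0 i
    have tis : Sc n K Cm 2 (tl r₀ Λ i) := hsc ti ((tle i).trans hr₀2)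
    refine div_nonneg ?_ (by positivity)
    refine H.gamma.NN_nonneg H.bei' (hut v) (H.dir.A_smul _ (H.wt_A Xi363_sf y tis)) ?_
    exact smul_nonneg' ti.le (H.wt_nonneg Xi363_sf.cont H363.Xi_nonneg y ti)
  have hws : 0 ≤ ws (Λ ^ (-(1 / 2) : ℝ) / 2) (fun i => (sob m).NN (-|K|) (uc u v) (uc u v)
      (tl r₀ Λ i • wt m n p H363.Xi y (tl r₀ Λ i)) / √(tl r₀ Λ i) ^ n) (j + 1) := by
    unfold ws
    exact Finset.sum_nonneg fun i _ => mul_nonneg (by positivity) (hP0 i)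
  have hG0 := H703.Gm_nonneg h hu (H852.tl_pos hr₀ hΛ0 (j + 1)) y v
  have : 0 < tl r₀ Λ 0 := H852.tl_pos hr₀ hΛ0 0
  positivity

/-- the thresholds -/
theorem thr {L Λν Λ M' t₀ δ : ℝ} (hQ : 0 < Q) (hn : 0 < (n : ℝ)) (hcH : 1 ≤ cH n A L)
    (hA : 1 ≤ A) (hL : 1 ≤ L) (hΛν : 1 ≤ Λν) (hA₀ : 0 < A₀)
    (hM : Λν + 2 + L ^ 2 + 2 * A ^ 2 * Λ ^ 2 ≤ M') (hρ : 0 < ρ)
    (hη' : η ≤ min (min (A₀ / (Q * (12 * n * cH n A L))) (A₀ / (2 * M' ^ (n + 1))))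
      (min (min t₀ (1 / 2)) (A₀ / (|K| + 1))))
    (hδ : δ ≤ min (min (A₀ / (Q * (12 * n * cH n A L))) (A₀ / (2 * M' ^ (n + 1))))
      (min (min t₀ (1 / 2)) (A₀ / (|K| + 1))))
    (hρ' : ρ ≤ min (min (A₀ / (Q * (12 * n * cH n A L))) (A₀ / (2 * M' ^ (n + 1))))
      (min (min t₀ (1 / 2)) (A₀ / (|K| + 1)))) :
    Q * (12 * n * cH n A L * η) ≤ A₀ ∧ η ≤ A₀ / (2 * M' ^ (n + 1)) ∧ δ ≤ 1 / 2 ∧
      ρ ^ 2 ≤ t₀ ∧ (|K| + 1) * ρ ^ 2 ≤ A₀ ∧ 2 ≤ M' ∧ Λν ≤ M' ∧ L ^ 2 ≤ M' ∧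
      2 * A ^ 2 * Λ ^ 2 ≤ M' := by
  have hKn := abs_nonneg K
  have ρ1 : ρ ≤ t₀ := hρ'.trans ((min_le_right _ _).trans ((min_le_left _ _).trans
    (min_le_left _ _)))
  have ρ2 : ρ ≤ 1 / 2 := hρ'.trans ((min_le_right _ _).trans ((min_le_left _ _).trans
    (min_le_right _ _)))
  have ρ3 : ρ ≤ A₀ / (|K| + 1) := hρ'.trans ((min_le_right _ _).trans (min_le_right _ _))
  have ρsq : ρ ^ 2 ≤ ρ := by nlinarith
  have a1 : 0 ≤ L ^ 2 := by positivity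
  have a2 : 0 ≤ 2 * A ^ 2 * Λ ^ 2 := by positivity
  refine ⟨?_, hη'.trans ((min_le_left _ _).trans (min_le_right _ _)),
    hδ.trans ((min_le_right _ _).trans ((min_le_left _ _).trans (min_le_right _ _))),
    ρsq.trans ρ1, ?_, by linarith, by linarith, by linarith, by linarith⟩
  · have η1 : η ≤ A₀ / (Q * (12 * n * cH n A L)) :=
      hη'.trans ((min_le_left _ _).trans (min_le_left _ _))
    rw [le_div_iff₀ (by positivity)] at η1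
    calc Q * (12 * n * cH n A L * η) = η * (Q * (12 * n * cH n A L)) := by ring
      _ ≤ A₀ := η1
  · rw [le_div_iff₀ (by positivity)] at ρ3
    calc (|K| + 1) * ρ ^ 2 ≤ (|K| + 1) * ρ := by gcongr
      _ = ρ * (|K| + 1) := by ring
      _ ≤ A₀ := ρ3

/-- **A-RAD, A-GL1.** -/
theorem sb_w (h : Env m n K o A p) (hE : SB_E1 m n K o p) : SB_W m n K o p := by
  obtain ⟨Cm, H⟩ := Base.ofEnv h
  have hC1 := H.one
  have hA := h.kb.one_le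
  have hA2 : 1 ≤ A ^ 2 := one_le_pow₀ hA
  have hn0 : (0 : ℝ) < n := H.n_pos
  obtain ⟨B₀, hB₀, hb⟩ := H363.exists_psi_bound n hn0.le
  obtain ⟨t₀, ht₀⟩ := Sc.ex n K (a := 2) hC1 (by norm_num)
  set L := cL n Cm 2 with hL
  have hL0 : 1 ≤ L := by rw [hL]; unfold cL; linarith
  have hcH := one_le_cH (n := n) hA (show 0 ≤ L by linarith)
  obtain ⟨Bν, Λν, hBν, hΛν, hν⟩ := H744.nu_le_dt h (C₀ := 0) (c₁ := 1) (C₁ := 2) le_rfl one_pos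
    (by norm_num)
  unfold SB_W H771.Sub
  unfold SB_E1 H771.Sub at hE
  refine (hE.and (EvO.thr (8 * A ^ 2) (fun _ => 4) (fun _ _ => 16))).mono ?_
  rintro Q R Λ ⟨⟨B₁, hB₁, hI⟩, ⟨hQ1, hQ⟩, ⟨hR1, hR⟩, ⟨hΛ16, -⟩⟩
  have hΛ1 : 1 < Λ := by linarith
  have hΛ0 : 0 < Λ := by linarith
  have hΛ2 : 1 < Λ ^ 2 := by nlinarith
  obtain ⟨CV, hCV, hV⟩ := H.V_step (R₁ := 1) psi_sf (Γ := Λ ^ 2) hΛ2.le
  obtain ⟨CK, hCK, hK⟩ := H363.K_field.{u} n (A := A) (Λ := Λ) (R₁ := 1) (ξ := H363.Xi 1) hA hΛ1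
    H363.Xi_one_pos zero_le_one
  set B : ℝ := B₀ * cB n A 1 L 1 + L + |cV n A Cm 1| + cGLb n A L L + CV * (B₁ + Bν + 1) + CK
    with hB
  have cB0 : 0 < cB n A 1 L 1 := cB_pos hA one_pos
  have cG0 : 0 ≤ cGLb n A L L := by unfold cGLb; positivity
  have b1 : 0 ≤ B₀ * cB n A 1 L 1 := by positivity
  have b2 := abs_nonneg (cV n A Cm 1)
  have b3 : 0 ≤ CV * (B₁ + Bν + 1) := by positivity
  have B1 : B₀ * cB n A 1 L 1 ≤ B := by linarith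
  have B2 : L ≤ B := by linarith
  have B3 : cV n A Cm 1 ≤ B := by have := le_abs_self (cV n A Cm 1); linarith
  have B4 : cGLb n A L L ≤ B := by linarith
  have B5 : CV * (B₁ + Bν + 1) ≤ B := by linarith
  have B6 : CK ≤ B := by linarith
  have hBB : 1 ≤ B := hL0.trans B2
  clear_value B
  refine ⟨B, hBB, ?_⟩
  refine (hI.and (EvI.thr (a := 1 / 16) (by norm_num)
    (fun _ => Λν + 2 + L ^ 2 + 2 * A ^ 2 * Λ ^ 2)
    (c := fun A₀ M' => min (min (A₀ / (Q * (12 * n * cH n A L))) (A₀ / (2 * M' ^ (n + 1))))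
      (min (min t₀ (1 / 2)) (A₀ / (|K| + 1)))) ?_)).mono ?_
  · intro A₀ M' h0 h1
    have h2 := ht₀.pos
    have h3 := abs_nonneg K
    refine lt_min (lt_min (by positivity) (by positivity)) (lt_min (lt_min h2 (by norm_num)) ?_)
    positivity
  rintro A₀ M' ε η δ ρ ⟨hE1, ⟨hA₀, hA₀'⟩, ⟨hM1, hM⟩, ⟨hε, hε'⟩, ⟨hη, hη'⟩, hδ, hρ'⟩ u uu hu hDr hT y hy
  have hρ := hu.ρ_pos
  have hρ2 : 0 < ρ ^ 2 := by positivity
  have hM0 : 0 < M' := by linarith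
  obtain ⟨η1, η2, δ1, ρ1, ρ3, hM2, hMν, hML, hMA⟩ := thr (K := K) (by linarith : 0 < Q) hn0 hcH hA
    hL0 hΛν hA₀ hM hρ hη' hδ hρ'
  have q : H703.HF.Par Q (12 * n * cH n A L * η) A₀ (3 / 8) :=
    ⟨by norm_num, by norm_num, η1, by linarith⟩
  have hyR2 : y ∈ ball o (R / 2 * ρ) := by
    rw [mem_ball] at hy ⊢
    have : R / 4 * ρ ≤ R / 2 * ρ := by gcongr; norm_num
    linarith
  have hyR : y ∈ ball o (R * ρ) := by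
    rw [mem_ball] at hyR2 ⊢
    have : R / 2 * ρ ≤ R * ρ := by gcongr; linarith
    linarith
  have hyo : dist y o ≤ 1 := (mem_ball.1 hyR).le.trans hu.Rρ
  have hTQ : ρ ^ 2 ≤ Q * ρ ^ 2 := le_mul_of_one_le_left hρ2.le hQ1
  have htρ : ∀ {t}, t ≤ ρ ^ 2 / M' → t ≤ ρ ^ 2 := fun ht =>
    ht.trans (div_le_self hρ2.le hM1)
  have hsc : ∀ {t}, 0 < t → t ≤ ρ ^ 2 / M' → Sc n K Cm 2 t := fun ht0 ht =>
    ht₀.le hC1 ht0 ((htρ ht).trans ρ1)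
  have htM : ∀ {t}, t ≤ ρ ^ 2 / M' → M' * t ≤ ρ ^ 2 := fun ht => by
    rw [le_div_iff₀ hM0] at ht; linarith
  refine ⟨fun t => wt m n p H363.psi y t, fun t => t⁻¹ • wt m n p (deriv H363.psi) y t,
    fun t => (t⁻¹ * t⁻¹) • wt m n p (deriv (deriv H363.psi)) y t,
    fun t => t • wt m n p H363.Xi y t, ?_, ?_⟩
  · intro t ht0 ht
    have hs := hsc ht0 ht
    have tρ := htρ ht
    have tM := htM ht
    refine ⟨wAt H hs hB₀ hb B1 B2 B3 hyo, ?_, ?_⟩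
    · -- GL1-b
      intro c c'
      have h2t : 2 * t ≤ ρ ^ 2 := by
        have : 2 * t ≤ M' * t := by gcongr
        linarith
      have hyz : cL n Cm 2 * √t ≤ R / 2 * ρ := by
        have h1 : (L * √t) ^ 2 ≤ ρ ^ 2 := by
          rw [mul_pow, Real.sq_sqrt ht0.le]
          have : L ^ 2 * t ≤ M' * t := by gcongr
          linarith
        have h2 : L * √t ≤ ρ := le_of_sq_le_sq h1 hρ.le
        have h3 : 1 * ρ ≤ R / 2 * ρ := by gcongr; linarith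
        linarith
      refine (glb h H hu hη.le hQ hL0 le_rfl q psi_sf H363.psi_nonneg H363.psi_le_one hs h2t hyR2
        hyz c c').trans ?_
      exact mul_le_mul_of_nonneg_right B4 (by positivity)
    · -- GL1-c
      refine (glc h H hΛ1 hV hCV hB₁ hBν hν hρ hQ1 hu.Qρ hA₀ hDr hyR hyo hs tρ ?_ (by linarith) ρ3
        (hE1 u uu hu hDr hT y hyR2 t ht0 tρ)).trans ?_
      · have : Λν * t ≤ M' * t := by gcongr
        linarith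
      · exact mul_le_mul_of_nonneg_right B5 (Real.sqrt_nonneg _)
  · -- (K)
    intro r₀ hr1 hr2 j v s hs1 hs2
    have hr₀ : 0 < r₀ := lt_of_lt_of_le (by positivity) hr1
    exact kf h H hu hη hL0 hQ hQ1 hΛ1 hM1 hMA hA₀ hA₀' hε' q η2 hT hyR2 hyR hyo hsc
      (fun k1 k2 k3 k4 k5 k6 k7 => hK H Xi363_sf H363.Xi_nonneg
        (fun x hx => H363.Xi_ge (by linarith)) y hyo r₀ ρ η A₀ hr₀ hρ k1 k2 k3 hη.le hA₀.le k4 u k5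
        k6 k7) hr1 hr2 B6 j v s hs1 hs2

end Vale.Agent.P242.H937
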