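import Vale.Agent.P242.H937.Vk2
import Vale.Agent.P242.H71.Voc

/-! P242, package A-GL1 (helper937): the objects of this folder in the frozen vocabulary
`H71/Voc.lean`. -/

set_option linter.all false

open MeasureTheory Filter Topology Set
open scoped ENNReal NNReal ContDiff

universe u

namespace Vale.Agent.P242.H937

open Vale.Agent.P233 Vale.Agent.P242.H520 Vale.Agent.P242.H990
open Vale.Agent.P233.RA (gg ww cc)

variable {M : Type u} [MetricSpace M] [CompleteSpace M] [SecondCountableTopology M]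
  [MeasurableSpace M] [BorelSpace M] {m : Measure M} {n : ℕ} {K : ℝ} {p : ℝ → M → M → ℝ}

theorem hyp_of_hypL (h : H71.HypL m n K) : CD.Hyp m n K := ⟨h.1, h.2, h.3, h.4⟩

theorem Base.ofEnv {o : M} {A : ℝ} (h : H71.Env m n K o A p) : ∃ Cm, Base m n K o A p Cm :=
  Base.of (hyp_of_hypL h.hyp) h.ker h.kb

theorem bb_voc (y : M) (t : ℝ) : H71.bb m y t = bb m y t := rfl

namespace Base

variable {o : M} {A Cm : ℝ} (H : Base m n K o A p Cm) {s t : ℝ}
include H

theorem PP_w (y x : M) (hs : 0 < s) :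
    H71.PP m p s x (cl m (ww (1 / 2) y)) = pt m p s (ww (1 / 2) y) x := by
  unfold H71.PP
  rw [I_ph_mul H.ker hs, pt_congr H.ker (w_ae y)]

theorem bp_voc (y : M) (ht : 0 < t) (z : M) : H71.bp m n p y t z = bp m n p y t z := by
  unfold H71.bp bp
  rw [H.PP_w y z ht]

theorem nu_voc (y : M) (hs : 0 < s) (x : M) : H71.nu m n K p y s x = nu m n K p y s x := by
  have hC := H.dir
  have h1 := I_Γ_ph hC H.ker hs x (H.w_A y).1
  rw [hC.symm _ (ph_mem hC H.ker hs x) _ (H.w_A y).1] at h1
  have h2 := H.PP_w y x hs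
  unfold H71.PP at h2
  unfold H71.nu H71.nuF nu
  rw [I_ph H.ker hs x, h1, h2]
  ring

end Base

end Vale.Agent.P242.H937
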