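import Vale.Agent.P233.H103.Semi5

/-! P242, package F-GRAD, part G1: the strong gradient estimate
`|grad P_t f| <= exp(-kappa t) P_t |grad f|` in the abstract calculus, from the weak Bochner
inequality `BE(kappa, infinity)`. The first part is the improved Bochner inequality. -/

set_option linter.all false

open MeasureTheory Filter Topology
open scoped ENNReal NNReal InnerProductSpace

namespace Vale.Agent.P242.H937

open Vale.Agent.P233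

variable {M : Type*} [MeasurableSpace M] {m : Measure M} {C : Calc m}

/-! ### square roots of classes -/

/-- square root of a class -/
noncomputable def rt (f : M →ₘ[m] ℝ) : M →ₘ[m] ℝ :=
  AEEqFun.comp Real.sqrt Real.continuous_sqrt f

theorem rt_ae (f : M →ₘ[m] ℝ) : ∀ᵐ x ∂m, rt f x = √(f x) :=
  AEEqFun.coeFn_comp Real.sqrt Real.continuous_sqrt f

theorem rt_nonneg (f : M →ₘ[m] ℝ) : 0 ≤ rt f := by
  rw [nonneg_iff_ae]
  filter_upwards [rt_ae f] with x hx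
  rw [hx]; exact Real.sqrt_nonneg _

theorem rt_sq {f : M →ₘ[m] ℝ} (h0 : 0 ≤ f) : rt f ^ 2 = f := by
  rw [eq_iff_ae]
  filter_upwards [rt_ae f, sq_ae (rt f), nonneg_iff_ae.1 h0] with x h1 h2 h3
  rw [h2, h1, Real.sq_sqrt h3]

theorem rt_mem2 {f : M →ₘ[m] ℝ} (h0 : 0 ≤ f) (hf : MemLp f 1 m) : MemLp (rt f) 2 m := by
  refine memLp_two_of_sq ?_
  rw [rt_sq h0]; exact hf

/-- `|sqrt(Gamma f) - sqrt(Gamma g)| <= sqrt(Gamma(f-g))` -/
theorem rt_sub_le (hD : IsDir C) {f g : M →ₘ[m] ℝ} (hf : f ∈ C.W) (hg : g ∈ C.W) :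
    ∀ᵐ x ∂m, (rt (C.Γ f f) x - rt (C.Γ g g) x) ^ 2 ≤ C.Γ (f - g) (f - g) x := by
  have hfg := hD.sub_mem hf hg
  have e : C.Γ (f - g) (f - g) = C.Γ f f - (2 : ℝ) • C.Γ f g + C.Γ g g := by
    rw [hD.Γ_sub_left hf hg hfg, hD.Γ_sub_right hf hf hg, hD.Γ_sub_right hg hf hg,
      hD.symm g hg f hf]
    algebra
  rw [e]
  filter_upwards [rt_ae (C.Γ f f), rt_ae (C.Γ g g), hD.Γ_nonneg_ae hf, hD.Γ_nonneg_ae hg,
    hD.Γ_abs_ae hf hg, add_ae (C.Γ f f - (2 : ℝ) • C.Γ f g) (C.Γ g g),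
    sub_ae (C.Γ f f) ((2 : ℝ) • C.Γ f g), smul_ae (C.Γ f g) (2 : ℝ)] with x h1 h2 h3 h4 h5 h6 h7 h8
  rw [h1, h2, h6, h7, h8, sub_sq, Real.sq_sqrt h3, Real.sq_sqrt h4]
  have := le_abs_self (C.Γ f g x)
  linarith only [this, h5]

theorem rt_T2 (hD : IsDir C) {u : ℕ → M →ₘ[m] ℝ} {f : M →ₘ[m] ℝ} (h : C.TW u f) :
    T2 (fun n => rt (C.Γ (u n) (u n))) (rt (C.Γ f f)) := by
  refine ⟨fun n => rt_mem2 (hD.nonneg _ (h.mem n)) (hD.mem1 _ (h.mem n)),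
    rt_mem2 (hD.nonneg _ h.mem') (hD.mem1 _ h.mem'), ?_⟩
  refine squeeze_zero (fun n => I_sq_nonneg _) (fun n => ?_) (hD.TW_E h)
  refine I_mono (mem_sq (mem_sub (rt_mem2 (hD.nonneg _ (h.mem n)) (hD.mem1 _ (h.mem n)))
    (rt_mem2 (hD.nonneg _ h.mem') (hD.mem1 _ h.mem')))) (hD.mem1 _ (hD.sub_mem (h.mem n) h.mem')) ?_
  rw [le_iff_ae]
  filter_upwards [rt_sub_le hD (h.mem n) h.mem', sq_ae (rt (C.Γ (u n) (u n)) - rt (C.Γ f f)),
    sub_ae (rt (C.Γ (u n) (u n))) (rt (C.Γ f f))] with x h1 h2 h3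
  rw [h2, h3]; exact h1

/-! ### the improved Bochner inequality -/

section impr

variable (hC : IsGamma C) {κ : ℝ} (hB : C.BEi κ)
variable {b f g h φ ψ s : M →ₘ[m] ℝ}

include hC hB

theorem impr0 [SigmaFinite m] (hb : b ∈ C.Test) (hg : g ∈ C.Test) (hs : MemLp s ∞ m)
    (hφ : φ ∈ C.A) (h0 : 0 ≤ φ) :
    0 ≤ C.NN κ b b φ + 2 * I (φ * s * C.Γ g (C.Γ b b))
      + 2 * I (φ * s ^ 2 * (C.Γ b b * C.Γ g g + C.Γ b g ^ 2)) := by
  have hD := hC.toIsDir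
  have bA := hC.test_A hb
  have gA := hC.test_A hg
  obtain ⟨η, h1, -, h3⟩ := hC.cutoff
  obtain ⟨K, hK⟩ := mem_top_iff.1 hs
  have hη1 : ∀ k, ∀ᵐ x ∂m, |η k x| ≤ 1 := by
    intro k
    filter_upwards [nonneg_iff_ae.1 (h1 k).2.1, le_iff_ae.1 (h1 k).2.2.1,
      one_ae (M := M) (m := m)] with x b1 b2 b3
    rw [abs_of_nonneg b1]
    rwa [b3] at b2
  have hηt : ∀ k, MemLp (η k) ∞ m := fun k => mem_top_iff.2 ⟨1, hη1 k⟩
  have hη2 : ∀ k, MemLp (η k) 2 m := fun k => hD.memLp _ (h1 k).1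
  have eK : C.KK b b g = C.Γ g (C.Γ b b) := by
    unfold Calc.KK Calc.hess; algebra
  have eM : C.MM b g b g = C.Γ b b * C.Γ g g + C.Γ b g ^ 2 := by
    unfold Calc.MM
    rw [hD.symm g gA.1 b bA.1, sq]
  have key : ∀ k : ℕ, 0 ≤ C.NN κ b b φ + 2 * I (η k * (φ * s * C.Γ g (C.Γ b b)))
      + 2 * I (η k ^ 2 * (φ * s ^ 2 * (C.Γ b b * C.Γ g g + C.Γ b g ^ 2))) := by
    intro k
    have h4 := hC.tensor_ineq' hB (n := 1) hb (F := fun _ => b) (H := fun _ => g)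
      (s := fun _ => η k * s) (fun _ => hb) (fun _ => hg)
      (fun _ => mem_mul_top (hηt k) hs) (fun _ => mem_top_mul (hη2 k) hs) hφ h0
    simp only [Finset.univ_unique, Finset.sum_singleton] at h4
    rw [eK, eM] at h4
    have e1 : φ * (η k * s * C.Γ g (C.Γ b b)) = η k * (φ * s * C.Γ g (C.Γ b b)) := by ring
    have e2 : φ * (η k * s * (η k * s) * (C.Γ b b * C.Γ g g + C.Γ b g ^ 2))
        = η k ^ 2 * (φ * s ^ 2 * (C.Γ b b * C.Γ g g + C.Γ b g ^ 2)) := by ring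
    rw [e1, e2] at h4
    exact h4
  have hconv : ∀ᵐ x ∂m, Tendsto (fun k => η k x) atTop (𝓝 ((1 : M →ₘ[m] ℝ) x)) := by
    filter_upwards [h3, one_ae (M := M) (m := m)] with x b1 b2
    rw [b2]; exact b1
  have hconv2 : ∀ᵐ x ∂m, Tendsto (fun k => (η k ^ 2 : M →ₘ[m] ℝ) x) atTop
      (𝓝 ((1 : M →ₘ[m] ℝ) x)) := by
    filter_upwards [h3, one_ae (M := M) (m := m), ae_all_iff.2 fun k => sq_ae (η k)]
      with x b1 b2 b3
    rw [b2]
    simp only [b3]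
    simpa using b1.pow 2
  have hη12 : ∀ k, ∀ᵐ x ∂m, |(η k ^ 2 : M →ₘ[m] ℝ) x| ≤ 1 := by
    intro k
    filter_upwards [hη1 k, sq_ae (η k)] with x b1 b2
    rw [b2, abs_pow]
    exact pow_le_one₀ (abs_nonneg _) b1
  have vA := hC.Γ_mem hB hb hb
  have n1 : MemLp (φ * s * C.Γ g (C.Γ b b) : M →ₘ[m] ℝ) 1 m :=
    mem_mul_top (mem_mul_top hφ.2 hs) (hD.Γ_mem1 gA.1 vA.1)
  have hss : MemLp (s ^ 2 : M →ₘ[m] ℝ) ∞ m := by
    rw [sq]; exact mem_mul_top hs hs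
  have hbg2 : MemLp (C.Γ b g) 2 m := hD.Γ_mem2 bA.1 (hC.test_Γ_top hb) gA.1
  have n2 : MemLp (φ * s ^ 2 * (C.Γ b b * C.Γ g g + C.Γ b g ^ 2) : M →ₘ[m] ℝ) 1 m :=
    mem_mul_top (mem_mul_top hφ.2 hss) (mem_add (mem_mul_top vA.2 (hD.mem1 _ gA.1)) (mem_sq hbg2))
  have l1 := I_tendsto_of_bdd hη1 hconv n1
  have l2 := I_tendsto_of_bdd hη12 hconv2 n2
  rw [one_mul] at l1 l2
  exact ge_of_tendsto (((tendsto_const_nhds (x := C.NN κ b b φ)).add (l1.const_mul 2)).add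
    (l2.const_mul 2)) (Eventually.of_forall key)

/-- the same for `g` in the Sobolev space -/
theorem impr1 [SigmaFinite m] (hb : b ∈ C.Test) (hg : g ∈ C.W) (hs : MemLp s ∞ m)
    (hφ : φ ∈ C.A) (h0 : 0 ≤ φ) :
    0 ≤ C.NN κ b b φ + 2 * I (φ * s * C.Γ g (C.Γ b b))
      + 2 * I (φ * s ^ 2 * (C.Γ b b * C.Γ g g + C.Γ b g ^ 2)) := by
  have hD := hC.toIsDir
  have bA := hC.test_A hb
  have vA := hC.Γ_mem hB hb hb
  have hss : MemLp (s ^ 2 : M →ₘ[m] ℝ) ∞ m := by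
    rw [sq]; exact mem_mul_top hs hs
  choose u hu1 hu2 using fun n : ℕ => hC.test_dense hB hg
    (show (0 : ℝ) < ((n : ℝ) + 1)⁻¹ by positivity)
  have uW := fun n => (hC.test_A (hu1 n)).1
  have hT : C.TW u g := by
    refine ⟨uW, hg, squeeze_zero (fun n => hD.nrm2_nonneg (hD.sub_mem (uW n) hg))
      (fun n => (hu2 n).le) tendsto_inv_succ⟩
  obtain ⟨K, hK⟩ := mem_top_iff.1 (hC.test_Γ_top hb)
  have hK' : ∀ᵐ x ∂m, C.Γ b b x ≤ K := by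
    filter_upwards [hK] with x hx
    exact (abs_le.1 hx).2
  have l1 := hD.TW_Γ (Tb.const (x := φ * s) (mem_mul_top hφ.2 hs)) hT (hD.TW_const vA.1)
  have l2 := hD.TW_Γ (Tb.const (x := φ * s ^ 2 * C.Γ b b) (mem_mul_top (mem_mul_top hφ.2 hss) vA.2))
    hT hT
  have hbu : T2 (fun n => C.Γ b (u n)) (C.Γ b g) := by
    refine ⟨fun n => hD.Γ_mem2 bA.1 (hC.test_Γ_top hb) (uW n),
      hD.Γ_mem2 bA.1 (hC.test_Γ_top hb) hg, ?_⟩
    refine squeeze_zero (fun n => I_sq_nonneg _) (fun n => ?_)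
      (by simpa using (hD.TW_E hT).const_mul |K|)
    rw [← hD.Γ_sub_right bA.1 (uW n) hg]
    exact hC.I_Γsq_le hB hb (hD.sub_mem (uW n) hg) hK'
  have l3 := ((Tb.const (x := φ * s ^ 2) (mem_mul_top hφ.2 hss)).mul hbu).mul_lim hbu
  have key : ∀ n, 0 ≤ C.NN κ b b φ + 2 * I (φ * s * C.Γ (u n) (C.Γ b b))
      + 2 * (I (φ * s ^ 2 * C.Γ b b * C.Γ (u n) (u n)) + I (φ * s ^ 2 * C.Γ b (u n) * C.Γ b (u n))) := by
    intro n
    have h1 := impr0 hC hB hb (hu1 n) hs hφ h0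
    have e : φ * s ^ 2 * (C.Γ b b * C.Γ (u n) (u n) + C.Γ b (u n) ^ 2)
        = φ * s ^ 2 * C.Γ b b * C.Γ (u n) (u n) + φ * s ^ 2 * C.Γ b (u n) * C.Γ b (u n) := by ring
    rw [e, I_add (mem_mul_top (mem_mul_top (mem_mul_top hφ.2 hss) vA.2) (hD.mem1 _ (uW n)))
      (mem_mul_22 (mem_mul_top (mem_mul_top hφ.2 hss) (hbu.mem n)) (hbu.mem n))] at h1
    exact h1
  have e : φ * s ^ 2 * (C.Γ b b * C.Γ g g + C.Γ b g ^ 2)
        = φ * s ^ 2 * C.Γ b b * C.Γ g g + φ * s ^ 2 * C.Γ b g * C.Γ b g := by ring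
  rw [e, I_add (mem_mul_top (mem_mul_top (mem_mul_top hφ.2 hss) vA.2) (hD.mem1 _ hg))
      (mem_mul_22 (mem_mul_top (mem_mul_top hφ.2 hss) hbu.mem') hbu.mem')]
  exact ge_of_tendsto (((tendsto_const_nhds (x := C.NN κ b b φ)).add (l1.const_mul 2)).add
    ((l2.add l3).const_mul 2)) (Eventually.of_forall key)

end impr

/-! ### the chain rule for the regularised square root -/

section root

variable {a : ℝ}

theorem rc_cont (a : ℝ) : Continuous fun t : ℝ => √(max t 0 + a) := by fun_prop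

theorem rc_pos (ha : 0 < a) (t : ℝ) : 0 < √(max t 0 + a) :=
  Real.sqrt_pos.2 (by have := le_max_right t 0; linarith)

theorem rF_cont (a : ℝ) : Continuous fun t : ℝ => √(max t 0 + a) - √a := by fun_prop

theorem rq_cont (ha : 0 < a) : Continuous fun t : ℝ => (√(max t 0 + a))⁻¹ :=
  (rc_cont a).inv₀ fun t => (rc_pos ha t).ne'

theorem rF'_cont (ha : 0 < a) : Continuous fun t : ℝ => 2⁻¹ * (√(max t 0 + a))⁻¹ :=
  continuous_const.mul (rq_cont ha)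

theorem rG_cont (ha : 0 < a) : Continuous fun t : ℝ => (√(max t 0 + a))⁻¹ - (√a)⁻¹ :=
  (rq_cont ha).sub continuous_const

theorem rG'_cont (ha : 0 < a) : Continuous fun t : ℝ => -(2⁻¹ * ((√(max t 0 + a))⁻¹) ^ 3) :=
  (continuous_const.mul ((rq_cont ha).pow 3)).neg

theorem rF_deriv (ha : 0 < a) {B : ℝ} : ∀ t ∈ Set.Icc 0 B,
    HasDerivWithinAt (fun t : ℝ => √(max t 0 + a) - √a) (2⁻¹ * (√(max t 0 + a))⁻¹)
      (Set.Icc 0 B) t := by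
  intro t ht
  have hta : t + a ≠ 0 := by have := ht.1; positivity
  have h1 : HasDerivAt (fun t : ℝ => √(t + a) - √a) (1 / (2 * √(t + a))) t :=
    (((hasDerivAt_id t).add_const a).sqrt hta).sub_const _
  rw [max_eq_left ht.1]
  have e : 2⁻¹ * (√(t + a))⁻¹ = 1 / (2 * √(t + a)) := by
    rw [one_div, mul_inv]
  rw [e]
  refine h1.hasDerivWithinAt.congr (fun s hs => ?_) ?_
  · simp only [max_eq_left hs.1]
  · simp only [max_eq_left ht.1]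

theorem rG_deriv (ha : 0 < a) {B : ℝ} : ∀ t ∈ Set.Icc 0 B,
    HasDerivWithinAt (fun t : ℝ => (√(max t 0 + a))⁻¹ - (√a)⁻¹)
      (-(2⁻¹ * ((√(max t 0 + a))⁻¹) ^ 3)) (Set.Icc 0 B) t := by
  intro t ht
  have hta : t + a ≠ 0 := by have := ht.1; positivity
  have hs0 : √(t + a) ≠ 0 := (Real.sqrt_pos.2 (by have := ht.1; positivity)).ne'
  have h1 : HasDerivAt (fun t : ℝ => (√(t + a))⁻¹ - (√a)⁻¹)
      (-(1 / (2 * √(t + a))) / √(t + a) ^ 2) t :=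
    ((((hasDerivAt_id t).add_const a).sqrt hta).inv hs0).sub_const _
  rw [max_eq_left ht.1]
  have e : -(2⁻¹ * ((√(t + a))⁻¹) ^ 3) = -(1 / (2 * √(t + a))) / √(t + a) ^ 2 := by
    field_simp
  rw [e]
  refine h1.hasDerivWithinAt.congr (fun s hs => ?_) ?_
  · simp only [max_eq_left hs.1]
  · simp only [max_eq_left ht.1]

/-- `1 / sqrt(v + a)` -/
noncomputable def qq (ha : 0 < a) (v : M →ₘ[m] ℝ) : M →ₘ[m] ℝ :=
  AEEqFun.comp (fun t : ℝ => (√(max t 0 + a))⁻¹) (rq_cont ha) v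

/-- `sqrt(v + a) - sqrt a` -/
noncomputable def FF (a : ℝ) (v : M →ₘ[m] ℝ) : M →ₘ[m] ℝ :=
  AEEqFun.comp (fun t : ℝ => √(max t 0 + a) - √a) (rF_cont a) v

/-- `1 / sqrt(v + a) - 1 / sqrt a` -/
noncomputable def GG (ha : 0 < a) (v : M →ₘ[m] ℝ) : M →ₘ[m] ℝ :=
  AEEqFun.comp (fun t : ℝ => (√(max t 0 + a))⁻¹ - (√a)⁻¹) (rG_cont ha) v

variable {v : M →ₘ[m] ℝ}

theorem qq_ae (ha : 0 < a) (h0 : 0 ≤ v) : ∀ᵐ x ∂m, qq ha v x = (√(v x + a))⁻¹ := by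
  filter_upwards [AEEqFun.coeFn_comp (fun t : ℝ => (√(max t 0 + a))⁻¹) (rq_cont ha) v,
    nonneg_iff_ae.1 h0] with x h1 h2
  unfold qq
  rw [h1, Function.comp_apply, max_eq_left h2]

theorem FF_ae (a : ℝ) (h0 : 0 ≤ v) : ∀ᵐ x ∂m, FF a v x = √(v x + a) - √a := by
  filter_upwards [AEEqFun.coeFn_comp (fun t : ℝ => √(max t 0 + a) - √a) (rF_cont a) v,
    nonneg_iff_ae.1 h0] with x h1 h2
  unfold FF
  rw [h1, Function.comp_apply, max_eq_left h2]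

theorem qq_eq (ha : 0 < a) : qq ha v = GG ha v + (√a)⁻¹ • (1 : M →ₘ[m] ℝ) := by
  rw [eq_iff_ae]
  filter_upwards [AEEqFun.coeFn_comp (fun t : ℝ => (√(max t 0 + a))⁻¹) (rq_cont ha) v,
    AEEqFun.coeFn_comp (fun t : ℝ => (√(max t 0 + a))⁻¹ - (√a)⁻¹) (rG_cont ha) v,
    add_ae (GG ha v) ((√a)⁻¹ • (1 : M →ₘ[m] ℝ)), smul_ae (1 : M →ₘ[m] ℝ) (√a)⁻¹,
    one_ae (M := M) (m := m)] with x h1 h2 h3 h4 h5
  rw [h3, h4, h5]
  unfold qq GG
  rw [h1, h2, Function.comp_apply, Function.comp_apply]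
  ring

theorem qq_nonneg (ha : 0 < a) : 0 ≤ qq ha v := by
  rw [nonneg_iff_ae]
  filter_upwards [AEEqFun.coeFn_comp (fun t : ℝ => (√(max t 0 + a))⁻¹) (rq_cont ha) v] with x h1
  unfold qq
  rw [h1, Function.comp_apply]
  exact (inv_pos.2 (rc_pos ha _)).le

theorem qq_top (ha : 0 < a) : MemLp (qq ha v) ∞ m := by
  refine mem_top_iff.2 ⟨(√a)⁻¹, ?_⟩
  filter_upwards [AEEqFun.coeFn_comp (fun t : ℝ => (√(max t 0 + a))⁻¹) (rq_cont ha) v] with x h1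
  unfold qq
  rw [h1, Function.comp_apply, abs_of_pos (inv_pos.2 (rc_pos ha _))]
  refine inv_anti₀ (Real.sqrt_pos.2 ha) (Real.sqrt_le_sqrt ?_)
  have := le_max_right (v x) 0
  linarith

variable (hD : IsDir C)
include hD

theorem FF_chain (ha : 0 < a) (hv : v ∈ C.A) (h0 : 0 ≤ v) :
    FF a v ∈ C.W ∧ ∀ g ∈ C.W, C.Γ (FF a v) g = (2 : ℝ)⁻¹ • (qq ha v * C.Γ v g) := by
  obtain ⟨K, hK⟩ := mem_top_iff.1 hv.2
  have hab : ∀ᵐ x ∂m, 0 ≤ v x ∧ v x ≤ |K| := by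
    filter_upwards [hK, nonneg_iff_ae.1 h0] with x h1 h2
    exact ⟨h2, ((le_abs_self _).trans h1).trans (le_abs_self _)⟩
  have hz : (fun t : ℝ => √(max t 0 + a) - √a) 0 = 0 := by simp
  obtain ⟨h1, h2⟩ := hD.hc_chain hv.1 le_rfl (abs_nonneg K) hab (rF_cont a) (rF'_cont ha)
    (rF_deriv ha) hz
  refine ⟨h1, fun g hg => ?_⟩
  have h3 := h2 g hg
  unfold FF
  rw [h3, ← smul_mul_assoc]
  congr 1
  rw [eq_iff_ae]
  filter_upwards [AEEqFun.coeFn_comp (fun t : ℝ => 2⁻¹ * (√(max t 0 + a))⁻¹) (rF'_cont ha) v,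
    AEEqFun.coeFn_comp (fun t : ℝ => (√(max t 0 + a))⁻¹) (rq_cont ha) v,
    smul_ae (qq ha v) (2 : ℝ)⁻¹] with x b1 b2 b3
  rw [b1, b3]
  unfold qq
  rw [b2]
  rfl

theorem GG_chain (ha : 0 < a) (hv : v ∈ C.A) (h0 : 0 ≤ v) :
    GG ha v ∈ C.A ∧ ∀ g ∈ C.W, C.Γ (GG ha v) g = -((2 : ℝ)⁻¹ • (qq ha v ^ 3 * C.Γ v g)) := by
  obtain ⟨K, hK⟩ := mem_top_iff.1 hv.2
  have hab : ∀ᵐ x ∂m, 0 ≤ v x ∧ v x ≤ |K| := by
    filter_upwards [hK, nonneg_iff_ae.1 h0] with x h1 h2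
    exact ⟨h2, ((le_abs_self _).trans h1).trans (le_abs_self _)⟩
  have hz : (fun t : ℝ => (√(max t 0 + a))⁻¹ - (√a)⁻¹) 0 = 0 := by simp
  obtain ⟨h1, h2⟩ := hD.hc_chain hv.1 le_rfl (abs_nonneg K) hab (rG_cont ha) (rG'_cont ha)
    (rG_deriv ha) hz
  have htop : MemLp (GG ha v) ∞ m := by
    have e : GG ha v = qq ha v - (√a)⁻¹ • (1 : M →ₘ[m] ℝ) := by rw [qq_eq ha]; abel
    rw [e]
    exact mem_sub (qq_top ha) (mem_smul _ mem_top_one)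
  refine ⟨⟨h1, htop⟩, fun g hg => ?_⟩
  have h3 := h2 g hg
  unfold GG
  rw [h3, ← smul_mul_assoc, ← neg_mul]
  congr 1
  rw [eq_iff_ae]
  filter_upwards [AEEqFun.coeFn_comp (fun t : ℝ => -(2⁻¹ * ((√(max t 0 + a))⁻¹) ^ 3))
      (rG'_cont ha) v,
    AEEqFun.coeFn_comp (fun t : ℝ => (√(max t 0 + a))⁻¹) (rq_cont ha) v,
    neg_ae ((2 : ℝ)⁻¹ • qq ha v ^ 3),
    smul_ae (qq ha v ^ 3) (2 : ℝ)⁻¹, AEEqFun.coeFn_pow (qq ha v) 3] with x b1 b2 b3 b4 b5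
  rw [b1, b3, b4, b5]
  unfold qq
  simp only [Pi.pow_apply]
  rw [b2]
  rfl

end root

/-! ### the Bochner inequality for `sqrt (Gamma b b + a)` -/

section star

variable (hC : IsGamma C) {κ : ℝ} (hB : C.BEi κ)
variable {b f g h φ ψ s : M →ₘ[m] ℝ} {a : ℝ}

include hC hB

theorem star [SigmaFinite m] (hb : b ∈ C.Test) (hφ : φ ∈ C.A) (h0 : 0 ≤ φ) (ha : 0 < a) :
    I (φ * qq ha (C.Γ b b) * C.Γ b (C.lap b)) + κ * I (φ * qq ha (C.Γ b b) * C.Γ b b)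
      ≤ -I (C.Γ (FF a (C.Γ b b)) φ) := by
  have hD := hC.toIsDir
  have bA := hC.test_A hb
  have lW := hC.test_lap_mem hb
  set v := C.Γ b b with hv
  have vA : v ∈ C.A := hC.Γ_mem hB hb hb
  have v0 : 0 ≤ v := hD.nonneg _ bA.1
  obtain ⟨f1, f2⟩ := FF_chain hD ha vA v0
  obtain ⟨g1, g2⟩ := GG_chain hD ha vA v0
  set q := qq ha v with hq
  have q0 : 0 ≤ q := qq_nonneg ha
  have qt : MemLp q ∞ m := qq_top ha
  have q2t : MemLp (q ^ 2 : M →ₘ[m] ℝ) ∞ m := by rw [sq]; exact mem_mul_top qt qt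
  have q3t : MemLp (q ^ 3 : M →ₘ[m] ℝ) ∞ m := by
    rw [pow_succ]; exact mem_mul_top q2t qt
  have hqG : q = GG ha v + (√a)⁻¹ • (1 : M →ₘ[m] ℝ) := qq_eq ha
  -- the test function
  have eφq : φ * q = φ * GG ha v + (√a)⁻¹ • φ := by rw [hqG]; algebra
  have hφq : φ * q ∈ C.A := by
    rw [eφq]; exact hD.A_add (hD.mul_mem_A hφ g1) (hD.A_smul _ hφ)
  have hφq0 : 0 ≤ φ * q := mul_nonneg h0 q0
  have hvv1 := hD.mem1 _ vA.1
  have hvφ := hD.Γ_mem1 vA.1 hφ.1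
  have hΓ : C.Γ v (φ * q) = q * C.Γ v φ - (2 : ℝ)⁻¹ • (φ * q ^ 3 * C.Γ v v) := by
    have e1 : C.Γ v (GG ha v) = -((2 : ℝ)⁻¹ • (q ^ 3 * C.Γ v v)) := by
      rw [hD.symm v vA.1 _ g1.1, g2 v vA.1]
    rw [eφq, hD.Γ_add_right vA.1 (hD.mul_mem_A hφ g1).1 (hD.smul_mem _ _ hφ.1),
      hD.Γ_mul_right hφ g1 vA.1, hD.Γ_smul_right _ vA.1 hφ.1, e1]
    have e2 : q * C.Γ v φ = GG ha v * C.Γ v φ + (√a)⁻¹ • C.Γ v φ := by rw [hqG]; algebra
    rw [e2]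
    algebra
  -- the improved inequality
  have hst : MemLp (-((4 : ℝ)⁻¹ • q ^ 2) : M →ₘ[m] ℝ) ∞ m := mem_neg (mem_smul _ q2t)
  have h1 := impr1 hC hB hb vA.1 hst hφq hφq0
  have nA : MemLp (φ * q ^ 3 * C.Γ v v : M →ₘ[m] ℝ) 1 m :=
    mem_mul_top (mem_mul_top hφ.2 q3t) hvv1
  set A := I (φ * q ^ 3 * C.Γ v v) with hA
  have e1 : I (φ * q * -((4 : ℝ)⁻¹ • q ^ 2) * C.Γ v v) = -(4 : ℝ)⁻¹ * A := by
    rw [hA, ← I_smul]; congr 1; algebra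
  have hbv2 : MemLp (C.Γ b v) 2 m := hD.Γ_mem2 bA.1 (hC.test_Γ_top hb) vA.1
  have e2 : I (φ * q * (-((4 : ℝ)⁻¹ • q ^ 2)) ^ 2 * (v * C.Γ v v + C.Γ b v ^ 2)) ≤ (8 : ℝ)⁻¹ * A := by
    rw [hA, ← I_smul]
    refine I_mono (mem_mul_top (mem_mul_top hφq.2 ?_) (mem_add (mem_mul_top vA.2 hvv1)
      (mem_sq hbv2))) (mem_smul _ nA) ?_
    · rw [sq]; exact mem_mul_top hst hst
    have e3 : φ * q * (-((4 : ℝ)⁻¹ • q ^ 2)) ^ 2 * (v * C.Γ v v + C.Γ b v ^ 2)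
        = (φ * q ^ 3) * ((16 : ℝ)⁻¹ • (q ^ 2 * (v * C.Γ v v + C.Γ b v ^ 2))) := by algebra
    have e4 : (8 : ℝ)⁻¹ • (φ * q ^ 3 * C.Γ v v) = (φ * q ^ 3) * ((8 : ℝ)⁻¹ • C.Γ v v) := by algebra
    rw [e3, e4]
    refine mul_le_mul_of_nonneg_left ?_ (mul_nonneg h0 (pow_nonneg q0 3))
    rw [le_iff_ae]
    filter_upwards [smul_ae (q ^ 2 * (v * C.Γ v v + C.Γ b v ^ 2)) (16 : ℝ)⁻¹,
      mul_ae (q ^ 2) (v * C.Γ v v + C.Γ b v ^ 2), add_ae (v * C.Γ v v) (C.Γ b v ^ 2),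
      mul_ae v (C.Γ v v), sq_ae (C.Γ b v), sq_ae q, smul_ae (C.Γ v v) (8 : ℝ)⁻¹,
      qq_ae ha v0, nonneg_iff_ae.1 v0, hD.Γ_nonneg_ae vA.1, hD.Γ_cs_ae bA.1 vA.1]
      with x b1 b2 b3 b4 b5 b6 b7 b8 b9 b10 b11
    rw [b1, b2, b3, b4, b5, b6, b7, hq, b8, inv_pow, Real.sq_sqrt (by positivity)]
    have h3 : v x * C.Γ v v x + C.Γ b v x ^ 2 ≤ 2 * ((v x + a) * C.Γ v v x) := by
      have : 0 ≤ a * C.Γ v v x := mul_nonneg ha.le b10
      have h4 : C.Γ b v x ^ 2 ≤ v x * C.Γ v v x := b11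
      linarith
    have h5 : 0 < v x + a := by positivity
    calc (16 : ℝ)⁻¹ * ((v x + a)⁻¹ * (v x * C.Γ v v x + C.Γ b v x ^ 2))
        ≤ (16 : ℝ)⁻¹ * ((v x + a)⁻¹ * (2 * ((v x + a) * C.Γ v v x))) := by gcongr
      _ = (8 : ℝ)⁻¹ * C.Γ v v x := by field_simp; ring
  -- expansion of `NN`
  have n1 : MemLp (q * C.Γ v φ : M →ₘ[m] ℝ) 1 m := mem_mul_top qt hvφ
  have e5 : I (C.Γ v (φ * q)) = I (q * C.Γ v φ) - 2⁻¹ * A := by
    rw [hΓ, I_sub n1 (mem_smul _ nA), I_smul, hA]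
  have n2 : MemLp (φ * q * C.Γ b (C.lap b) : M →ₘ[m] ℝ) 1 m :=
    mem_mul_top hφq.2 (hD.Γ_mem1 bA.1 lW)
  have e6 : I (φ * q * (C.Γ b (C.lap b) + C.Γ b (C.lap b))) = 2 * I (φ * q * C.Γ b (C.lap b)) := by
    rw [mul_add, I_add n2 n2]; ring
  have e7 : C.NN κ b b (φ * q) = -(2⁻¹ * (I (q * C.Γ v φ) - 2⁻¹ * A))
      - 2⁻¹ * (2 * I (φ * q * C.Γ b (C.lap b))) - κ * I (φ * q * v) := by
    unfold Calc.NN
    rw [← hv, e5, e6]
  have e8 : I (C.Γ (FF a v) φ) = 2⁻¹ * I (q * C.Γ v φ) := by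
    rw [f2 φ hφ.1, I_smul]
  rw [e7, e1] at h1
  rw [e8]
  linarith only [h1, e2]

end star

/-! ### the resolvent estimate -/

/-- dominated convergence against an `L²` function -/
theorem lim_of_le {X : ℕ → M →ₘ[m] ℝ} {w χ : M →ₘ[m] ℝ} (hw : MemLp w 2 m) (hχ : MemLp χ 2 m)
    (hX : ∀ n, ∀ᵐ x ∂m, |X n x| ≤ |w x|) (hlim : ∀ᵐ x ∂m, Tendsto (fun n => X n x) atTop (𝓝 (w x))) :
    Tendsto (fun n => I (χ * X n)) atTop (𝓝 (I (χ * w))) := by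
  refine I_tendsto_of_dominated (G := fun x => |(χ * w) x|)
    (int_of_mem (mem_mul_22 hχ hw)).abs (fun n => ?_) ?_
  · filter_upwards [mul_ae χ (X n), mul_ae χ w, hX n] with x a1 a2 a3
    rw [a1, a2, abs_mul, abs_mul]
    exact mul_le_mul_of_nonneg_left a3 (abs_nonneg _)
  · filter_upwards [ae_all_iff.2 fun n => mul_ae χ (X n), mul_ae χ w, hlim] with x a1 a2 a3
    simp_rw [a1, a2]
    exact a3.const_mul _

section res

variable (hC : IsGamma C) {κ : ℝ} (hB : C.BEi κ)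
variable {b f g h φ ψ s : M →ₘ[m] ℝ} {a r : ℝ}

include hC hB

/-- the resolvent form of the strong gradient estimate, tested with `ψ` -/
theorem J_rt0 [SigmaFinite m] (hr : 0 < r) (hr2 : 0 < 1 + 2 * r * κ) (hf : f ∈ C.A)
    (hf' : MemLp (C.Γ f f) ∞ m) (h0 : 0 ≤ ψ) (h2 : MemLp ψ 2 m) (ht : MemLp ψ ∞ m) :
    I (ψ * rt (C.Γ (C.J r f) (C.J r f)))
      ≤ (1 + κ * r)⁻¹ * I (C.J (r / (1 + κ * r)) ψ * rt (C.Γ f f)) := by
  have hD := hC.toIsDir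
  have hf2 := hD.memLp f hf.1
  have h1κ : 0 < 1 + κ * r := by
    have e : 1 + 2 * r * κ = 1 + 2 * (κ * r) := by ring
    rw [e] at hr2
    linarith
  have hb := hC.J_test hB hr hr2 hf hf'
  have hbL := hD.J_isLap hr hf2
  set b := C.J r f with hbdef
  have bA := hC.test_A hb
  have hlap : C.lap b = r⁻¹ • (b - f) := hD.lap_eq hbL
  have vA : C.Γ b b ∈ C.A := hC.Γ_mem hB hb hb
  set v := C.Γ b b with hv
  have v0 : 0 ≤ v := hD.nonneg _ bA.1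
  have v1 : MemLp v 1 m := hD.mem1 _ bA.1
  set p := C.Γ f f with hp
  have p0 : 0 ≤ p := hD.nonneg _ hf.1
  have hrv2 : MemLp (rt v) 2 m := rt_mem2 v0 v1
  have hrp2 : MemLp (rt p) 2 m := rt_mem2 p0 (hD.mem1 _ hf.1)
  set μ : ℝ := r⁻¹ + κ with hμ
  have hμe : μ = (1 + κ * r) / r := by rw [hμ]; field_simp
  have hμ0 : 0 < μ := by rw [hμe]; positivity
  have hμi : 0 < μ⁻¹ := inv_pos.2 hμ0
  have hri : r / (1 + κ * r) = μ⁻¹ := by rw [hμe, inv_div]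
  rw [hri]
  -- the test function
  have hφL := hD.J_isLap hμi h2
  have hφ0 := hD.J_nonneg hμi h2 h0
  obtain ⟨B, hB0⟩ := mem_top_iff.1 ht
  have hφb := hD.J_bdd hμi h2 hB0
  set φ := C.J μ⁻¹ ψ with hφdef
  rw [inv_inv] at hφL
  have hφt : MemLp φ ∞ m := mem_top_iff.2 ⟨B, hφb⟩
  have hφA : φ ∈ C.A := ⟨hφL.1, hφt⟩
  have hφ2 : MemLp φ 2 m := hD.memLp _ hφL.1
  -- the inequality for every `a`
  have key : ∀ a : ℝ, ∀ ha : 0 < a, μ * I (φ * (qq ha v * v)) - r⁻¹ * I (φ * rt p)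
      ≤ μ * (I (φ * FF a v) - I (ψ * FF a v)) := by
    intro a ha
    have h3 := star hC hB hb hφA hφ0 ha
    rw [← hv] at h3
    obtain ⟨f1, f2⟩ := FF_chain hD ha vA v0
    have hF2 := hD.memLp _ f1
    have qt : MemLp (qq ha v) ∞ m := qq_top ha
    have e1 : I (C.Γ (FF a v) φ) = -(μ * (I (φ * FF a v) - I (ψ * FF a v))) := by
      rw [hD.symm _ f1 _ hφA.1]
      have h4 : I (C.Γ φ (FF a v)) = -I (μ • (φ - ψ) * FF a v) := hφL.2.2 _ f1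
      rw [h4, smul_mul_assoc, I_smul, sub_mul, I_sub (mem_mul_22 hφ2 hF2) (mem_mul_22 h2 hF2)]
    rw [e1, neg_neg] at h3
    have hqv2 : MemLp (qq ha v * v : M →ₘ[m] ℝ) 2 m := mem_mul_top qt (hD.memLp _ vA.1)
    have n1 : MemLp (φ * (qq ha v * v) : M →ₘ[m] ℝ) 1 m := mem_mul_22 hφ2 hqv2
    have n2 : MemLp (φ * rt p : M →ₘ[m] ℝ) 1 m := mem_mul_22 hφ2 hrp2
    have n3 : MemLp (φ * qq ha v * C.Γ b (C.lap b) : M →ₘ[m] ℝ) 1 m :=
      mem_mul_top (mem_mul_top hφt qt) (hD.Γ_mem1 bA.1 (hC.test_lap_mem hb))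
    have e2 : r⁻¹ * (I (φ * (qq ha v * v)) - I (φ * rt p)) ≤ I (φ * qq ha v * C.Γ b (C.lap b)) := by
      rw [← I_sub n1 n2, ← I_smul]
      refine I_mono (mem_smul _ (mem_sub n1 n2)) n3 ?_
      have e3 : r⁻¹ • (φ * (qq ha v * v) - φ * rt p) = φ * (r⁻¹ • (qq ha v * v - rt p)) := by
        algebra
      have e4 : φ * qq ha v * C.Γ b (C.lap b) = φ * (r⁻¹ • (qq ha v * (v - C.Γ b f))) := by
        rw [hlap, hD.Γ_smul_right _ bA.1 (hD.sub_mem bA.1 hf.1), hD.Γ_sub_right bA.1 bA.1 hf.1,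
          ← hv]
        algebra
      rw [e3, e4]
      refine mul_le_mul_of_nonneg_left ?_ hφ0
      rw [le_iff_ae]
      filter_upwards [smul_ae (qq ha v * v - rt p) r⁻¹, sub_ae (qq ha v * v) (rt p),
        mul_ae (qq ha v) v, rt_ae p, smul_ae (qq ha v * (v - C.Γ b f)) r⁻¹,
        mul_ae (qq ha v) (v - C.Γ b f), sub_ae v (C.Γ b f), qq_ae ha v0, nonneg_iff_ae.1 v0,
        hD.Γ_abs_ae bA.1 hf.1, nonneg_iff_ae.1 p0] with x b1 b2 b3 b4 b5 b6 b7 b8 b9 b10 b11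
      rw [b1, b2, b3, b4, b5, b6, b7, b8]
      have hri : 0 < r⁻¹ := inv_pos.2 hr
      refine mul_le_mul_of_nonneg_left ?_ hri.le
      have h5 : 0 < √(v x + a) := Real.sqrt_pos.2 (by positivity)
      have h6 : √(v x) ≤ √(v x + a) := Real.sqrt_le_sqrt (by linarith)
      have h7 : C.Γ b f x ≤ √(v x) * √(p x) := (le_abs_self _).trans b10
      have h8 : (√(v x + a))⁻¹ * C.Γ b f x ≤ √(p x) := by
        calc (√(v x + a))⁻¹ * C.Γ b f x ≤ (√(v x + a))⁻¹ * (√(v x) * √(p x)) := by gcongr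
          _ ≤ (√(v x + a))⁻¹ * (√(v x + a) * √(p x)) := by gcongr
          _ = √(p x) := by field_simp
      rw [mul_sub]
      linarith
    have e5 : I (φ * qq ha v * v) = I (φ * (qq ha v * v)) := by rw [mul_assoc]
    rw [e5] at h3
    rw [hμ] at *
    linarith only [e2, h3]
  -- the limit
  have hpos : ∀ n : ℕ, (0 : ℝ) < ((n : ℝ) + 1)⁻¹ := fun n => by positivity
  have hlimF : ∀ᵐ x ∂m, Tendsto (fun n : ℕ => FF (((n : ℝ) + 1)⁻¹) v x) atTop (𝓝 (rt v x)) := by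
    filter_upwards [ae_all_iff.2 fun n : ℕ => FF_ae (((n : ℝ) + 1)⁻¹) v0, rt_ae v] with x b1 b2
    rw [b2]
    simp_rw [b1]
    have l1 : Tendsto (fun n : ℕ => √(v x + ((n : ℝ) + 1)⁻¹)) atTop (𝓝 (√(v x + 0))) :=
      (Real.continuous_sqrt.tendsto _).comp (tendsto_inv_succ.const_add _)
    have l2 : Tendsto (fun n : ℕ => √(((n : ℝ) + 1)⁻¹)) atTop (𝓝 (√0)) :=
      (Real.continuous_sqrt.tendsto _).comp tendsto_inv_succ
    have := l1.sub l2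
    simpa using this
  have hleF : ∀ n : ℕ, ∀ᵐ x ∂m, |FF (((n : ℝ) + 1)⁻¹) v x| ≤ |rt v x| := by
    intro n
    filter_upwards [FF_ae (((n : ℝ) + 1)⁻¹) v0, rt_ae v, nonneg_iff_ae.1 v0] with x b1 b2 b3
    rw [b1, b2]
    have h1 : √(((n : ℝ) + 1)⁻¹) ≤ √(v x + ((n : ℝ) + 1)⁻¹) := Real.sqrt_le_sqrt (by linarith)
    have h2 : √(v x + ((n : ℝ) + 1)⁻¹) ≤ √(v x) + √(((n : ℝ) + 1)⁻¹) := by
      refine Real.sqrt_le_iff.2 ⟨by positivity, ?_⟩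
      rw [add_sq, Real.sq_sqrt b3, Real.sq_sqrt (hpos n).le]
      have : 0 ≤ 2 * √(v x) * √(((n : ℝ) + 1)⁻¹) := by positivity
      linarith
    rw [abs_of_nonneg (by linarith), abs_of_nonneg (Real.sqrt_nonneg _)]
    linarith
  have hlimq : ∀ᵐ x ∂m, Tendsto (fun n : ℕ => (qq (hpos n) v * v : M →ₘ[m] ℝ) x) atTop
      (𝓝 (rt v x)) := by
    filter_upwards [ae_all_iff.2 fun n : ℕ => qq_ae (hpos n) v0, rt_ae v,
      ae_all_iff.2 fun n : ℕ => mul_ae (qq (hpos n) v) v, nonneg_iff_ae.1 v0] with x b1 b2 b3 b4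
    rw [b2]
    simp_rw [b3, b1]
    rcases b4.eq_or_lt with h | h
    · rw [← h]; simp
    · have l1 : Tendsto (fun n : ℕ => √(v x + ((n : ℝ) + 1)⁻¹)) atTop (𝓝 (√(v x + 0))) :=
        (Real.continuous_sqrt.tendsto _).comp (tendsto_inv_succ.const_add _)
      rw [add_zero] at l1
      have l2 := (l1.inv₀ (Real.sqrt_pos.2 h).ne').mul_const (v x)
      have e : (√(v x))⁻¹ * v x = √(v x) := by
        have h3 := Real.mul_self_sqrt h.le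
        have h4 := Real.sqrt_pos.2 h
        field_simp
        rw [sq]
        exact h3.symm
      rwa [e] at l2
  have hleq : ∀ n : ℕ, ∀ᵐ x ∂m, |(qq (hpos n) v * v : M →ₘ[m] ℝ) x| ≤ |rt v x| := by
    intro n
    filter_upwards [qq_ae (hpos n) v0, rt_ae v, mul_ae (qq (hpos n) v) v,
      nonneg_iff_ae.1 v0] with x b1 b2 b3 b4
    rw [b3, b1, b2]
    have h5 : 0 < √(v x + ((n : ℝ) + 1)⁻¹) := Real.sqrt_pos.2 (by have := hpos n; positivity)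
    have h6 : √(v x) ≤ √(v x + ((n : ℝ) + 1)⁻¹) := Real.sqrt_le_sqrt (by have := hpos n; linarith)
    rw [abs_of_nonneg (by positivity), abs_of_nonneg (Real.sqrt_nonneg _)]
    calc (√(v x + ((n : ℝ) + 1)⁻¹))⁻¹ * v x
        = (√(v x + ((n : ℝ) + 1)⁻¹))⁻¹ * (√(v x) * √(v x)) := by rw [Real.mul_self_sqrt b4]
      _ ≤ (√(v x + ((n : ℝ) + 1)⁻¹))⁻¹ * (√(v x + ((n : ℝ) + 1)⁻¹) * √(v x)) := by gcongr
      _ = √(v x) := by field_simp
  have L1 := lim_of_le hrv2 hφ2 hleq hlimq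
  have L2 := lim_of_le hrv2 hφ2 hleF hlimF
  have L3 := lim_of_le hrv2 h2 hleF hlimF
  have h9 := le_of_tendsto_of_tendsto' ((L1.const_mul μ).sub_const (r⁻¹ * I (φ * rt p)))
    ((L2.sub L3).const_mul μ) (fun n => key _ (hpos n))
  have h10 : μ * I (ψ * rt v) ≤ r⁻¹ * I (φ * rt p) := by linarith only [h9]
  have h11 : (1 + κ * r)⁻¹ * I (φ * rt p) = μ⁻¹ * (r⁻¹ * I (φ * rt p)) := by
    rw [hμe]; field_simp
  rw [h11]
  calc I (ψ * rt v) = μ⁻¹ * (μ * I (ψ * rt v)) := by field_simp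
    _ ≤ μ⁻¹ * (r⁻¹ * I (φ * rt p)) := mul_le_mul_of_nonneg_left h10 hμi.le

/-- the resolvent form of the strong gradient estimate -/
theorem J_rt [SigmaFinite m] (hr : 0 < r) (hr2 : 0 < 1 + 2 * r * κ) (hf : f ∈ C.A)
    (hf' : MemLp (C.Γ f f) ∞ m) :
    rt (C.Γ (C.J r f) (C.J r f)) ≤ (1 + κ * r)⁻¹ • C.J (r / (1 + κ * r)) (rt (C.Γ f f)) := by
  have hD := hC.toIsDir
  have h1κ : 0 < 1 + κ * r := by
    have e : 1 + 2 * r * κ = 1 + 2 * (κ * r) := by ring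
    rw [e] at hr2
    linarith
  have hr' : 0 < r / (1 + κ * r) := div_pos hr h1κ
  have bW := hD.J_mem hr (hD.memLp _ hf.1)
  have m1 := rt_mem2 (hD.nonneg _ bW) (hD.mem1 _ bW)
  have m2 := rt_mem2 (hD.nonneg _ hf.1) (hD.mem1 _ hf.1)
  have m3 := hD.J_mem2 hr' m2
  rw [← sub_nonneg]
  refine nonneg_of_forall_L2 (mem_sub (mem_smul _ m3) m1) fun ψ h0 h2 ht => ?_
  have h3 := J_rt0 hC hB hr hr2 hf hf' h0 h2 ht
  rw [sub_mul, I_sub (mem_mul_22 (mem_smul _ m3) h2) (mem_mul_22 m1 h2), smul_mul_assoc, I_smul,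
    hD.J_symm hr' m2 h2, mul_comm (rt (C.Γ f f)), mul_comm (rt (C.Γ (C.J r f) (C.J r f)))]
  linarith

end res

/-! ### iteration and the limit -/

section semi

/-- the implicit Euler scheme with arbitrary step sizes, in `L²` -/
theorem euler_T2 (hD : IsDir C) {σ : M →ₘ[m] ℝ} (h2 : MemLp σ 2 m) {t : ℝ} {r : ℕ → ℝ}
    {k : ℕ → ℕ} (hr : ∀ n, 0 < r n) (hr0 : Tendsto r atTop (𝓝 0))
    (hk : Tendsto (fun n => k n * r n) atTop (𝓝 t)) :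
    T2 (fun n => (C.J (r n))^[k n] σ) (C.P t σ) := by
  have hm : ∀ n j : ℕ, MemLp ((C.J (r n))^[j] σ) 2 m ∧
      ((hD.gen.R (r n))^[j] (h2.toLp (σ : M → ℝ))).1 = (C.J (r n))^[j] σ := by
    intro n j
    induction j with
    | zero => exact ⟨h2, toLp_val h2⟩
    | succ j ih =>
      obtain ⟨ih1, ih2⟩ := ih
      rw [Function.iterate_succ_apply', Function.iterate_succ_apply']
      refine ⟨hD.J_mem2 (hr n) ih1, ?_⟩
      rw [← hD.R_val (hr n) ih1]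
      have h3 : (hD.gen.R (r n))^[j] (h2.toLp (σ : M → ℝ))
          = ih1.toLp ((C.J (r n))^[j] σ : M → ℝ) :=
        Subtype.ext (by rw [toLp_val]; exact ih2)
      rw [h3]
  refine ⟨fun n => (hm n (k n)).1, hD.P_mem2 t h2, ?_⟩
  have h5 := hD.gen.S_euler' (t := t) hr hr0 hk (h2.toLp (σ : M → ℝ))
  have h6 := tendsto_val_iff.1 h5
  rw [← hD.P_val t h2] at h6
  refine h6.congr fun n => ?_
  rw [(hm n (k n)).2]

variable (hC : IsGamma C) {κ : ℝ} (hB : C.BEi κ)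
variable {b f g h φ ψ s : M →ₘ[m] ℝ} {a r t : ℝ}

include hC hB

theorem J_iter_rt [SigmaFinite m] (hr : 0 < r) (hr2 : 0 < 1 + 2 * r * κ) (hf : f ∈ C.A)
    (hf' : MemLp (C.Γ f f) ∞ m) (n : ℕ) :
    (C.J r)^[n] f ∈ C.A ∧ MemLp (C.Γ ((C.J r)^[n] f) ((C.J r)^[n] f)) ∞ m ∧
    MemLp ((C.J (r / (1 + κ * r)))^[n] (rt (C.Γ f f))) 2 m ∧
    rt (C.Γ ((C.J r)^[n] f) ((C.J r)^[n] f))
      ≤ ((1 + κ * r)⁻¹) ^ n • (C.J (r / (1 + κ * r)))^[n] (rt (C.Γ f f)) := by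
  have hD := hC.toIsDir
  have h1κ : 0 < 1 + κ * r := by
    have e : 1 + 2 * r * κ = 1 + 2 * (κ * r) := by ring
    rw [e] at hr2
    linarith
  have hr' : 0 < r / (1 + κ * r) := div_pos hr h1κ
  induction n with
  | zero =>
    refine ⟨hf, hf', rt_mem2 (hD.nonneg _ hf.1) (hD.mem1 _ hf.1), ?_⟩
    simp
  | succ n ih =>
    obtain ⟨i1, i2, i3, i4⟩ := ih
    rw [Function.iterate_succ_apply', Function.iterate_succ_apply']
    have j1 := hC.J_test hB hr hr2 i1 i2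
    refine ⟨hC.test_A j1, hC.test_Γ_top j1, hD.J_mem2 hr' i3, ?_⟩
    refine (J_rt hC hB hr hr2 i1 i2).trans ?_
    have m1 : MemLp (rt (C.Γ ((C.J r)^[n] f) ((C.J r)^[n] f))) 2 m :=
      rt_mem2 (hD.nonneg _ i1.1) (hD.mem1 _ i1.1)
    have m2 : MemLp (((1 + κ * r)⁻¹) ^ n • (C.J (r / (1 + κ * r)))^[n] (rt (C.Γ f f)) :
      M →ₘ[m] ℝ) 2 m := mem_smul _ i3
    have h3 : C.J (r / (1 + κ * r)) (rt (C.Γ ((C.J r)^[n] f) ((C.J r)^[n] f)))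
        ≤ ((1 + κ * r)⁻¹) ^ n • C.J (r / (1 + κ * r)) ((C.J (r / (1 + κ * r)))^[n] (rt (C.Γ f f))) := by
      rw [← hD.J_smul hr' _ i3, ← sub_nonneg, ← hD.J_sub hr' m2 m1]
      exact hD.J_nonneg hr' (mem_sub m2 m1) (sub_nonneg.2 i4)
    have h4 : (1 + κ * r)⁻¹ • C.J (r / (1 + κ * r)) (rt (C.Γ ((C.J r)^[n] f) ((C.J r)^[n] f)))
        ≤ (1 + κ * r)⁻¹ • (((1 + κ * r)⁻¹) ^ n •
          C.J (r / (1 + κ * r)) ((C.J (r / (1 + κ * r)))^[n] (rt (C.Γ f f)))) := by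
      rw [← sub_nonneg, ← smul_sub]
      exact smul_nonneg' (inv_nonneg.2 h1κ.le) (sub_nonneg.2 h3)
    refine h4.trans (le_of_eq ?_)
    rw [smul_smul, pow_succ, mul_comm]

/-- the strong gradient estimate for Lipschitz functions, tested with `ψ` -/
theorem strong0 [SigmaFinite m] (ht : 0 < t) (hf : f ∈ C.A) (hf' : MemLp (C.Γ f f) ∞ m)
    (h0 : 0 ≤ ψ) (h2 : MemLp ψ 2 m) :
    I (ψ * rt (C.Γ (C.P t f) (C.P t f)))
      ≤ Real.exp (-(κ * t)) * I (ψ * C.P t (rt (C.Γ f f))) := by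
  have hD := hC.toIsDir
  have m2 := rt_mem2 (hD.nonneg _ hf.1) (hD.mem1 _ hf.1)
  set r : ℕ → ℝ := fun n => t / ((n : ℝ) + 1) with hr
  have hrpos : ∀ n, 0 < r n := fun n => by rw [hr]; positivity
  have hr0 : Tendsto r atTop (𝓝 0) := by
    have h := tendsto_inv_succ.const_mul t
    rw [mul_zero] at h
    exact h
  have hden2 : Tendsto (fun n => 1 + 2 * r n * κ) atTop (𝓝 1) := by
    have h := ((hr0.const_mul 2).mul_const κ).const_add 1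
    simpa using h
  have hden : Tendsto (fun n => 1 + κ * r n) atTop (𝓝 1) := by
    have h := (hr0.const_mul κ).const_add 1
    simpa using h
  obtain ⟨N, hN⟩ := eventually_atTop.1
    ((hden2.eventually (lt_mem_nhds one_pos)).and (hden.eventually (lt_mem_nhds one_pos)))
  set r' : ℕ → ℝ := fun n => r n / (1 + κ * r n) with hr'
  have hr'0 : Tendsto r' atTop (𝓝 0) := by
    have h : Tendsto (fun n => r n / (1 + κ * r n)) atTop (𝓝 (0 / 1)) :=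
      hr0.div hden one_ne_zero
    rw [zero_div] at h
    exact h
  have hk : Tendsto (fun n : ℕ => ((n + 1 : ℕ) : ℝ) * r' n) atTop (𝓝 t) := by
    have h : Tendsto (fun n : ℕ => t / (1 + κ * r n)) atTop (𝓝 t) := by
      have h : Tendsto (fun n : ℕ => t / (1 + κ * r n)) atTop (𝓝 (t / 1)) :=
        (tendsto_const_nhds (x := t)).div hden one_ne_zero
      rwa [div_one] at h
    refine h.congr fun n => ?_
    rw [hr', hr]
    push_cast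
    field_simp
  have hr'pos : ∀ n, 0 < r' (n + N) := fun n => div_pos (hrpos _) (hN _ (Nat.le_add_left _ _)).2
  -- the inequality from `N` on
  have hineq : ∀ n : ℕ, I (ψ * rt (C.Γ ((C.J (r (n + N)))^[n + N + 1] f)
      ((C.J (r (n + N)))^[n + N + 1] f)))
      ≤ ((1 + κ * r (n + N))⁻¹) ^ (n + N + 1)
        * I (ψ * (C.J (r' (n + N)))^[n + N + 1] (rt (C.Γ f f))) := by
    intro n
    obtain ⟨i1, i2, i3, i4⟩ := J_iter_rt hC hB (hrpos (n + N)) (hN _ (Nat.le_add_left _ _)).1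
      hf hf' (n + N + 1)
    rw [← I_smul, ← mul_smul_comm]
    exact I_mono (mem_mul_22 h2 (rt_mem2 (hD.nonneg _ i1.1) (hD.mem1 _ i1.1)))
      (mem_mul_22 h2 (mem_smul _ i3)) (mul_le_mul_of_nonneg_left i4 h0)
  -- convergence of the right side
  have hT := euler_T2 hD m2 (t := t) (r := fun n => r' (n + N)) (k := fun n => n + N + 1)
    hr'pos (hr'0.comp (tendsto_add_atTop_nat N)) (hk.comp (tendsto_add_atTop_nat N))
  have hR := (T2.const h2).mul_lim hT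
  have hcoef : Tendsto (fun n => ((1 + κ * r (n + N))⁻¹) ^ (n + N + 1)) atTop
      (𝓝 (Real.exp (-(κ * t)))) := by
    have h5 := IsGamma.tendsto_inv_pow (κ * t)
    refine (h5.comp (tendsto_add_atTop_nat N)).congr fun n => ?_
    simp only [Function.comp, hr]
    congr 3
    ring
  -- convergence of the left side
  obtain ⟨hJW, hJlim⟩ := hD.P_eulerW ht hf.1
  have hTW : C.TW (fun n => (C.J (r (n + N)))^[n + N + 1] f) (C.P t f) :=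
    ⟨fun n => hJW _ (hrpos _) _, hD.P_memW t hf.1, hJlim.comp (tendsto_add_atTop_nat N)⟩
  have hL := (T2.const h2).mul_lim (rt_T2 hD hTW)
  exact le_of_tendsto_of_tendsto' hL (hcoef.mul hR) hineq

/-- **G1, the strong gradient estimate** `|grad P_t f| ≤ e^{-κ t} P_t |grad f|`. -/
theorem strong_grad [SigmaFinite m] (ht : 0 ≤ t) (hf : f ∈ C.W) :
    rt (C.Γ (C.P t f) (C.P t f)) ≤ Real.exp (-(κ * t)) • C.P t (rt (C.Γ f f)) := by
  have hD := hC.toIsDir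
  have m1 := rt_mem2 (hD.nonneg _ hf) (hD.mem1 _ hf)
  rcases ht.eq_or_lt with ht0 | ht0
  · rw [← ht0, hD.P_zero_time (hD.memLp _ hf), hD.P_zero_time m1]
    simp
  have m3 := rt_mem2 (hD.nonneg _ (hD.P_memW t hf)) (hD.mem1 _ (hD.P_memW t hf))
  have m4 := hD.P_mem2 t m1
  rw [← sub_nonneg]
  refine nonneg_of_forall_L2 (mem_sub (mem_smul _ m4) m3) fun ψ h0 h2 _ => ?_
  choose u u1 u2 u3 u4 using fun n : ℕ => hC.dense_lip f hf ((n : ℝ) + 1)⁻¹ (by positivity)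
  have hTW : C.TW u f := by
    refine ⟨u1, hf, squeeze_zero (fun n => hD.nrm2_nonneg (hD.sub_mem (u1 n) hf))
      (fun n => ?_) tendsto_inv_succ⟩
    rw [hD.nrm2_sub_comm (u1 n) hf]
    exact (u4 n).le
  have hTP : C.TW (fun n => C.P t (u n)) (C.P t f) := by
    refine ⟨fun n => hD.P_memW t (u1 n), hD.P_memW t hf, ?_⟩
    refine squeeze_zero (fun n => hD.nrm2_nonneg (hD.sub_mem (hD.P_memW t (u1 n))
      (hD.P_memW t hf))) (fun n => ?_) hTW.lim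
    rw [← hD.P_sub t (hD.memLp _ (u1 n)) (hD.memLp _ hf)]
    exact hD.P_nrm2_le t (hD.sub_mem (u1 n) hf)
  have hL := (T2.const h2).mul_lim (rt_T2 hD hTP)
  have hr := rt_T2 hD hTW
  have hR : Tendsto (fun n => I (ψ * C.P t (rt (C.Γ (u n) (u n))))) atTop
      (𝓝 (I (ψ * C.P t (rt (C.Γ f f))))) := by
    have h3 := (T2.const (hD.P_mem2 t h2)).mul_lim hr
    have e : ∀ g : M →ₘ[m] ℝ, MemLp g 2 m → I (C.P t ψ * g) = I (ψ * C.P t g) := fun g hg =>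
      hD.P_symm t h2 hg
    rw [e _ m1] at h3
    refine h3.congr fun n => ?_
    exact e _ (hr.mem n)
  have key := le_of_tendsto_of_tendsto' hL (hR.const_mul (Real.exp (-(κ * t))))
    (fun n => strong0 hC hB ht0 ⟨u1 n, u2 n⟩ (u3 n) h0 h2)
  rw [sub_mul, I_sub (mem_mul_22 (mem_smul _ m4) h2) (mem_mul_22 m3 h2), smul_mul_assoc, I_smul,
    mul_comm (C.P t (rt (C.Γ f f))), mul_comm (rt (C.Γ (C.P t f) (C.P t f)))]
  linarith

/-- the same almost everywhere -/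
theorem strong_grad_ae [SigmaFinite m] (ht : 0 ≤ t) (hf : f ∈ C.W) :
    ∀ᵐ x ∂m, √(C.Γ (C.P t f) (C.P t f) x) ≤ Real.exp (-(κ * t)) * C.P t (rt (C.Γ f f)) x := by
  filter_upwards [le_iff_ae.1 (strong_grad hC hB ht hf), rt_ae (C.Γ (C.P t f) (C.P t f)),
    smul_ae (C.P t (rt (C.Γ f f))) (Real.exp (-(κ * t)))] with x h1 h2 h3
  rw [h2, h3] at h1
  exact h1

end semi

end Vale.Agent.P242.H937

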