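import Vale.Agent.P242.H937.Wt2
import Vale.Agent.P242.H542.Gam

/-! P242, package A-GL1 (helper937), part b: (R-a) of the review note: for a radial weight `w` at
the scale `√t` and `F = Γ(u,v)`, `I(w F) = I(w) P_tF(y)` up to `C c √(t γ(u)) √(t γ(v))`. -/

set_option linter.all false

open MeasureTheory Filter Topology Set
open scoped ENNReal NNReal

universe u

namespace Vale.Agent.P242.H937

open Vale.Agent.P233 Vale.Agent.P242.H520 Vale.Agent.P242.H990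
open Vale.Agent.P233.RA (gg ww cc)

/-! ### kernel-free part -/

section abstract

variable {M : Type*} [MeasurableSpace M] {m : Measure M} {C : Calc m}

theorem bei_mono (hC : IsGamma C) {κ κ' : ℝ} (hB : C.BEi κ) (h : κ' ≤ κ) : C.BEi κ' := by
  intro f g φ ψ h1 h2 h3 h4 h5 h6
  refine le_trans ?_ (hB f g φ ψ h1 h2 h3 h4 h5 h6)
  have hfW := h1.1
  have m1 : MemLp (φ * (C.Γ f g + κ' • C.Γ f f) : M →ₘ[m] ℝ) 1 m :=
    mem_mul_top h5 (mem_add (hC.toIsDir.Γ_mem1 hfW h2) (mem_smul _ (hC.mem1 f hfW)))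
  have m2 : MemLp (φ * (C.Γ f g + κ • C.Γ f f) : M →ₘ[m] ℝ) 1 m :=
    mem_mul_top h5 (mem_add (hC.toIsDir.Γ_mem1 hfW h2) (mem_smul _ (hC.mem1 f hfW)))
  refine I_mono m1 m2 ?_
  refine mul_le_mul_of_nonneg_left ?_ h4
  have e : C.Γ f g + κ • C.Γ f f = (C.Γ f g + κ' • C.Γ f f) + (κ - κ') • C.Γ f f := by module
  rw [e, le_add_iff_nonneg_right]
  exact smul_nonneg' (by linarith) (hC.nonneg f hfW)

variable (hC : IsGamma C) {κ : ℝ} (hB : C.BEi κ) {u v w F : M →ₘ[m] ℝ} {t : ℝ}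
include hC hB

/-- derivative of `s ↦ ∫ P_s w Γ(u,v)` -/
theorem hasDeriv_wF (hu : u ∈ C.Test) (hv : v ∈ C.Test) (hw : w ∈ C.A) {s : ℝ} (hs : 0 < s) :
    HasDerivAt (fun s => I (C.P s w * C.Γ u v))
      (2 * C.NN κ u v (C.P s w) + I (C.P s w * (C.Γ u (C.lap v) + C.Γ v (C.lap u)))
        + 2 * κ * I (C.P s w * C.Γ u v)) s := by
  have hF := (hC.Γ_mem hB hu hv).1
  have hw2 := hC.memLp _ hw.1
  have h := N2.H982.P_hasDeriv_I2 hC.toIsDir hs hw2 (hC.memLp _ hF)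
  refine h.congr_deriv ?_
  have lw := hC.toIsDir.P_isLap hs hw2
  have b1 : I (C.Γ (C.P s w) (C.Γ u v)) = -I (C.lap (C.P s w) * C.Γ u v) := lw.2.2 _ hF
  rw [hC.symm _ lw.1 _ hF] at b1
  unfold Calc.NN
  linarith

/-- change of the weight in time, the mixed terms as a hypothesis on `P_s w` -/
theorem ra_time' {ψ : ℝ → M →ₘ[m] ℝ} (hψ : Cen C ψ) (hu : u ∈ C.Test) (hv : v ∈ C.Test)
    (hw : w ∈ C.A) (h0 : 0 ≤ w) {c : ℝ} (hc : 0 ≤ c) (ht : 0 < t) (hle : w ≤ c • ψ t)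
    {a₁ a₂ b : ℝ} (h1 : ∀ s, t < s → s ≤ 2 * t → t * C.NN κ u u (ψ s) ≤ a₁)
    (h2 : ∀ s, t < s → s ≤ 2 * t → t * C.NN κ v v (ψ s) ≤ a₂)
    (h3 : ∀ s, 0 < s → s < t → t * |I (C.P s w * (C.Γ u (C.lap v) + C.Γ v (C.lap u)))
      + 2 * κ * I (C.P s w * C.Γ u v)| ≤ c * b) :
    |I (C.P t w * C.Γ u v) - I (w * C.Γ u v)| ≤ c * (2 * (√a₁ * √a₂) + b) := by
  have hD := hC.toIsDir
  have hF := (hC.Γ_mem hB hu hv).1
  have hF2 := hC.memLp _ hF
  have hw2 := hC.memLp _ hw.1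
  have bound : ∀ s, 0 < s → s < t → |2 * C.NN κ u v (C.P s w)
      + I (C.P s w * (C.Γ u (C.lap v) + C.Γ v (C.lap u)))
      + 2 * κ * I (C.P s w * C.Γ u v)| ≤ c * (2 * (√a₁ * √a₂) + b) / t := by
    intro s hs hst
    have s1 : t < s + t := by linarith
    have s2 : s + t ≤ 2 * t := by linarith
    have hst0 : 0 < s + t := by linarith
    have pA : C.P s w ∈ C.A := ⟨hD.P_mem hs hw2, hD.P_memTop hs.le hw2 hw.2⟩
    have p0 : 0 ≤ C.P s w := hD.P_nonneg hs.le hw2 h0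
    have ψA := hψ.memA hD hst0
    have ple : C.P s w ≤ c • ψ (s + t) := by
      have h4 := hD.P_mono hs.le hw2 (mem_smul c (hψ.mem2 t ht)) hle
      rwa [hD.P_smul s c (hψ.mem2 t ht), hψ.semi t s ht hs.le, add_comm t s] at h4
    have n1 := hC.NN_harn hB hu pA ψA ple
    have n2 := hC.NN_harn hB hv pA ψA ple
    have n3 := hC.NN_abs hB hu hv pA p0
    have k1 := h1 (s + t) s1 s2
    have k2 := h2 (s + t) s1 s2
    have q1 : C.NN κ u u (C.P s w) ≤ c / t * a₁ := by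
      refine n1.trans ?_
      rw [div_mul_eq_mul_div, le_div_iff₀ ht]
      nlinarith
    have q2 : C.NN κ v v (C.P s w) ≤ c / t * a₂ := by
      refine n2.trans ?_
      rw [div_mul_eq_mul_div, le_div_iff₀ ht]
      nlinarith
    have ct : 0 ≤ c / t := by positivity
    have r1 : |C.NN κ u v (C.P s w)| ≤ c / t * (√a₁ * √a₂) := by
      refine n3.trans ?_
      calc √(C.NN κ u u (C.P s w)) * √(C.NN κ v v (C.P s w))
          ≤ √(c / t * a₁) * √(c / t * a₂) :=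
            mul_le_mul (Real.sqrt_le_sqrt q1) (Real.sqrt_le_sqrt q2) (Real.sqrt_nonneg _)
              (Real.sqrt_nonneg _)
        _ = (√(c / t) * √(c / t)) * (√a₁ * √a₂) := by
            rw [Real.sqrt_mul ct, Real.sqrt_mul ct]; ring
        _ = _ := by rw [Real.mul_self_sqrt ct]
    have r5 : |I (C.P s w * (C.Γ u (C.lap v) + C.Γ v (C.lap u)))
        + 2 * κ * I (C.P s w * C.Γ u v)| ≤ c / t * b := by
      have := h3 s hs hst
      rw [div_mul_eq_mul_div, le_div_iff₀ ht]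
      linarith
    calc |2 * C.NN κ u v (C.P s w) + I (C.P s w * (C.Γ u (C.lap v) + C.Γ v (C.lap u)))
          + 2 * κ * I (C.P s w * C.Γ u v)|
        = |2 * C.NN κ u v (C.P s w) + (I (C.P s w * (C.Γ u (C.lap v) + C.Γ v (C.lap u)))
          + 2 * κ * I (C.P s w * C.Γ u v))| := by rw [add_assoc]
      _ ≤ |2 * C.NN κ u v (C.P s w)| + |I (C.P s w * (C.Γ u (C.lap v) + C.Γ v (C.lap u)))
          + 2 * κ * I (C.P s w * C.Γ u v)| := abs_add_le _ _
      _ ≤ 2 * (c / t * (√a₁ * √a₂)) + c / t * b := by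
          rw [abs_mul, abs_two]
          linarith
      _ = _ := by ring
  have hcont : ContinuousOn (fun s => I (C.P s w * C.Γ u v)) (Icc 0 t) :=
    (hD.P_cont_I hw2 hF2).continuousOn
  obtain ⟨s, hs, e⟩ := exists_hasDerivAt_eq_slope (fun s => I (C.P s w * C.Γ u v)) _ ht hcont
    (fun s hs => hasDeriv_wF hC hB hu hv hw hs.1)
  have h4 := bound s hs.1 hs.2
  rw [e, hD.P_zero_time hw2, sub_zero, abs_div, abs_of_pos ht, div_le_div_iff_of_pos_right ht] at h4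
  exact h4

/-- change of the weight in time -/
theorem ra_time {ψ : ℝ → M →ₘ[m] ℝ} (hψ : Cen C ψ) (hu : u ∈ C.Test) (hv : v ∈ C.Test)
    (hw : w ∈ C.A) (h0 : 0 ≤ w) {c : ℝ} (hc : 0 ≤ c) (ht : 0 < t) (hle : w ≤ c • ψ t)
    {a₁ a₂ b : ℝ} (h1 : ∀ s, t < s → s ≤ 2 * t → t * C.NN κ u u (ψ s) ≤ a₁)
    (h2 : ∀ s, t < s → s ≤ 2 * t → t * C.NN κ v v (ψ s) ≤ a₂)
    (h3 : ∀ s, t < s → s ≤ 2 * t → t * (I (ψ s * |C.Γ u (C.lap v) + C.Γ v (C.lap u)|)
      + 2 * |κ| * I (ψ s * |C.Γ u v|)) ≤ b) :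
    |I (C.P t w * C.Γ u v) - I (w * C.Γ u v)| ≤ c * (2 * (√a₁ * √a₂) + b) := by
  have hD := hC.toIsDir
  have hF := (hC.Γ_mem hB hu hv).1
  have hF1 : MemLp (C.Γ u v) 1 m := hD.Γ_mem1 (hC.test_A hu).1 (hC.test_A hv).1
  have hw2 := hC.memLp _ hw.1
  have hmix : MemLp (C.Γ u (C.lap v) + C.Γ v (C.lap u) : M →ₘ[m] ℝ) 1 m :=
    mem_add (hD.Γ_mem1 (hC.test_A hu).1 (hC.test_lap_mem hv))
      (hD.Γ_mem1 (hC.test_A hv).1 (hC.test_lap_mem hu))
  refine ra_time' hC hB hψ hu hv hw h0 hc ht hle h1 h2 fun s hs hst => ?_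
  have s1 : t < s + t := by linarith
  have s2 : s + t ≤ 2 * t := by linarith
  have hst0 : 0 < s + t := by linarith
  have pA : C.P s w ∈ C.A := ⟨hD.P_mem hs hw2, hD.P_memTop hs.le hw2 hw.2⟩
  have p0 : 0 ≤ C.P s w := hD.P_nonneg hs.le hw2 h0
  have ple : C.P s w ≤ c • ψ (s + t) := by
    have h4 := hD.P_mono hs.le hw2 (mem_smul c (hψ.mem2 t ht)) hle
    rwa [hD.P_smul s c (hψ.mem2 t ht), hψ.semi t s ht hs.le, add_comm t s] at h4
  have absI : ∀ G : M →ₘ[m] ℝ, MemLp G 1 m →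
      |I (C.P s w * G)| ≤ c * I (ψ (s + t) * |G|) := by
    intro G hG
    have hG' : MemLp (|G| : M →ₘ[m] ℝ) 1 m := by
      have e : ⇑(|G| : M →ₘ[m] ℝ) =ᵐ[m] fun x => |G x| := abs_ae' G
      exact (memLp_congr_ae e).2 hG.abs
    have i1 : MemLp (C.P s w * G : M →ₘ[m] ℝ) 1 m := mem_mul_top pA.2 hG
    have i2 : MemLp (c • (ψ (s + t) * |G|) : M →ₘ[m] ℝ) 1 m :=
      mem_smul _ (mem_mul_top (hψ.top _ hst0) hG')
    rw [← I_smul]
    unfold I
    refine abs_integral_le_integral_abs.trans ?_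
    refine integral_mono_ae (memLp_one_iff_integrable.1 i1).abs (memLp_one_iff_integrable.1 i2) ?_
    filter_upwards [mul_ae (C.P s w) G, smul_ae (ψ (s + t) * |G|) c, mul_ae (ψ (s + t)) |G|,
      abs_ae' G, nonneg_iff_ae.1 p0, le_iff_ae.1 ple, smul_ae (ψ (s + t)) c]
      with x e1 e2 e3 e4 e5 e6 e7
    rw [e1, e2, e3, e4, abs_mul, abs_of_nonneg e5]
    rw [e7] at e6
    calc C.P s w x * |G x| ≤ (c * ψ (s + t) x) * |G x| := by gcongr
      _ = _ := by ring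
  have r2 := absI _ hmix
  have r3 := absI _ hF1
  have r4 : |2 * κ * I (C.P s w * C.Γ u v)| ≤ c * (2 * |κ| * I (ψ (s + t) * |C.Γ u v|)) := by
    rw [abs_mul, abs_mul, abs_two]
    calc 2 * |κ| * |I (C.P s w * C.Γ u v)| ≤ 2 * |κ| * (c * I (ψ (s + t) * |C.Γ u v|)) := by
          gcongr
      _ = _ := by ring
  have k3 := h3 (s + t) s1 s2
  have r6 := abs_add_le (I (C.P s w * (C.Γ u (C.lap v) + C.Γ v (C.lap u))))
    (2 * κ * I (C.P s w * C.Γ u v))
  calc t * |I (C.P s w * (C.Γ u (C.lap v) + C.Γ v (C.lap u))) + 2 * κ * I (C.P s w * C.Γ u v)|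
      ≤ t * (c * I (ψ (s + t) * |C.Γ u (C.lap v) + C.Γ v (C.lap u)|)
        + c * (2 * |κ| * I (ψ (s + t) * |C.Γ u v|))) := by
        refine mul_le_mul_of_nonneg_left ?_ ht.le
        linarith
    _ = c * (t * (I (ψ (s + t) * |C.Γ u (C.lap v) + C.Γ v (C.lap u)|)
      + 2 * |κ| * I (ψ (s + t) * |C.Γ u v|))) := by ring
    _ ≤ c * b := mul_le_mul_of_nonneg_left k3 hc

end abstract

/-! ### with the kernel -/

variable {M : Type u} [MetricSpace M] [CompleteSpace M] [SecondCountableTopology M]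
  [MeasurableSpace M] [BorelSpace M] {m : Measure M} {n : ℕ} {K : ℝ} {p : ℝ → M → M → ℝ}

namespace Base

variable {o : M} {A Cm : ℝ} (H : Base m n K o A p Cm) {t a : ℝ}
include H

/-- the kernel is a centre family -/
theorem cen (x : M) : Cen (sob m) fun s => ph m p s x where
  mem2 := fun s hs => ph_mem2 H.ker hs x
  top := fun s hs => ph_top H.gamma H.ker H.kb hs x
  nonneg := fun s hs => ph_nonneg H.ker hs x
  mem1 := fun s hs => ph_mem1 H.ker hs x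
  mass := fun s hs => I_ph H.ker hs x
  semi := fun s t hs ht => P_ph H.dir H.ker ht hs x

theorem bei' : (sob m).BEi (-|K|) := bei_mono H.gamma H.bei (neg_abs_le K)

/-- the value of a localized weight on `P_t F` -/
theorem ra_space {w F : M →ₘ[m] ℝ} (hw : MemLp w 2 m) (hw1 : MemLp w 1 m) (h0 : 0 ≤ w)
    (hF : MemLp F 2 m) (ht : 0 < t) {y : M} {r b : ℝ}
    (hsupp : ∀ᵐ z ∂m, r ≤ dist z y → w z = 0)
    (hosc : ∀ z, dist z y < r → |I (ph m p t z * F) - I (ph m p t y * F)| ≤ b) :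
    |I ((sob m).P t w * F) - I w * I (ph m p t y * F)| ≤ b * I w := by
  have hC := H.dir
  rw [hC.P_symm t hw hF]
  have hPF := hC.P_mem2 t hF
  have i1 : Integrable (fun z => w z * (sob m).P t F z) m := by
    have := memLp_one_iff_integrable.1 (mem_mul_22 hw hPF)
    refine this.congr ?_
    filter_upwards [mul_ae w ((sob m).P t F)] with z hz
    rw [hz]
  have i2 : Integrable (fun z => w z) m := memLp_one_iff_integrable.1 hw1
  have e1 : I (w * (sob m).P t F) = ∫ z, w z * (sob m).P t F z ∂m := by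
    unfold I
    refine integral_congr_ae ?_
    filter_upwards [mul_ae w ((sob m).P t F)] with z hz
    rw [hz]
  have e2 : I (w * (sob m).P t F) - I w * I (ph m p t y * F)
      = ∫ z, w z * ((sob m).P t F z - I (ph m p t y * F)) ∂m := by
    rw [e1]
    have : ∀ z, w z * ((sob m).P t F z - I (ph m p t y * F))
        = w z * (sob m).P t F z - w z * I (ph m p t y * F) := fun z => by ring
    simp_rw [this]
    rw [integral_sub i1 (i2.mul_const _), integral_mul_const]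
    rfl
  rw [e2]
  have e3 : b * I w = ∫ z, b * w z ∂m := by
    rw [integral_const_mul]; rfl
  rw [e3]
  refine abs_integral_le_integral_abs.trans ?_
  refine integral_mono_ae ?_ (i2.const_mul b) ?_
  · have h3 := (i1.sub (i2.mul_const (I (ph m p t y * F)))).abs
    refine h3.congr (Eventually.of_forall fun z => ?_)
    simp only [Pi.sub_apply]
    rw [mul_sub]
  · filter_upwards [hsupp, nonneg_iff_ae.1 h0, H.ker.rep t ht F hF] with z z1 z2 z3
    rw [abs_mul, abs_of_nonneg z2, z3, ← I_ph_mul H.ker ht]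
    rcases le_or_gt r (dist z y) with h | h
    · rw [z1 h]; simp
    · rw [mul_comm b]
      exact mul_le_mul_of_nonneg_left (hosc z h) z2

/-- **(R-a)** for a general localized weight, mixed terms as a hypothesis on `P_s w` -/
theorem ra' {u v w : M →ₘ[m] ℝ} (hu : u ∈ (sob m).Test) (hv : v ∈ (sob m).Test)
    (hw : w ∈ (sob m).A) (hw1 : MemLp w 1 m) (h0 : 0 ≤ w) (ht : 0 < t) {y : M} {r c : ℝ}
    (hc : 0 ≤ c) (hle : w ≤ c • ph m p t y) (hsupp : ∀ᵐ z ∂m, r ≤ dist z y → w z = 0)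
    {a₁ a₂ b b' : ℝ}
    (h1 : ∀ s, t < s → s ≤ 2 * t → t * (sob m).NN (-|K|) u u (ph m p s y) ≤ a₁)
    (h2 : ∀ s, t < s → s ≤ 2 * t → t * (sob m).NN (-|K|) v v (ph m p s y) ≤ a₂)
    (h3 : ∀ s, 0 < s → s < t →
      t * |I ((sob m).P s w * ((sob m).Γ u ((sob m).lap v) + (sob m).Γ v ((sob m).lap u)))
      + 2 * (-|K|) * I ((sob m).P s w * (sob m).Γ u v)| ≤ c * b)
    (hosc : ∀ z, dist z y < r →
      |I (ph m p t z * (sob m).Γ u v) - I (ph m p t y * (sob m).Γ u v)| ≤ b') (hb' : 0 ≤ b') :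
    |I (w * (sob m).Γ u v) - I w * I (ph m p t y * (sob m).Γ u v)|
      ≤ c * (2 * (√a₁ * √a₂) + b + b') := by
  have hG := H.gamma
  have hB := H.bei'
  have hF2 := hG.memLp _ (hG.Γ_mem hB hu hv).1
  have e1 := ra_time' hG hB (H.cen y) hu hv hw h0 hc ht hle h1 h2 h3
  have e2 := H.ra_space (hG.memLp _ hw.1) hw1 h0 hF2 ht hsupp hosc
  have e3 : I w ≤ c := by
    have := I_mono hw1 (mem_smul c (ph_mem1 H.ker ht y)) hle
    rwa [I_smul, I_ph H.ker ht y, mul_one] at this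
  have e4 : b' * I w ≤ c * b' := by
    rw [mul_comm c]; exact mul_le_mul_of_nonneg_left e3 hb'
  rw [abs_sub_comm] at e1
  calc |I (w * (sob m).Γ u v) - I w * I (ph m p t y * (sob m).Γ u v)|
      ≤ |I (w * (sob m).Γ u v) - I ((sob m).P t w * (sob m).Γ u v)|
        + |I ((sob m).P t w * (sob m).Γ u v) - I w * I (ph m p t y * (sob m).Γ u v)| :=
        abs_sub_le _ _ _
    _ ≤ c * (2 * (√a₁ * √a₂) + b) + c * b' := by linarith
    _ = _ := by ring

/-- **(R-a)** for a general localized weight -/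
theorem ra {u v w : M →ₘ[m] ℝ} (hu : u ∈ (sob m).Test) (hv : v ∈ (sob m).Test)
    (hw : w ∈ (sob m).A) (hw1 : MemLp w 1 m) (h0 : 0 ≤ w) (ht : 0 < t) {y : M} {r c : ℝ}
    (hc : 0 ≤ c) (hle : w ≤ c • ph m p t y) (hsupp : ∀ᵐ z ∂m, r ≤ dist z y → w z = 0)
    {a₁ a₂ b b' : ℝ}
    (h1 : ∀ s, t < s → s ≤ 2 * t → t * (sob m).NN (-|K|) u u (ph m p s y) ≤ a₁)
    (h2 : ∀ s, t < s → s ≤ 2 * t → t * (sob m).NN (-|K|) v v (ph m p s y) ≤ a₂)
    (h3 : ∀ s, t < s → s ≤ 2 * t →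
      t * (I (ph m p s y * |(sob m).Γ u ((sob m).lap v) + (sob m).Γ v ((sob m).lap u)|)
      + 2 * |K| * I (ph m p s y * |(sob m).Γ u v|)) ≤ b)
    (hosc : ∀ z, dist z y < r →
      |I (ph m p t z * (sob m).Γ u v) - I (ph m p t y * (sob m).Γ u v)| ≤ b') (hb' : 0 ≤ b') :
    |I (w * (sob m).Γ u v) - I w * I (ph m p t y * (sob m).Γ u v)|
      ≤ c * (2 * (√a₁ * √a₂) + b + b') := by
  have hG := H.gamma
  have hB := H.bei'
  have hF2 := hG.memLp _ (hG.Γ_mem hB hu hv).1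
  have e1 := ra_time hG hB (H.cen y) hu hv hw h0 hc ht hle h1 h2 (by
    rw [abs_neg, abs_abs]; exact h3)
  have e2 := H.ra_space (hG.memLp _ hw.1) hw1 h0 hF2 ht hsupp hosc
  have e3 : I w ≤ c := by
    have := I_mono hw1 (mem_smul c (ph_mem1 H.ker ht y)) hle
    rwa [I_smul, I_ph H.ker ht y, mul_one] at this
  have e4 : b' * I w ≤ c * b' := by
    rw [mul_comm c]; exact mul_le_mul_of_nonneg_left e3 hb'
  rw [abs_sub_comm] at e1
  calc |I (w * (sob m).Γ u v) - I w * I (ph m p t y * (sob m).Γ u v)|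
      ≤ |I (w * (sob m).Γ u v) - I ((sob m).P t w * (sob m).Γ u v)|
        + |I ((sob m).P t w * (sob m).Γ u v) - I w * I (ph m p t y * (sob m).Γ u v)| :=
        abs_sub_le _ _ _
    _ ≤ c * (2 * (√a₁ * √a₂) + b) + c * b' := by linarith
    _ = _ := by ring

/-- **(R-a)** for a radial weight -/
theorem ra_wt {u v : M →ₘ[m] ℝ} (hu : u ∈ (sob m).Test) (hv : v ∈ (sob m).Test)
    {Φ : ℝ → ℝ} (hΦ : Sf a Φ) (hΦ0 : ∀ x, 0 ≤ Φ x) (hΦ1 : ∀ x, Φ x ≤ 1) {y : M} {R₁ : ℝ}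
    (hy : dist y o ≤ R₁) (hs : Sc n K Cm a t)
    {a₁ a₂ b b' : ℝ}
    (h1 : ∀ s, t < s → s ≤ 2 * t → t * (sob m).NN (-|K|) u u (ph m p s y) ≤ a₁)
    (h2 : ∀ s, t < s → s ≤ 2 * t → t * (sob m).NN (-|K|) v v (ph m p s y) ≤ a₂)
    (h3 : ∀ s, t < s → s ≤ 2 * t →
      t * (I (ph m p s y * |(sob m).Γ u ((sob m).lap v) + (sob m).Γ v ((sob m).lap u)|)
      + 2 * |K| * I (ph m p s y * |(sob m).Γ u v|)) ≤ b)
    (hosc : ∀ z, dist z y < cL n Cm a * √t →
      |I (ph m p t z * (sob m).Γ u v) - I (ph m p t y * (sob m).Γ u v)| ≤ b') (hb' : 0 ≤ b') :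
    |I (wt m n p Φ y t * (sob m).Γ u v)
        - I (wt m n p Φ y t) * I (ph m p t y * (sob m).Γ u v)|
      ≤ cB n A 1 (cL n Cm a) R₁ * √t ^ n * (2 * (√a₁ * √a₂) + b + b') := by
  have ht := hs.pos
  have h16 := hs.le16 H.one H.n_pos.le
  have hB : ∀ x, -(n : ℝ) ≤ x → |Φ x| ≤ 1 := fun x _ => by
    rw [abs_of_nonneg (hΦ0 x)]; exact hΦ1 x
  have hle := (H.wt_le' hΦ hB hs (s := t) (Γ := 1) (C₀ := 0) (R₁ := R₁) (q := y) (y := y) ht
    (by linarith) (by linarith) (by linarith) hy (by simp)).1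
  rw [add_zero, one_mul] at hle
  have c0 : 0 < cB n A 1 (cL n Cm a) R₁ := cB_pos H.kb.one_le one_pos
  exact H.ra hu hv (H.wt_A hΦ y hs) (H.wt_int hΦ hy hs) (H.wt_nonneg hΦ.cont hΦ0 y ht) ht
    (by positivity) hle (H.wt_far hΦ y hs) h1 h2 h3 hosc hb'

end Base

end Vale.Agent.P242.H937
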