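import Vale.Agent.P242.H937.VocW
import Vale.Agent.P242.H703.HfL
import Vale.Agent.P242.H744.NuD
import Vale.Agent.P242.H771.Sub

/-! P242, package A-GL1 (helper937): GL1-b, GL1-c and the radial weights in the frozen
vocabulary, at one vertex and one time. -/

set_option linter.all false

open MeasureTheory Filter Topology Set Metric
open scoped ENNReal NNReal ContDiff InnerProductSpace

universe u

namespace Vale.Agent.P242.H937

open Vale.Agent.P233 Vale.Agent.P242.H520 Vale.Agent.P242.H990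
open Vale.Agent.P233.RA (gg ww cc)
open Vale.Agent.P242.H71 (Env Cfg Gm gm Nt Dt uc E)
open Vale.Agent.P242.H703 (cH hf hf_hyp hf_Nt hf_gam hf_G one_le_cH sgn_bd)

variable {M : Type u} [MetricSpace M] [CompleteSpace M] [SecondCountableTopology M]
  [MeasurableSpace M] [BorelSpace M] {m : Measure M} {n : ℕ} {K : ℝ} {p : ℝ → M → M → ℝ}
  {o : M} {A Cm R Q η ρ A₀ a t : ℝ} {u : Fin n → M →ₘ[m] ℝ} {uu : M → E n} {Φ : ℝ → ℝ} {y : M}

/-- the constant of `glb` -/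
noncomputable def cGLb (n : ℕ) (A C₀ L : ℝ) : ℝ :=
  cB n A 1 L 1 * (2 * (2 * cH n A C₀ * 4 ^ ((n : ℝ) / 2)) + 1 + (2 * cH n A C₀ + 3) * L)

/-- **GL1-b** -/
theorem glb (h : Env m n K o A p) (H : Base m n K o A p Cm) (hu : Cfg m n K o p R Q η ρ u uu)
    (hη : 0 ≤ η) (hQ : 8 * A ^ 2 ≤ Q) {C₀ : ℝ} (hC₀ : 1 ≤ C₀) (hcL : cL n Cm a ≤ C₀)
    (q : H703.HF.Par Q (12 * n * cH n A C₀ * η) A₀ (3 / 8)) (hΦ : Sf a Φ) (hΦ0 : ∀ x, 0 ≤ Φ x)
    (hΦ1 : ∀ x, Φ x ≤ 1) (hs : Sc n K Cm a t) (h2t : 2 * t ≤ ρ ^ 2)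
    (hy : y ∈ ball o (R / 2 * ρ)) (hyz : cL n Cm a * √t ≤ R / 2 * ρ) (c c' : E n) :
    |I (wt m n p Φ y t * (sob m).Γ (uc u c) (uc u c')) - I (wt m n p Φ y t) * Gm m p u t y c c'|
      ≤ cGLb n A C₀ (cL n Cm a) * (√t ^ n * (√(Nt m K p u Q A₀ ρ (3 / 8) t y c c) *
        √(Nt m K p u Q A₀ ρ (3 / 8) t y c' c'))) := by
  have ht := hs.pos
  have hC := H.gamma
  have hD := H.dir
  have hA := h.kb.one_le
  have hA2 : 1 ≤ A ^ 2 := one_le_pow₀ hA
  have hρ := hu.ρ_pos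
  have hρ2 : 0 < ρ ^ 2 := by positivity
  have hRρ := hu.Rρ
  have hcH := one_le_cH (n := n) hA (show 0 ≤ C₀ by linarith)
  have hn0 : (0 : ℝ) < n := H.n_pos
  have hcL0 : 0 < cL n Cm a := by
    unfold cL; have := H.one; have := hs.one; positivity
  have q0 : 0 < √t := Real.sqrt_pos.2 ht
  have hR0 : 0 < R := by
    have h1 : 0 < cL n Cm a * √t := by positivity
    have h2 : 0 < R / 2 * ρ := h1.trans_le hyz
    by_contra hc
    rw [not_lt] at hc
    nlinarith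
  have hy' : y ∈ ball o (R * ρ) := by
    rw [mem_ball] at hy ⊢
    nlinarith
  have hyo : dist y o ≤ 1 := (mem_ball.1 hy').le.trans hRρ
  have hH := hf_hyp h hu hη hC₀ hQ (le_refl R)
  have hTQ := hH.T_le
  have htρ : t ≤ ρ ^ 2 := by linarith
  have htQ : t ≤ Q * ρ ^ 2 := htρ.trans hTQ
  set S : ℝ := √(Nt m K p u Q A₀ ρ (3 / 8) t y c c) * √(Nt m K p u Q A₀ ρ (3 / 8) t y c' c') with hS
  have hS0 : 0 ≤ S := by positivity
  have eN : ∀ d d' : E n, (hf m K p u).Nb (ρ ^ 2) Q A₀ (3 / 8) t y d d'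
      = Nt m K p u Q A₀ ρ (3 / 8) t y d d' := fun d d' =>
    hf_Nt h hu hη hQ (by norm_num) ht htQ hy' d d'
  set K₁ : ℝ := 2 * cH n A C₀ * 4 ^ ((n : ℝ) / 2) with hK₁
  have hK₁0 : 0 < K₁ := by positivity
  -- bounds of `γ_s`
  have hg : ∀ (d : E n) s, t < s → s ≤ 2 * t →
      t * (sob m).NN (-|K|) (uc u d) (uc u d) (ph m p s y)
        ≤ K₁ * Nt m K p u Q A₀ ρ (3 / 8) t y d d := by
    intro d s h1 h2
    have s0 : 0 < s := ht.trans h1
    have g1 := hH.gam_le_Nb q ht h1.le h2 h2t hy' d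
    have g2 := hH.F4c q ht (by linarith : t ≤ 2 * t) (h2t.trans hTQ) hy' d
    rw [hf_gam h hu s0] at g1
    rw [eN] at g2
    have e1 : 2 * (2 * t) / t = 4 := by field_simp; norm_num
    have e2 : 2 * t / t = 2 := by field_simp
    rw [e1] at g1
    rw [e2] at g2
    have e3 : (2 : ℝ) ^ (3 / 8 : ℝ) ≤ 2 := by
      have : (2 : ℝ) ^ (3 / 8 : ℝ) ≤ (2 : ℝ) ^ (1 : ℝ) :=
        Real.rpow_le_rpow_of_exponent_le (by norm_num) (by norm_num)
      rwa [Real.rpow_one] at this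
    have hN0 : 0 ≤ Nt m K p u Q A₀ ρ (3 / 8) t y d d := by
      rw [← eN]; exact hH.Nb_nonneg q ht htQ hy' d
    have g3 : (hf m K p u).Nb (ρ ^ 2) Q A₀ (3 / 8) (2 * t) y d d
        ≤ 2 * Nt m K p u Q A₀ ρ (3 / 8) t y d d := g2.trans (by gcongr)
    have g4 : 2 * t * gm m K p u s y d d ≤ 2 * cH n A C₀ * 4 ^ ((n : ℝ) / 2) *
        (2 * Nt m K p u Q A₀ ρ (3 / 8) t y d d) := g1.trans (by gcongr)
    show t * gm m K p u s y d d ≤ _
    rw [hK₁]
    linarith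
  -- the weight
  have h16 := hs.le16 H.one hn0.le
  have hB : ∀ x, -(n : ℝ) ≤ x → |Φ x| ≤ 1 := fun x _ => by
    rw [abs_of_nonneg (hΦ0 x)]; exact hΦ1 x
  have hle := (H.wt_le' hΦ hB hs (s := t) (Γ := 1) (C₀ := 0) (R₁ := 1) (q := y) (y := y) ht
    (by linarith) (by linarith) (by linarith) hyo (by simp)).1
  rw [add_zero, one_mul] at hle
  set c₁ : ℝ := cB n A 1 (cL n Cm a) 1 * √t ^ n with hc₁
  have c0' : 0 < cB n A 1 (cL n Cm a) 1 := cB_pos hA one_pos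
  have c0 : 0 < c₁ := by positivity
  set w := wt m n p Φ y t with hw
  have wA := H.wt_A hΦ y hs
  have w0 := H.wt_nonneg hΦ.cont hΦ0 y ht
  have w2 := hC.memLp _ wA.1
  have w1 := H.wt_int hΦ hyo hs
  have hut : ∀ d : E n, uc u d ∈ (sob m).Test := fun d => H703.uc_test h hu d
  -- mixed terms
  have bg := hH.bg_mixed q ht htQ hy' c c'
  rw [eN, eN] at bg
  have hmix : t * (12 * n * η / ρ ^ 2 * (‖c‖ * ‖c'‖)) ≤ S := by
    refine le_trans ?_ bg
    have e1 : t * (12 * n * η / ρ ^ 2 * (‖c‖ * ‖c'‖)) = (12 * n * η) * (t / ρ ^ 2) * (‖c‖ * ‖c'‖) := by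
      field_simp
    rw [e1]
    have e2 : 12 * n * η ≤ A₀ := by
      have h1 : 12 * n * η ≤ 12 * n * cH n A C₀ * η := by
        have : 12 * (n : ℝ) ≤ 12 * n * cH n A C₀ := by
          have : 0 ≤ 12 * (n : ℝ) := by positivity
          nlinarith
        gcongr
      exact h1.trans (hH.η_le q)
    have e3 : t / ρ ^ 2 ≤ (t / ρ ^ 2) ^ (3 / 8 : ℝ) := by
      have h1 : t / ρ ^ 2 ≤ 1 := (div_le_one hρ2).2 htρ
      conv_lhs => rw [← Real.rpow_one (t / ρ ^ 2)]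
      exact Real.rpow_le_rpow_of_exponent_ge (by positivity) h1 (by norm_num)
    have hA₀ : 0 ≤ A₀ := hH.A₀_nonneg q
    gcongr
  have h3 : ∀ s, 0 < s → s < t →
      t * |I ((sob m).P s w * ((sob m).Γ (uc u c) ((sob m).lap (uc u c'))
        + (sob m).Γ (uc u c') ((sob m).lap (uc u c))))
      + 2 * (-|K|) * I ((sob m).P s w * (sob m).Γ (uc u c) (uc u c'))| ≤ c₁ * S := by
    intro s s0 hst
    have hst0 : 0 < t + s := by linarith
    have pA : (sob m).P s w ∈ (sob m).A := ⟨hD.P_mem s0 w2, hD.P_memTop s0.le w2 wA.2⟩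
    have p0 : 0 ≤ (sob m).P s w := hD.P_nonneg s0.le w2 w0
    have ple : (sob m).P s w ≤ c₁ • ph m p (t + s) y := by
      have h4 := hD.P_mono s0.le w2 (mem_smul c₁ (ph_mem2 h.ker ht y)) hle
      rwa [hD.P_smul s c₁ (ph_mem2 h.ker ht y), P_ph hD h.ker s0.le ht y] at h4
    have hae : ∀ᵐ z ∂m, |(sob m).P s w z| ≤ c₁ * ph m p (t + s) y z := by
      filter_upwards [nonneg_iff_ae.1 p0, le_iff_ae.1 ple, smul_ae (ph m p (t + s) y) c₁]
        with z a1 a2 a3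
      rw [abs_of_nonneg a1, ← a3]; exact a2
    have hP1 : MemLp ((sob m).P s w) 1 m := by
      rw [memLp_one_iff_integrable]
      refine ((memLp_one_iff_integrable.1 (ph_mem1 h.ker hst0 y)).const_mul c₁).mono'
        (hC.memLp _ pA.1).1 ?_
      filter_upwards [hae] with z hz
      rw [Real.norm_eq_abs]; exact hz
    have key := sgn_bd h hu hst0 (by linarith) hy' hη pA.2 hP1 c0.le hae c c'
    have e1 : I ((sob m).P s w * ((sob m).Γ (uc u c) ((sob m).lap (uc u c'))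
        + (sob m).Γ (uc u c') ((sob m).lap (uc u c))))
        + 2 * (-|K|) * I ((sob m).P s w * (sob m).Γ (uc u c) (uc u c'))
        = I ((sob m).P s w * ((sob m).Γ (uc u c) ((sob m).lap (uc u c'))
        + (sob m).Γ (uc u c') ((sob m).lap (uc u c))))
        - 2 * |K| * I ((sob m).P s w * (sob m).Γ (uc u c) (uc u c')) := by ring
    rw [e1]
    calc t * _ ≤ t * (c₁ * (12 * n * η / ρ ^ 2) * (‖c‖ * ‖c'‖)) :=
          mul_le_mul_of_nonneg_left key ht.le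
      _ = c₁ * (t * (12 * n * η / ρ ^ 2 * (‖c‖ * ‖c'‖))) := by ring
      _ ≤ c₁ * S := mul_le_mul_of_nonneg_left hmix c0.le
  -- oscillation
  have hosc : ∀ z, dist z y < cL n Cm a * √t →
      |I (ph m p t z * (sob m).Γ (uc u c) (uc u c')) - I (ph m p t y * (sob m).Γ (uc u c) (uc u c'))|
        ≤ (2 * cH n A C₀ + 3) * cL n Cm a * S := by
    intro z hz
    have hz' : z ∈ ball o (R * ρ) := by
      rw [mem_ball] at hy ⊢
      have := dist_triangle z y o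
      nlinarith
    have hd : dist y z ≤ C₀ * √t := by
      rw [dist_comm]
      refine hz.le.trans ?_
      gcongr
    have f3 := hH.F3 q ht htρ hy' hz' hd c c'
    rw [hf_G h hu ht, hf_G h hu ht, eN, eN] at f3
    rw [abs_sub_comm]
    refine f3.trans ?_
    have e1 : dist y z / √t ≤ cL n Cm a := by
      rw [div_le_iff₀ q0, dist_comm]; exact hz.le
    have : 0 ≤ 2 * cH n A C₀ + 3 := by positivity
    gcongr
  have main := H.ra' (hut c) (hut c') wA w1 w0 ht c0.le hle (H.wt_far hΦ y hs) (hg c) (hg c') h3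
    hosc (by positivity)
  refine main.trans (le_of_eq ?_)
  have e4 : √(K₁ * Nt m K p u Q A₀ ρ (3 / 8) t y c c) * √(K₁ * Nt m K p u Q A₀ ρ (3 / 8) t y c' c')
      = K₁ * S := by
    rw [Real.sqrt_mul hK₁0.le, Real.sqrt_mul hK₁0.le, hS]
    have := Real.mul_self_sqrt hK₁0.le
    calc _ = (√K₁ * √K₁) * (√(Nt m K p u Q A₀ ρ (3 / 8) t y c c) *
          √(Nt m K p u Q A₀ ρ (3 / 8) t y c' c')) := by ring
      _ = _ := by rw [this]
  rw [e4]
  unfold cGLb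
  rw [hc₁]
  ring

/-- the radial weights, all properties -/
theorem wAt (H : Base m n K o A p Cm) (hs : Sc n K Cm 2 t) {B₀ B : ℝ} (hB₀ : 1 ≤ B₀)
    (hb : ∀ s, -(n : ℝ) ≤ s → |H363.psi s| ≤ B₀ ∧ |H363.psi1 s| ≤ B₀ ∧ |H363.psi2 s| ≤ B₀ ∧
      |H363.Xi s| ≤ B₀) (hB1 : B₀ * cB n A 1 (cL n Cm 2) 1 ≤ B) (hB2 : cL n Cm 2 ≤ B)
    (hB3 : cV n A Cm 1 ≤ B) (hy : dist y o ≤ 1) :
    H771.WAt m n p B B t y (wt m n p H363.psi y t) (t⁻¹ • wt m n p (deriv H363.psi) y t)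
      ((t⁻¹ * t⁻¹) • wt m n p (deriv (deriv H363.psi)) y t) (t • wt m n p H363.Xi y t) := by
  have ht := hs.pos
  have h16 := hs.le16 H.one H.n_pos.le
  have q0 : 0 < √t := Real.sqrt_pos.2 ht
  have qt : √t ^ 2 = t := Real.sq_sqrt ht.le
  have hA := H.kb.one_le
  have c0 : 0 < cB n A 1 (cL n Cm 2) 1 := cB_pos hA one_pos
  have hB0 : 0 ≤ B := (by positivity : (0 : ℝ) ≤ B₀ * cB n A 1 (cL n Cm 2) 1).trans hB1
  have ph0 := nonneg_iff_ae.1 (ph_nonneg H.ker ht y)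
  have wle : ∀ {F : ℝ → ℝ}, Sf 2 F → (∀ x, -(n : ℝ) ≤ x → |F x| ≤ B₀) →
      ∀ᵐ z ∂m, |wt m n p F y t z| ≤ B * (√t ^ n • ph m p t y : M →ₘ[m] ℝ) z := by
    intro F hF hFb
    filter_upwards [H.wt_le hF hFb hs (s := t) (Γ := 1) (C₀ := 0) (R₁ := 1) (q := y) (y := y) ht
      (by linarith) (by linarith) (by linarith) hy (by simp), smul_ae (ph m p t y) (√t ^ n), ph0]
      with z e1 e2 e3
    rw [e2]
    rw [add_zero] at e1
    calc |wt m n p F y t z| ≤ B₀ * (cB n A 1 (cL n Cm 2) 1 * √t ^ n) * ph m p t y z := e1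
      _ = (B₀ * cB n A 1 (cL n Cm 2) 1) * (√t ^ n * ph m p t y z) := by ring
      _ ≤ B * (√t ^ n * ph m p t y z) := by gcongr
  have f0 : Sf 2 H363.psi := psi_sf
  have f1 : Sf 2 (deriv H363.psi) := psi_sf.deriv
  have f2 : Sf 2 (deriv (deriv H363.psi)) := psi_sf.deriv.deriv
  have fX : Sf 2 H363.Xi := Xi363_sf
  have w0 := wle f0 fun x hx => (hb x hx).1
  have w1 := wle f1 fun x hx => (hb x hx).2.1
  have w2 := wle f2 fun x hx => (hb x hx).2.2.1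
  have wX := wle fX fun x hx => (hb x hx).2.2.2
  have hX := H.wt_X' fX f0 H363.Xi_hd y hs
  refine ⟨H.wt_RP f0 y hs, ⟨hB0, q0, ?_, ?_, w0, ?_, ?_⟩, hX.1, hX.2, ?_, ?_, ?_, ?_, ?_, ?_⟩
  · filter_upwards [ph0, smul_ae (ph m p t y) (√t ^ n)] with z e1 e2
    rw [e2]; positivity
  · exact mem_smul _ (ph_mem1 H.ker ht y)
  · filter_upwards [w1, smul_ae (wt m n p (deriv H363.psi) y t) t⁻¹] with z e1 e2
    rw [e2, abs_mul, abs_of_pos (inv_pos.2 ht), qt]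
    calc t⁻¹ * |wt m n p (deriv H363.psi) y t z|
        ≤ t⁻¹ * (B * (√t ^ n • ph m p t y : M →ₘ[m] ℝ) z) := by gcongr
      _ = _ := by ring
  · filter_upwards [w2, smul_ae (wt m n p (deriv (deriv H363.psi)) y t) (t⁻¹ * t⁻¹)] with z e1 e2
    have q4 : √t ^ 4 = t * t := by
      calc √t ^ 4 = √t ^ 2 * √t ^ 2 := by ring
        _ = _ := by rw [qt]
    rw [e2, abs_mul, abs_of_pos (by positivity : 0 < t⁻¹ * t⁻¹), q4]
    calc t⁻¹ * t⁻¹ * |wt m n p (deriv (deriv H363.psi)) y t z|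
        ≤ t⁻¹ * t⁻¹ * (B * (√t ^ n • ph m p t y : M →ₘ[m] ℝ) z) := by gcongr
      _ = _ := by
        rw [div_eq_mul_inv, mul_inv]; ring
  · filter_upwards [wX, smul_ae (wt m n p H363.Xi y t) t] with z e1 e2
    rw [e2, abs_mul, abs_of_pos ht, qt]
    calc t * |wt m n p H363.Xi y t z|
        ≤ t * (B * (√t ^ n • ph m p t y : M →ₘ[m] ℝ) z) := by gcongr
      _ = _ := by ring
  · exact smul_nonneg' ht.le (H.wt_nonneg fX.cont H363.Xi_nonneg y ht)
  · filter_upwards [H.wt_ae f0.cont y ht, H.wt_ae fX.cont y ht, H.bp_ae y ht,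
      smul_ae (wt m n p H363.Xi y t) t] with z e1 e2 e3 e4
    have e5 : (H71.bb m y t) z + (1 / 2 - n * t) = bp m n p y t z := e3
    rw [e1, e4, e2, e5]
    exact ⟨rfl, rfl⟩
  · filter_upwards [H.wt_far f0 y hs, H.wt_far f1 y hs, H.wt_far f2 y hs, H.wt_far fX y hs,
      smul_ae (wt m n p (deriv H363.psi) y t) t⁻¹,
      smul_ae (wt m n p (deriv (deriv H363.psi)) y t) (t⁻¹ * t⁻¹),
      smul_ae (wt m n p H363.Xi y t) t] with z a0 a1 a2 a3 b1 b2 b3 hne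
    by_contra hc
    rw [not_lt] at hc
    have hd : cL n Cm 2 * √t ≤ dist z y := by
      rw [dist_comm z y]
      refine le_trans ?_ hc
      gcongr
    rw [b1, b2, b3, a0 hd, a1 hd, a2 hd, a3 hd] at hne
    simp at hne
  · refine (H.V_le f0 (fun x => ?_) hy hs).trans ?_
    · rw [abs_of_nonneg (H363.psi_nonneg x)]; exact H363.psi_le_one x
    · have : cB n A 1 (cL n Cm 2) 1 ≤ B :=
        (le_mul_of_one_le_left c0.le hB₀).trans hB1
      gcongr
  · refine (H.V_ge f0 H363.psi_nonneg (fun x hx => (H363.psi_one (by linarith)).ge) hy hs).trans ?_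
    have : 0 ≤ I (wt m n p H363.psi y t) := I_nonneg (H.wt_nonneg f0.cont H363.psi_nonneg y ht)
    gcongr

end Vale.Agent.P242.H937
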