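import Vale.Agent.P242.H937.Ra

/-! P242, package A-GL1 (helper937), part c: `V_t = √t^{-n} ∫ Φ(β_t/t)` varies little between
comparable scales: `|V_t - V_{t'}| ≤ C D`. -/

set_option linter.all false

open MeasureTheory Filter Topology Set
open scoped ENNReal NNReal ContDiff

universe u

namespace Vale.Agent.P242.H937

open Vale.Agent.P233 Vale.Agent.P242.H520 Vale.Agent.P242.H990
open Vale.Agent.P233.RA (gg ww cc)

theorem Sf.mul_deriv {a : ℝ} {Φ : ℝ → ℝ} (h : Sf a Φ) : Sf a (fun x => x * _root_.deriv Φ x) where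
  smooth := contDiff_id.mul h.deriv.smooth
  zero := fun x hx => by rw [h.deriv.zero x hx, mul_zero]

variable {M : Type u} [MetricSpace M] [CompleteSpace M] [SecondCountableTopology M]
  [MeasurableSpace M] [BorelSpace M] {m : Measure M} {n : ℕ} {K : ℝ} {p : ℝ → M → M → ℝ}

namespace Base

variable {o : M} {A Cm : ℝ} (H : Base m n K o A p Cm) {t a R₁ : ℝ} {Φ : ℝ → ℝ} {y : M}
include H

/-- domination of `Φ(β_t/s)`, `s ≤ t ≤ Γ s`, by the kernel -/
theorem ft_le (hΦ : Sf a Φ) {Γ B : ℝ} (hB : ∀ x, -(n * Γ) ≤ x → |Φ x| ≤ B)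
    (hy : dist y o ≤ R₁) (hs : Sc n K Cm a t) {s : ℝ} (s0 : 0 < s) (hst : s ≤ t)
    (hΓ : t ≤ Γ * s) (z : M) :
    |Φ (bp m n p y t z / s)| ≤ B * (cB n A 1 (cL n Cm a) R₁ * √t ^ n) * p t y z := by
  have ht := hs.pos
  have h16 := hs.le16 H.one H.n_pos.le
  have hn := H.n_pos
  have hΓ0 : 0 < Γ := by
    by_contra hc
    rw [not_lt] at hc
    nlinarith
  have hB0 : 0 ≤ B := (abs_nonneg _).trans (hB 0 (by
    have : 0 ≤ (n : ℝ) * Γ := by positivity
    linarith))
  have p0 := H.ker.nonneg t ht y z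
  have c0 : 0 < cB n A 1 (cL n Cm a) R₁ := cB_pos H.kb.one_le one_pos
  rcases le_or_gt (cL n Cm a * √t) (dist z y) with hz | hz
  · have h1 := H.bp_far ht hs.one hs.far hz
    rw [hΦ.zero, abs_zero]
    · positivity
    · rw [le_div_iff₀ s0]
      have := hs.one
      nlinarith
  · have h4 : 1 ≤ cB n A 1 (cL n Cm a) R₁ * √t ^ n * p t y z := by
      refine one_le_p H.kb ht ht (by linarith) (by linarith) (by linarith) hy ?_
      rw [dist_comm]; exact hz.le
    have h5 : |Φ (bp m n p y t z / s)| ≤ B := by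
      apply hB
      rw [le_div_iff₀ s0]
      have := H.bp_ge (n := n) y z ht
      nlinarith
    calc |Φ (bp m n p y t z / s)| ≤ B * 1 := by rw [mul_one]; exact h5
      _ ≤ B * (cB n A 1 (cL n Cm a) R₁ * √t ^ n * p t y z) := by gcongr
      _ = _ := by ring

theorem ft_cont (hΦ : Sf a Φ) (y : M) (ht : 0 < t) (s : ℝ) :
    Continuous fun z => Φ (bp m n p y t z / s) :=
  hΦ.cont.comp ((H.bp_cont y ht).div_const s)

theorem ft_int (hΦ : Sf a Φ) (hy : dist y o ≤ R₁) (hs : Sc n K Cm a t) {s : ℝ} (s0 : 0 < s)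
    (hst : s ≤ t) : Integrable (fun z => Φ (bp m n p y t z / s)) m := by
  have ht := hs.pos
  obtain ⟨B, -, hB⟩ := hΦ.bdd (-(n * (t / s)))
  refine ((H.ker.int t ht y).const_mul (B * (cB n A 1 (cL n Cm a) R₁ * √t ^ n))).mono'
    (H.ft_cont hΦ y ht s).aestronglyMeasurable (Eventually.of_forall fun z => ?_)
  rw [Real.norm_eq_abs]
  exact H.ft_le hΦ hB hy hs s0 hst (by rw [div_mul_cancel₀ _ s0.ne']) z

/-- derivative of `s ↦ ∫ Φ(β_t/s)` -/
theorem hasDeriv_J (hΦ : Sf a Φ) (hy : dist y o ≤ R₁) (hs : Sc n K Cm a t) {s : ℝ} (s0 : 0 < s)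
    (hst : s < t) : HasDerivAt (fun s => ∫ z, Φ (bp m n p y t z / s) ∂m)
      (-(s⁻¹ * ∫ z, (bp m n p y t z / s) * deriv Φ (bp m n p y t z / s) ∂m)) s := by
  have ht := hs.pos
  have hΦ1 := hΦ.mul_deriv
  obtain ⟨B, hB1, hB⟩ := hΦ1.bdd (-(n * (t / (s / 2))))
  have h := hasDerivAt_integral_of_dominated_loc_of_deriv_le (μ := m) (x₀ := s)
    (F := fun s z => Φ (bp m n p y t z / s))
    (F' := fun s z => -(s⁻¹ * ((bp m n p y t z / s) * deriv Φ (bp m n p y t z / s))))
    (bound := fun z => (s / 2)⁻¹ * (B * (cB n A 1 (cL n Cm a) R₁ * √t ^ n) * p t y z))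
    (s := Ioo (s / 2) t) (Ioo_mem_nhds (by linarith) hst)
    (Eventually.of_forall fun r => (H.ft_cont hΦ y ht r).aestronglyMeasurable)
    (H.ft_int hΦ hy hs s0 hst.le)
    ((continuous_const.mul (H.ft_cont hΦ1 y ht s)).neg.aestronglyMeasurable) ?_ ?_ ?_
  · have h2 := h.2
    refine h2.congr_deriv ?_
    rw [integral_neg, integral_const_mul]
  · refine Eventually.of_forall fun z r hr => ?_
    have r0 : 0 < r := by have := hr.1; linarith
    have h3 : t / (s / 2) * r = t * (r / (s / 2)) := by ring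
    have h5 : 1 ≤ r / (s / 2) := by rw [one_le_div (by linarith)]; exact hr.1.le
    have h4 := H.ft_le hΦ1 hB hy hs r0 hr.2.le (by rw [h3]; nlinarith) z
    rw [norm_neg, norm_mul, Real.norm_eq_abs, Real.norm_eq_abs, abs_of_pos (inv_pos.2 r0)]
    have h6 : r⁻¹ ≤ (s / 2)⁻¹ := by
      apply inv_anti₀ (by linarith) hr.1.le
    exact mul_le_mul h6 h4 (abs_nonneg _) (by positivity)
  · exact ((H.ker.int t ht y).const_mul _).const_mul _
  · refine Eventually.of_forall fun z r hr => ?_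
    have r0 : 0 < r := by have := hr.1; linarith
    have h3 : HasDerivAt (fun r : ℝ => bp m n p y t z / r) (-(bp m n p y t z / r ^ 2)) r := by
      have := (hasDerivAt_inv r0.ne').const_mul (bp m n p y t z)
      refine (this.congr_deriv ?_)
      rw [div_eq_mul_inv]; ring
    refine (HasDerivAt.comp r (hΦ.hasDeriv _) h3).congr_deriv ?_
    field_simp

theorem cont_J (hΦ : Sf a Φ) (hy : dist y o ≤ R₁) (hs : Sc n K Cm a t) {t' : ℝ} (t0 : 0 < t') :
    ContinuousOn (fun s => ∫ z, Φ (bp m n p y t z / s) ∂m) (Icc t' t) := by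
  have ht := hs.pos
  obtain ⟨B, hB1, hB⟩ := hΦ.bdd (-(n * (t / t')))
  refine continuousOn_of_dominated
    (bound := fun z => B * (cB n A 1 (cL n Cm a) R₁ * √t ^ n) * p t y z) ?_ ?_ ?_ ?_
  · exact fun r _ => (H.ft_cont hΦ y ht r).aestronglyMeasurable
  · intro r hr
    refine Eventually.of_forall fun z => ?_
    have r0 : 0 < r := lt_of_lt_of_le t0 hr.1
    rw [Real.norm_eq_abs]
    refine H.ft_le hΦ hB hy hs r0 hr.2 ?_ z
    have h3 : t / t' * r = t * (r / t') := by ring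
    have h5 : 1 ≤ r / t' := by rw [one_le_div t0]; exact hr.1
    rw [h3]; nlinarith
  · exact (H.ker.int t ht y).const_mul _
  · refine Eventually.of_forall fun z => ?_
    refine hΦ.cont.comp_continuousOn ?_
    intro r hr
    have r0 : r ≠ 0 := (lt_of_lt_of_le t0 hr.1).ne'
    exact (continuousAt_const.div continuousAt_id r0).continuousWithinAt

/-- the static identity `n ∫Φ + 2 ∫(β/s)Φ' = ∫(n - Δb)Φ - s⁻¹∫Φ'(|∇b|² - 2β)`, as a bound -/
theorem static (hΦ : Sf a Φ) (hy : dist y o ≤ R₁) (hs : Sc n K Cm a t) {s Γ : ℝ} (s0 : 0 < s)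
    (hst : s ≤ t) (hΓ : t ≤ Γ * s) {B B' : ℝ} (hB : ∀ x, -(n * Γ) ≤ x → |Φ x| ≤ B)
    (hB' : ∀ x, -(n * Γ) ≤ x → |deriv Φ x| ≤ B') {D : ℝ}
    (hμ : I (ph m p t y * |(n : ℝ) • 1 - (sob m).lap (bb m y t)|) ≤ D)
    (hq : I (ph m p t y * |(sob m).Γ (bb m y t) (bb m y t)
      - (2 : ℝ) • (bb m y t + (1 / 2 - n * t) • 1)|) ≤ t * D) :
    |n * ∫ z, Φ (bp m n p y t z / s) ∂m
      + 2 * ∫ z, (bp m n p y t z / s) * deriv Φ (bp m n p y t z / s) ∂m|
      ≤ (B + Γ * B') * (cB n A 1 (cL n Cm a) R₁ * √t ^ n) * D := by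
  have ht := hs.pos
  have hC := H.gamma
  have hD := H.dir
  have k := H.ker
  have h16 := hs.le16 H.one H.n_pos.le
  have hΦ' := hΦ.deriv
  have hΦ1 := hΦ.mul_deriv
  set b := bb m y t with hb
  set c₁ := cB n A 1 (cL n Cm a) R₁ * √t ^ n with hc₁
  have c0 : 0 < c₁ := by
    have : 0 < cB n A 1 (cL n Cm a) R₁ := cB_pos H.kb.one_le one_pos
    have : 0 < √t := Real.sqrt_pos.2 ht
    positivity
  have bT := H.bb_test y ht
  have bA := hC.test_A bT
  have zz : a ≤ (1 / 2 - n * t) / s := by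
    have h1 := (hs.zero H.one H.n_pos.le).le
    rw [le_div_iff₀ ht] at h1
    rw [le_div_iff₀ s0]
    have := hs.one
    nlinarith
  -- the classes
  have cf : ∀ {F : ℝ → ℝ}, Sf a F → ∀ᵐ z ∂m, cl m (fun z => F (bp m n p y t z / s)) z
      = F (bp m n p y t z / s) := fun hF => H183.cl_cont (H.ft_cont hF y ht s)
  have cmf : ∀ {F : ℝ → ℝ}, Sf a F → H363.Cm b (1 / 2 - n * t) (fun τ => F (τ / s))
      (cl m (fun z => F (bp m n p y t z / s))) := by
    intro F hF
    filter_upwards [cf hF, H.bp_ae y ht] with z h1 h2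
    rw [h1, h2]
  set Q0 : M →ₘ[m] ℝ := cl m (fun z => Φ (bp m n p y t z / s)) with hQ0
  set Q1 : M →ₘ[m] ℝ := s⁻¹ • cl m (fun z => deriv Φ (bp m n p y t z / s)) with hQ1
  have q1 : H363.Cm b (1 / 2 - n * t) (fun τ => s⁻¹ * deriv Φ (τ / s)) Q1 := (cmf hΦ').smul s⁻¹
  obtain ⟨Q0A, Q0Γ⟩ := H363.Cm.memA (φ := fun τ => Φ (τ / s)) (φ' := fun τ => s⁻¹ * deriv Φ (τ / s))
    hD bA (fun x => by
      have h1 : HasDerivAt (fun τ : ℝ => τ / s) s⁻¹ x := by
        simpa [div_eq_mul_inv] using (hasDerivAt_id x).mul_const s⁻¹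
      refine (HasDerivAt.comp x (hΦ.hasDeriv (x / s)) h1).congr_deriv ?_
      ring) (continuous_const.mul (hΦ'.cont.comp (continuous_id.div_const s)))
    (hΦ.zero _ zz) (cmf hΦ) q1
  -- lapI
  have L := H363.lapI hC bT Q0A.1
  have L2 : I (Q1 * (sob m).Γ b b) = -I ((sob m).lap b * Q0) := by
    rw [← L, hC.symm _ bA.1 _ Q0A.1, Q0Γ _ bA.1]
  -- integrability
  have iΦ := H.ft_int hΦ hy hs s0 hst
  have iΦ1 := H.ft_int hΦ1 hy hs s0 hst
  have iL : Integrable (fun z => Φ (bp m n p y t z / s) * (sob m).lap b z) m := by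
    have h1 := memLp_one_iff_integrable.1 (mem_mul_22 (hC.memLp _ Q0A.1)
      (hC.memLp _ (hC.test_lap_mem bT)))
    refine h1.congr ?_
    filter_upwards [mul_ae Q0 ((sob m).lap b), cf hΦ] with z e1 e2
    rw [e1, e2]
  have q1top : MemLp Q1 ∞ m := by
    rw [mem_top_iff]
    refine ⟨s⁻¹ * B', ?_⟩
    filter_upwards [cf hΦ', smul_ae (cl m (fun z => deriv Φ (bp m n p y t z / s))) s⁻¹] with z e1 e2
    rw [e2, e1, abs_mul, abs_of_pos (inv_pos.2 s0)]
    refine mul_le_mul_of_nonneg_left (hB' _ ?_) (by positivity)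
    rw [le_div_iff₀ s0]
    have := H.bp_ge (n := n) y z ht
    have := H.n_pos
    nlinarith
  have iG : Integrable (fun z => s⁻¹ * deriv Φ (bp m n p y t z / s) * (sob m).Γ b b z) m := by
    have h1 := memLp_one_iff_integrable.1 (mem_mul_top q1top (hD.Γ_mem1 bA.1 bA.1))
    refine h1.congr ?_
    filter_upwards [mul_ae Q1 ((sob m).Γ b b), cf hΦ',
      smul_ae (cl m (fun z => deriv Φ (bp m n p y t z / s))) s⁻¹] with z e1 e2 e3
    rw [e1, e3, e2]
  have L3 : ∫ z, s⁻¹ * deriv Φ (bp m n p y t z / s) * (sob m).Γ b b z ∂m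
      = -∫ z, Φ (bp m n p y t z / s) * (sob m).lap b z ∂m := by
    have e1 : I (Q1 * (sob m).Γ b b)
        = ∫ z, s⁻¹ * deriv Φ (bp m n p y t z / s) * (sob m).Γ b b z ∂m := by
      unfold I
      refine integral_congr_ae ?_
      filter_upwards [mul_ae Q1 ((sob m).Γ b b), cf hΦ',
        smul_ae (cl m (fun z => deriv Φ (bp m n p y t z / s))) s⁻¹] with z e1 e2 e3
      rw [e1, e3, e2]
    have e2 : I ((sob m).lap b * Q0) = ∫ z, Φ (bp m n p y t z / s) * (sob m).lap b z ∂m := by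
      unfold I
      refine integral_congr_ae ?_
      filter_upwards [mul_ae ((sob m).lap b) Q0, cf hΦ] with z e1 e2
      rw [e1, e2]; ring
    rw [← e1, ← e2]; exact L2
  have key : n * ∫ z, Φ (bp m n p y t z / s) ∂m
      + 2 * ∫ z, (bp m n p y t z / s) * deriv Φ (bp m n p y t z / s) ∂m
      = (∫ z, Φ (bp m n p y t z / s) * (n - (sob m).lap b z) ∂m)
        - ∫ z, s⁻¹ * deriv Φ (bp m n p y t z / s) *
          ((sob m).Γ b b z - 2 * bp m n p y t z) ∂m := by
    have e1 : ∀ z, Φ (bp m n p y t z / s) * (n - (sob m).lap b z)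
        = n * Φ (bp m n p y t z / s) - Φ (bp m n p y t z / s) * (sob m).lap b z := fun z => by ring
    have e2 : ∀ z, s⁻¹ * deriv Φ (bp m n p y t z / s) * ((sob m).Γ b b z - 2 * bp m n p y t z)
        = s⁻¹ * deriv Φ (bp m n p y t z / s) * (sob m).Γ b b z
          - 2 * ((bp m n p y t z / s) * deriv Φ (bp m n p y t z / s)) := fun z => by ring
    simp_rw [e1, e2]
    rw [integral_sub (iΦ.const_mul _) iL, integral_sub iG (iΦ1.const_mul _), integral_const_mul,
      integral_const_mul, L3]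
    ring
  rw [key]
  -- estimates
  have pt0 : ∀ᵐ z ∂m, 0 ≤ ph m p t y z := nonneg_iff_ae.1 (ph_nonneg k ht y)
  have est1 : |∫ z, Φ (bp m n p y t z / s) * (n - (sob m).lap b z) ∂m| ≤ B * c₁ * D := by
    have hm : MemLp (ph m p t y * |(n : ℝ) • 1 - (sob m).lap b| : M →ₘ[m] ℝ) 1 m := by
      have h1 : MemLp (ph m p t y * ((n : ℝ) • 1 - (sob m).lap b) : M →ₘ[m] ℝ) 1 m := by
        have e : ph m p t y * ((n : ℝ) • 1 - (sob m).lap b)
            = (n : ℝ) • ph m p t y - ph m p t y * (sob m).lap b := by algebra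
        rw [e]
        exact mem_sub (mem_smul _ (ph_mem1 k ht y)) (mem_mul_22 (ph_mem2 k ht y)
          (hC.memLp _ (hC.test_lap_mem bT)))
      refine (memLp_congr_ae ?_).2 h1.abs
      filter_upwards [mul_ae (ph m p t y) |(n : ℝ) • 1 - (sob m).lap b|,
        mul_ae (ph m p t y) ((n : ℝ) • 1 - (sob m).lap b),
        abs_ae' ((n : ℝ) • 1 - (sob m).lap b : M →ₘ[m] ℝ), pt0] with z e1 e2 e3 e4
      rw [e1, e3]
      simp only [Pi.abs_apply]
      rw [e2, abs_mul, abs_of_nonneg e4]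
    have hBc : 0 ≤ B * c₁ := by
      have : 0 ≤ B := (abs_nonneg _).trans (hB 0 (by
        have := H.n_pos
        have hΓ0 : 0 < Γ := by
          by_contra hc
          rw [not_lt] at hc
          nlinarith
        have : 0 ≤ (n : ℝ) * Γ := by positivity
        linarith))
      positivity
    calc |∫ z, Φ (bp m n p y t z / s) * (n - (sob m).lap b z) ∂m|
        ≤ ∫ z, |Φ (bp m n p y t z / s) * (n - (sob m).lap b z)| ∂m :=
          abs_integral_le_integral_abs
      _ ≤ ∫ z, B * c₁ * (ph m p t y * |(n : ℝ) • 1 - (sob m).lap b| : M →ₘ[m] ℝ) z ∂m := by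
          refine integral_mono_ae ?_ ((memLp_one_iff_integrable.1 hm).const_mul _) ?_
          · refine Integrable.abs ?_
            refine ((iΦ.const_mul (n : ℝ)).sub iL).congr (Eventually.of_forall fun z => ?_)
            simp only [Pi.sub_apply]; ring
          · filter_upwards [mul_ae (ph m p t y) |(n : ℝ) • 1 - (sob m).lap b|,
              abs_ae' ((n : ℝ) • 1 - (sob m).lap b : M →ₘ[m] ℝ),
              sub_ae ((n : ℝ) • 1 : M →ₘ[m] ℝ) ((sob m).lap b),
              smul_ae (1 : M →ₘ[m] ℝ) (n : ℝ), one_ae (M := M) (m := m), ph_ae k ht y]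
              with z e1 e2 e3 e4 e5 e6
            rw [e1, e2, e3, e4, e5, e6, abs_mul, mul_one]
            have := H.ft_le hΦ hB hy hs s0 hst hΓ z
            calc |Φ (bp m n p y t z / s)| * |↑n - (sob m).lap b z|
                ≤ (B * c₁ * p t y z) * |↑n - (sob m).lap b z| := by gcongr
              _ = _ := by ring
      _ = B * c₁ * I (ph m p t y * |(n : ℝ) • 1 - (sob m).lap b|) := by
          rw [integral_const_mul]; rfl
      _ ≤ B * c₁ * D := by gcongr
  have est2 : |∫ z, s⁻¹ * deriv Φ (bp m n p y t z / s) *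
      ((sob m).Γ b b z - 2 * bp m n p y t z) ∂m| ≤ Γ * B' * c₁ * D := by
    have hm : MemLp (ph m p t y * |(sob m).Γ b b - (2 : ℝ) • (b + (1 / 2 - n * t) • 1)| :
        M →ₘ[m] ℝ) 1 m := by
      have hG1 : MemLp (ph m p t y * (sob m).Γ b b : M →ₘ[m] ℝ) 1 m :=
        mem_mul_top (ph_top hC k H.kb ht y) (hD.Γ_mem1 bA.1 bA.1)
      have h1 : MemLp (ph m p t y * ((sob m).Γ b b - (2 : ℝ) • (b + (1 / 2 - n * t) • 1)) :
          M →ₘ[m] ℝ) 1 m := by
        have e : ph m p t y * ((sob m).Γ b b - (2 : ℝ) • (b + (1 / 2 - n * t) • 1))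
            = ph m p t y * (sob m).Γ b b - (2 : ℝ) • (ph m p t y * b)
              - (2 * (1 / 2 - n * t)) • ph m p t y := by algebra
        rw [e]
        exact mem_sub (mem_sub hG1 (mem_smul _ (mem_mul_22 (ph_mem2 k ht y) (hC.memLp _ bA.1))))
          (mem_smul _ (ph_mem1 k ht y))
      refine (memLp_congr_ae ?_).2 h1.abs
      filter_upwards [mul_ae (ph m p t y) |(sob m).Γ b b - (2 : ℝ) • (b + (1 / 2 - n * t) • 1)|,
        mul_ae (ph m p t y) ((sob m).Γ b b - (2 : ℝ) • (b + (1 / 2 - n * t) • 1)),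
        abs_ae' ((sob m).Γ b b - (2 : ℝ) • (b + (1 / 2 - n * t) • 1) : M →ₘ[m] ℝ), pt0]
        with z e1 e2 e3 e4
      rw [e1, e3]
      simp only [Pi.abs_apply]
      rw [e2, abs_mul, abs_of_nonneg e4]
    have hΓ0 : 0 < Γ := by
      by_contra hc
      rw [not_lt] at hc
      nlinarith
    have hB0' : 0 ≤ B' := (abs_nonneg _).trans (hB' 0 (by
      have := H.n_pos
      have : 0 ≤ (n : ℝ) * Γ := by positivity
      linarith))
    have hst' : s⁻¹ * t ≤ Γ := by
      rw [inv_mul_le_iff₀ s0]; linarith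
    calc |∫ z, s⁻¹ * deriv Φ (bp m n p y t z / s) *
          ((sob m).Γ b b z - 2 * bp m n p y t z) ∂m|
        ≤ ∫ z, |s⁻¹ * deriv Φ (bp m n p y t z / s) *
          ((sob m).Γ b b z - 2 * bp m n p y t z)| ∂m := abs_integral_le_integral_abs
      _ ≤ ∫ z, s⁻¹ * (B' * c₁) *
          (ph m p t y * |(sob m).Γ b b - (2 : ℝ) • (b + (1 / 2 - n * t) • 1)| :
            M →ₘ[m] ℝ) z ∂m := by
          refine integral_mono_ae ?_ ((memLp_one_iff_integrable.1 hm).const_mul _) ?_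
          · refine Integrable.abs ?_
            refine (iG.sub (iΦ1.const_mul 2)).congr (Eventually.of_forall fun z => ?_)
            simp only [Pi.sub_apply]
            field_simp
          · filter_upwards [mul_ae (ph m p t y)
                |(sob m).Γ b b - (2 : ℝ) • (b + (1 / 2 - n * t) • 1)|,
              abs_ae' ((sob m).Γ b b - (2 : ℝ) • (b + (1 / 2 - n * t) • 1) : M →ₘ[m] ℝ),
              sub_ae ((sob m).Γ b b) ((2 : ℝ) • (b + (1 / 2 - n * t) • 1)),
              smul_ae (b + (1 / 2 - n * t) • 1 : M →ₘ[m] ℝ) (2 : ℝ),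
              add_ae b ((1 / 2 - n * t) • 1), smul_ae (1 : M →ₘ[m] ℝ) (1 / 2 - n * t),
              one_ae (M := M) (m := m), ph_ae k ht y, H.bp_ae y ht]
              with z e1 e2 e3 e4 e5 e6 e7 e8 e9
            rw [e1, e2, e3, e4, e5, e6, e7, e8, mul_one, e9, abs_mul, abs_mul,
              abs_of_pos (inv_pos.2 s0)]
            have := H.ft_le hΦ' hB' hy hs s0 hst hΓ z
            calc s⁻¹ * |deriv Φ (bp m n p y t z / s)| * |(sob m).Γ b b z - 2 * bp m n p y t z|
                ≤ s⁻¹ * (B' * c₁ * p t y z) * |(sob m).Γ b b z - 2 * bp m n p y t z| := by gcongr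
              _ = _ := by ring
      _ = s⁻¹ * (B' * c₁) * I (ph m p t y *
          |(sob m).Γ b b - (2 : ℝ) • (b + (1 / 2 - n * t) • 1)|) := by
          rw [integral_const_mul]; rfl
      _ ≤ s⁻¹ * (B' * c₁) * (t * D) := by gcongr
      _ = (s⁻¹ * t) * (B' * c₁ * D) := by ring
      _ ≤ Γ * (B' * c₁ * D) := by
          have hD0 : 0 ≤ D := by
            refine le_trans ?_ hμ
            refine I_nonneg (mul_nonneg (ph_nonneg k ht y) ?_)
            exact abs_nonneg _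
          gcongr
      _ = _ := by ring
  calc |(∫ z, Φ (bp m n p y t z / s) * (n - (sob m).lap b z) ∂m)
        - ∫ z, s⁻¹ * deriv Φ (bp m n p y t z / s) *
          ((sob m).Γ b b z - 2 * bp m n p y t z) ∂m|
      ≤ B * c₁ * D + Γ * B' * c₁ * D := (abs_sub _ _).trans (add_le_add est1 est2)
    _ = _ := by ring

end Base

end Vale.Agent.P242.H937
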