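import Vale.Agent.P242.H937.Vk

/-! P242, package A-GL1 (helper937), part c2: `|V_t - V_{t'}| ≤ C D`. -/

set_option linter.all false

open MeasureTheory Filter Topology Set
open scoped ENNReal NNReal ContDiff

universe u

namespace Vale.Agent.P242.H937

open Vale.Agent.P233 Vale.Agent.P242.H520 Vale.Agent.P242.H990
open Vale.Agent.P233.RA (gg ww cc)

variable {M : Type u} [MetricSpace M] [CompleteSpace M] [SecondCountableTopology M]
  [MeasurableSpace M] [BorelSpace M] {m : Measure M} {n : ℕ} {K : ℝ} {p : ℝ → M → M → ℝ}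

/-- `ν_{y,s}(x) = n + (|K|+1)(P_s w_y(x) + 1/2) - Δ P_s w_y(x)` -/
noncomputable def nu (m : Measure M) (n : ℕ) (K : ℝ) (p : ℝ → M → M → ℝ) (y : M) (s : ℝ) (x : M) :
    ℝ := n + (|K| + 1) * (pt m p s (ww (1 / 2) y) x + 1 / 2) - I ((sob m).lap (ph m p s x) * wy m y)

namespace Base

variable {o : M} {A Cm : ℝ} (H : Base m n K o A p Cm) {t t' a R₁ : ℝ} {Φ : ℝ → ℝ} {y : M}
include H

theorem nu_nonneg (y x : M) {s : ℝ} (hs : 0 < s) : 0 ≤ nu m n K p y s x := by
  have h1 := H.dw_le y x hs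
  have h2 := H.pt_ge y x hs
  unfold nu
  nlinarith

/-- the Laplacian of `P_s w_y`, pointwise -/
theorem lapP_ae (y : M) {s : ℝ} (hs : 0 < s) :
    ∀ᵐ z ∂m, (sob m).lap (bb m y s) z = I ((sob m).lap (ph m p s z) * wy m y) := by
  have hC := H.dir
  have k := H.ker
  have h2 : 0 < s / 2 := by linarith
  have hw := H.w_mem2 y
  have e : (sob m).lap (bb m y s) = (sob m).P (s / 2) ((sob m).lap ((sob m).P (s / 2) (wy m y))) := by
    have := hC.P_lap_add h2.le h2 hw
    rw [← this, add_halves]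
    rfl
  have hl := hC.P_isLap h2 hw
  rw [e]
  filter_upwards [k.rep (s / 2) h2 _ hl.2.1] with z hz
  rw [hz, ← I_ph_mul k h2, I_ph_lap hC k h2 z hl, I_lap_ph_P hC k h2.le h2 z hw, add_halves]

/-- variation in time of `P_s w_y`, tested with the kernel -/
theorem bdiff (y : M) (ht : 0 < t) (ht' : 0 < t') (htt : t' < t) {D : ℝ}
    (hD : ∀ s, t' < s → s < t →
      nu m n K p y (t + s) y + (|K| + 1) * (pt m p (t + s) (ww (1 / 2) y) y + 1 / 2) ≤ D) :
    ∫ z, p t y z * |bp m n p y t z - bp m n p y t' z| ∂m ≤ (t - t') * D := by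
  have hC := H.dir
  have k := H.ker
  have hw := H.w_mem2 y
  have b2 : MemLp (bb m y t) 2 m := hC.P_mem2 t hw
  have b2' : MemLp (bb m y t') 2 m := hC.P_mem2 t' hw
  have φ2 := ph_mem2 k ht y
  have φ1 := ph_mem1 k ht y
  have φt := ph_top H.gamma k H.kb ht y
  have φ0 := ph_nonneg k ht y
  have btop : MemLp (bb m y t) ∞ m := hC.P_memTop ht.le hw (H.w_A y).2
  have btop' : MemLp (bb m y t') ∞ m := hC.P_memTop ht'.le hw (H.w_A y).2
  set G : M →ₘ[m] ℝ := bb m y t - bb m y t' - (n * (t - t')) • 1 with hG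
  have Gtop : MemLp G ∞ m := mem_sub (mem_sub btop btop') (mem_smul _ mem_top_one)
  have F1 : MemLp (ph m p t y * G : M →ₘ[m] ℝ) 1 m := mem_top_mul φ1 Gtop
  have F2 : MemLp (ph m p t y * G : M →ₘ[m] ℝ) 2 m := mem_top_mul φ2 Gtop
  have hdual := N2.H982.L1_le_of_dual F1 F2 (S := (t - t') * D) ?_
  · refine le_trans (le_of_eq ?_) hdual
    refine integral_congr_ae ?_
    filter_upwards [mul_ae (ph m p t y) G, ph_ae k ht y, H.bp_ae (n := n) y ht,
      H.bp_ae (n := n) y ht', sub_ae (bb m y t - bb m y t') ((n * (t - t')) • 1),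
      sub_ae (bb m y t) (bb m y t'), smul_ae (1 : M →ₘ[m] ℝ) (n * (t - t')),
      one_ae (M := M) (m := m)] with z e1 e2 e3 e4 e5 e6 e7 e8
    rw [e1, e2, hG, e5, e6, e7, e8, ← e3, ← e4, abs_mul, abs_of_nonneg (k.nonneg t ht y z)]
    congr 2
    ring
  · intro g g2 gb
    set ψ : M →ₘ[m] ℝ := ph m p t y * g with hψ
    have gtop : MemLp g ∞ m := mem_top_iff.2 ⟨1, gb⟩
    have ψ2 : MemLp ψ 2 m := mem_top_mul φ2 gtop
    have ψ1 : MemLp ψ 1 m := mem_top_mul φ1 gtop
    have ψle : ∀ᵐ z ∂m, |ψ z| ≤ ph m p t y z := by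
      filter_upwards [mul_ae (ph m p t y) g, gb, nonneg_iff_ae.1 φ0] with z e1 e2 e3
      rw [e1, abs_mul, abs_of_nonneg e3]
      exact mul_le_of_le_one_right e3 e2
    have e0 : I (ph m p t y * G * g) = I (bb m y t * ψ) - I (bb m y t' * ψ) - n * (t - t') * I ψ := by
      have e : ph m p t y * G * g = bb m y t * ψ - bb m y t' * ψ - (n * (t - t')) • ψ := by
        rw [hG, hψ]; algebra
      rw [e, I_sub (mem_sub (mem_mul_22 b2 ψ2) (mem_mul_22 b2' ψ2)) (mem_smul _ ψ1),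
        I_sub (mem_mul_22 b2 ψ2) (mem_mul_22 b2' ψ2), I_smul]
    rw [e0]
    have hder : ∀ s, 0 < s → HasDerivAt (fun s => I ((sob m).P s (wy m y) * ψ) - n * I ψ * s)
        (I ((sob m).lap (bb m y s) * ψ) - n * I ψ) s := by
      intro s hs
      have h1 := N2.H982.P_hasDeriv_I2 hC hs hw ψ2
      have h2 := (hasDerivAt_id s).const_mul (n * I ψ)
      rw [mul_one] at h2
      exact h1.sub h2
    obtain ⟨s, hs, e⟩ := exists_hasDerivAt_eq_slope _ _ htt
      (fun s hs => (hder s (lt_of_lt_of_le ht' hs.1)).continuousAt.continuousWithinAt)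
      (fun s hs => hder s (ht'.trans hs.1))
    have s0 : 0 < s := ht'.trans hs.1
    rw [eq_div_iff (by linarith)] at e
    have e2 : I (bb m y t * ψ) - I (bb m y t' * ψ) - n * (t - t') * I ψ
        = (I ((sob m).lap (bb m y s) * ψ) - n * I ψ) * (t - t') := by
      rw [e]; unfold bb; ring
    rw [e2, mul_comm]
    refine mul_le_mul_of_nonneg_left ?_ (by linarith)
    refine le_trans ?_ (hD s hs.1 hs.2)
    -- the main bound
    have ls := hC.P_isLap s0 hw
    have L2 : MemLp ((sob m).lap (bb m y s)) 2 m := ls.2.1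
    have bs2 : MemLp (bb m y s) 2 m := hC.P_mem2 s hw
    have i1 := memLp_one_iff_integrable.1 (mem_mul_22 L2 ψ2)
    have i2 := memLp_one_iff_integrable.1 ψ1
    have i3 : Integrable (fun z => p t y z * (sob m).lap (bb m y s) z) m := pt_int k ht y L2
    have i4 : Integrable (fun z => p t y z * bb m y s z) m := pt_int k ht y bs2
    have i5 := k.int t ht y
    have r1 : ∫ z, p t y z * (sob m).lap (bb m y s) z ∂m
        = I ((sob m).lap (ph m p (t + s) y) * wy m y) := by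
      have := I_ph_mul k ht y ((sob m).lap (bb m y s))
      unfold pt at this
      rw [← this]
      show I (ph m p t y * (sob m).lap ((sob m).P s (wy m y))) = _
      rw [I_ph_lap hC k ht y ls, I_lap_ph_P hC k s0.le ht y hw]
    have r2 : ∫ z, p t y z * bb m y s z ∂m = pt m p (t + s) (ww (1 / 2) y) y := by
      have := I_ph_mul k ht y (bb m y s)
      unfold pt at this
      rw [← this]
      show I (ph m p t y * (sob m).P s (wy m y)) = _
      rw [I_ph_P hC k s0.le ht y hw, I_ph_mul k (by linarith), pt_congr k (w_ae y)]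
    have r3 : I ((sob m).lap (bb m y s) * ψ) - n * I ψ
        = ∫ z, ((sob m).lap (bb m y s) * ψ : M →ₘ[m] ℝ) z - n * ψ z ∂m := by
      rw [integral_sub i1 (i2.const_mul _), integral_const_mul]; rfl
    rw [r3]
    have r4 : nu m n K p y (t + s) y + (|K| + 1) * (pt m p (t + s) (ww (1 / 2) y) y + 1 / 2)
        = ∫ z, p t y z * (n + 2 * ((|K| + 1) * (bb m y s z + 1 / 2))
          - (sob m).lap (bb m y s) z) ∂m := by
      have : ∀ z, p t y z * (n + 2 * ((|K| + 1) * (bb m y s z + 1 / 2))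
          - (sob m).lap (bb m y s) z) = (n + (|K| + 1)) * p t y z
            + (2 * (|K| + 1)) * (p t y z * bb m y s z)
            - p t y z * (sob m).lap (bb m y s) z := fun z => by ring
      simp_rw [this]
      have j : Integrable (fun z => (n + (|K| + 1)) * p t y z
          + (2 * (|K| + 1)) * (p t y z * bb m y s z)) m := (i5.const_mul _).add (i4.const_mul _)
      rw [integral_sub j i3, integral_add (i5.const_mul _) (i4.const_mul _), integral_const_mul,
        integral_const_mul, k.mass t ht y, r1, r2]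
      unfold nu
      ring
    rw [r4]
    refine integral_mono_ae (i1.sub (i2.const_mul _)) ?_ ?_
    · refine (((i5.const_mul (n + (|K| + 1))).add (i4.const_mul (2 * (|K| + 1)))).sub i3).congr
        (Eventually.of_forall fun z => ?_)
      simp only [Pi.sub_apply, Pi.add_apply]
      ring
    · filter_upwards [mul_ae ((sob m).lap (bb m y s)) ψ, H.lapP_ae y s0, H.bb_ae y s0, ψle,
        ph_ae k ht y] with z e1 e2 e3 e4 e5
      rw [e1, e2, e3]
      have c1 := H.nu_nonneg y z s0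
      have c2 := H.pt_ge y z s0
      unfold nu at c1
      rw [e5] at e4
      have c3 : 0 ≤ (|K| + 1) * (pt m p s (ww (1 / 2) y) z + 1 / 2) := by
        have := abs_nonneg K
        have : 0 ≤ pt m p s (ww (1 / 2) y) z + 1 / 2 := by linarith
        positivity
      set X := (|K| + 1) * (pt m p s (ww (1 / 2) y) z + 1 / 2) with hX
      set L := I ((sob m).lap (ph m p s z) * wy m y) with hL
      calc L * ψ z - n * ψ z = (L - n) * ψ z := by ring
        _ ≤ |L - n| * |ψ z| := by rw [← abs_mul]; exact le_abs_self _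
        _ ≤ (n + 2 * X - L) * p t y z := by
            refine mul_le_mul ?_ e4 (abs_nonneg _) (by linarith)
            rw [abs_le]; constructor <;> linarith
        _ = _ := by ring

/-- change of the argument at the fixed profile scale `t'` -/
theorem stepB (hΦ : Sf a Φ) (hy : dist y o ≤ R₁) (hs : Sc n K Cm a t) (ht' : 0 < t')
    (htt : t' < t) {Γ B' : ℝ} (hΓ : t ≤ Γ * t')
    (hB' : ∀ x, -(n * Γ) ≤ x → |deriv Φ x| ≤ B') :
    |(∫ z, Φ (bp m n p y t z / t') ∂m) - ∫ z, Φ (bp m n p y t' z / t') ∂m|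
      ≤ B' * t'⁻¹ * (cB n A 1 (cL n Cm a) R₁ * √t ^ n) *
        ∫ z, p t y z * |bp m n p y t z - bp m n p y t' z| ∂m := by
  have ht := hs.pos
  have k := H.ker
  have h16 := hs.le16 H.one H.n_pos.le
  have hs' := hs.le H.one ht' htt.le
  have hn := H.n_pos
  have i1 := H.ft_int hΦ hy hs ht' htt.le
  have i2 := H.ft_int hΦ hy hs' ht' le_rfl
  have c0 : 0 < cB n A 1 (cL n Cm a) R₁ := cB_pos H.kb.one_le one_pos
  have hΓ1 : 1 ≤ Γ := by
    by_contra hc
    rw [not_le] at hc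
    nlinarith
  have hB0' : 0 ≤ B' := (abs_nonneg _).trans (hB' 0 (by
    have : 0 ≤ (n : ℝ) * Γ := by positivity
    linarith))
  have i3 : Integrable (fun z => p t y z * |bp m n p y t z - bp m n p y t' z|) m := by
    refine (k.int t ht y).mul_bdd (c := 1 + n * t) ?_ ?_
    · exact ((H.bp_cont (n := n) y ht).sub (H.bp_cont y ht')).abs.aestronglyMeasurable
    · refine Eventually.of_forall fun z => ?_
      rw [Real.norm_eq_abs, abs_abs, abs_le]
      have b1 := H.bp_ge (n := n) y z ht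
      have b2 := H.bp_le (n := n) y z ht
      have b3 := H.bp_ge (n := n) y z ht'
      have b4 := H.bp_le (n := n) y z ht'
      have b5 : (n : ℝ) * t' ≤ n * t := by gcongr
      constructor <;> linarith
  rw [← integral_sub i1 i2, ← integral_const_mul]
  refine abs_integral_le_integral_abs.trans ?_
  refine integral_mono (i1.sub i2).abs (i3.const_mul _) fun z => ?_
  simp only []
  have p0 := k.nonneg t ht y z
  rcases le_or_gt (cL n Cm a * √t) (dist z y) with hz | hz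
  · have h1 := H.bp_far ht hs.one hs.far hz
    have hz' : cL n Cm a * √t' ≤ dist z y := by
      refine le_trans ?_ hz
      have : 0 ≤ cL n Cm a := by
        unfold cL; have := H.one; have := hs.one; positivity
      have : √t' ≤ √t := Real.sqrt_le_sqrt htt.le
      gcongr
    have h2 := H.bp_far ht' hs.one hs'.far hz'
    have ha := hs.one
    rw [hΦ.zero (bp m n p y t z / t') (by rw [le_div_iff₀ ht']; nlinarith),
      hΦ.zero (bp m n p y t' z / t') (by rw [le_div_iff₀ ht']; linarith), sub_zero, abs_zero]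
    positivity
  · have h4 : 1 ≤ cB n A 1 (cL n Cm a) R₁ * √t ^ n * p t y z := by
      refine one_le_p H.kb ht ht (by linarith) (by linarith) (by linarith) hy ?_
      rw [dist_comm]; exact hz.le
    have x1 : -(n * Γ) ≤ bp m n p y t z / t' := by
      rw [le_div_iff₀ ht']
      have := H.bp_ge (n := n) y z ht
      nlinarith
    have x2 : -(n * Γ) ≤ bp m n p y t' z / t' := by
      rw [le_div_iff₀ ht']
      have := H.bp_ge (n := n) y z ht'
      have : (n : ℝ) * t' ≤ n * Γ * t' := by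
        have : (n : ℝ) ≤ n * Γ := by nlinarith
        gcongr
      linarith
    have h5 : |Φ (bp m n p y t z / t') - Φ (bp m n p y t' z / t')|
        ≤ B' * |bp m n p y t z / t' - bp m n p y t' z / t'| := by
      have := Convex.norm_image_sub_le_of_norm_deriv_le (f := Φ) (s := Ici (-(n * Γ) : ℝ))
        (C := B') (fun x _ => hΦ.diff x) (fun x hx => by rw [Real.norm_eq_abs]; exact hB' x hx)
        (convex_Ici _) (x := bp m n p y t' z / t') (y := bp m n p y t z / t') x2 x1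
      rw [Real.norm_eq_abs, Real.norm_eq_abs] at this
      exact this
    have h6 : |bp m n p y t z / t' - bp m n p y t' z / t'|
        = t'⁻¹ * |bp m n p y t z - bp m n p y t' z| := by
      rw [← sub_div, abs_div, abs_of_pos ht', div_eq_inv_mul]
    rw [h6] at h5
    calc |Φ (bp m n p y t z / t') - Φ (bp m n p y t' z / t')|
        ≤ B' * (t'⁻¹ * |bp m n p y t z - bp m n p y t' z|) * 1 := by rw [mul_one]; exact h5
      _ ≤ B' * (t'⁻¹ * |bp m n p y t z - bp m n p y t' z|) *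
          (cB n A 1 (cL n Cm a) R₁ * √t ^ n * p t y z) := by
          gcongr
      _ = _ := by ring

/-- change of the profile scale -/
theorem stepA (hΦ : Sf a Φ) (hy : dist y o ≤ R₁) (hs : Sc n K Cm a t) (ht' : 0 < t')
    (htt : t' < t) {Γ B B' : ℝ} (hΓ : t ≤ Γ * t') (hB : ∀ x, -(n * Γ) ≤ x → |Φ x| ≤ B)
    (hB' : ∀ x, -(n * Γ) ≤ x → |deriv Φ x| ≤ B') {D : ℝ}
    (hμ : I (ph m p t y * |(n : ℝ) • 1 - (sob m).lap (bb m y t)|) ≤ D)
    (hq : I (ph m p t y * |(sob m).Γ (bb m y t) (bb m y t)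
      - (2 : ℝ) • (bb m y t + (1 / 2 - n * t) • 1)|) ≤ t * D) :
    |(√t ^ n)⁻¹ * (∫ z, Φ (bp m n p y t z / t) ∂m)
        - (√t' ^ n)⁻¹ * ∫ z, Φ (bp m n p y t z / t') ∂m|
      ≤ Γ * √Γ ^ n * ((B + Γ * B') * cB n A 1 (cL n Cm a) R₁) * D := by
  have ht := hs.pos
  have hn := H.n_pos
  have hΓ1 : 1 ≤ Γ := by
    by_contra hc
    rw [not_le] at hc
    nlinarith
  have hD0 : 0 ≤ D := by
    refine le_trans ?_ hμ
    exact I_nonneg (mul_nonneg (ph_nonneg H.ker ht y) (abs_nonneg _))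
  have c0 : 0 < cB n A 1 (cL n Cm a) R₁ := cB_pos H.kb.one_le one_pos
  have hB0 : 0 ≤ B := (abs_nonneg _).trans (hB 0 (by
    have : 0 ≤ (n : ℝ) * Γ := by positivity
    linarith))
  have hB0' : 0 ≤ B' := (abs_nonneg _).trans (hB' 0 (by
    have : 0 ≤ (n : ℝ) * Γ := by positivity
    linarith))
  have hder : ∀ s, t' < s → s < t → HasDerivAt
      (fun s => s ^ (-((n : ℝ) / 2)) * ∫ z, Φ (bp m n p y t z / s) ∂m)
      (-(1 / 2) * s ^ (-((n : ℝ) / 2) - 1) * (n * ∫ z, Φ (bp m n p y t z / s) ∂m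
      + 2 * ∫ z, (bp m n p y t z / s) * deriv Φ (bp m n p y t z / s) ∂m)) s := by
    intro s h1 h2
    have s0 : 0 < s := ht'.trans h1
    have d1 : HasDerivAt (fun s : ℝ => s ^ (-((n : ℝ) / 2)))
        (-((n : ℝ) / 2) * s ^ (-((n : ℝ) / 2) - 1)) s :=
      Real.hasDerivAt_rpow_const (Or.inl s0.ne')
    have d2 := H.hasDeriv_J hΦ hy hs s0 h2
    refine (d1.mul d2).congr_deriv ?_
    have e : s ^ (-((n : ℝ) / 2)) = s ^ (-((n : ℝ) / 2) - 1) * s := by
      rw [← Real.rpow_add_one s0.ne']; congr 1; ring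
    rw [e]
    field_simp
    ring
  have hcont : ContinuousOn (fun s => s ^ (-((n : ℝ) / 2)) * ∫ z, Φ (bp m n p y t z / s) ∂m)
      (Icc t' t) := by
    refine ContinuousOn.mul ?_ (H.cont_J hΦ hy hs ht')
    intro s hs'
    exact (Real.continuousAt_rpow_const _ _ (Or.inl (lt_of_lt_of_le ht' hs'.1).ne')).continuousWithinAt
  obtain ⟨s, hs', e⟩ := exists_hasDerivAt_eq_slope _ _ htt hcont (fun s hs => hder s hs.1 hs.2)
  have s0 : 0 < s := ht'.trans hs'.1
  have hΓs : t ≤ Γ * s := hΓ.trans (by have := hs'.1.le; gcongr)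
  have st := H.static hΦ hy hs s0 hs'.2.le hΓs hB hB' hμ hq
  rw [eq_div_iff (by linarith)] at e
  rw [← rpow_neg_half ht.le, ← rpow_neg_half ht'.le, ← e, abs_mul, abs_mul, abs_mul,
    abs_of_pos (show 0 < t - t' by linarith), abs_of_pos (Real.rpow_pos_of_pos s0 _)]
  have e2 : |-(1 / 2 : ℝ)| = 1 / 2 := by norm_num
  rw [e2]
  have r1 : s ^ (-((n : ℝ) / 2) - 1) ≤ t' ^ (-((n : ℝ) / 2) - 1) := by
    refine Real.rpow_le_rpow_of_nonpos ht' hs'.1.le ?_
    have : 0 ≤ (n : ℝ) / 2 := by positivity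
    linarith
  have r2 : t' ^ (-((n : ℝ) / 2) - 1) = (√t' ^ n)⁻¹ * t'⁻¹ := by
    rw [← rpow_neg_half ht'.le, Real.rpow_sub_one ht'.ne']; ring
  have q0 : 0 < √t' := Real.sqrt_pos.2 ht'
  have r3 : √t ^ n ≤ √Γ ^ n * √t' ^ n := by
    rw [← mul_pow]
    refine pow_le_pow_left₀ (Real.sqrt_nonneg _) ?_ n
    rw [← Real.sqrt_mul (by linarith)]
    exact Real.sqrt_le_sqrt hΓ
  calc 1 / 2 * s ^ (-((n : ℝ) / 2) - 1) * |n * ∫ z, Φ (bp m n p y t z / s) ∂m
        + 2 * ∫ z, (bp m n p y t z / s) * deriv Φ (bp m n p y t z / s) ∂m| * (t - t')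
      ≤ 1 / 2 * ((√t' ^ n)⁻¹ * t'⁻¹) * ((B + Γ * B') * (cB n A 1 (cL n Cm a) R₁ * √t ^ n) * D)
        * (Γ * t') := by
        rw [r2] at r1
        have : t - t' ≤ Γ * t' := by linarith
        gcongr
    _ ≤ 1 / 2 * ((√t' ^ n)⁻¹ * t'⁻¹) * ((B + Γ * B') * (cB n A 1 (cL n Cm a) R₁ *
        (√Γ ^ n * √t' ^ n)) * D) * (Γ * t') := by
        gcongr
    _ = 1 / 2 * (Γ * √Γ ^ n * ((B + Γ * B') * cB n A 1 (cL n Cm a) R₁) * D) := by
        field_simp
    _ ≤ _ := by
        have : 0 ≤ Γ * √Γ ^ n * ((B + Γ * B') * cB n A 1 (cL n Cm a) R₁) * D := by positivity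
        linarith

/-- **V-step**: `|V_t - V_{t'}| ≤ C D` -/
theorem V_step (hΦ : Sf a Φ) {Γ : ℝ} (hΓ1 : 1 ≤ Γ) : ∃ C : ℝ, 1 ≤ C ∧
    ∀ (y : M) (t t' D : ℝ), dist y o ≤ R₁ → Sc n K Cm a t → 0 < t' → t' < t → t ≤ Γ * t' →
      I (ph m p t y * |(n : ℝ) • 1 - (sob m).lap (bb m y t)|) ≤ D →
      I (ph m p t y * |(sob m).Γ (bb m y t) (bb m y t)
        - (2 : ℝ) • (bb m y t + (1 / 2 - n * t) • 1)|) ≤ t * D →
      (∀ s, t < s → s ≤ 2 * t → nu m n K p y s y ≤ D) → (|K| + 1) * t ≤ D →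
      |(√t ^ n)⁻¹ * I (wt m n p Φ y t) - (√t' ^ n)⁻¹ * I (wt m n p Φ y t')| ≤ C * D := by
  obtain ⟨B, hB1, hB⟩ := hΦ.bdd (-(n * Γ))
  obtain ⟨B', hB1', hB'⟩ := hΦ.deriv.bdd (-(n * Γ))
  have c0 : 0 < cB n A 1 (cL n Cm a) R₁ := cB_pos H.kb.one_le one_pos
  have hCm := H.one
  refine ⟨1 + Γ * √Γ ^ n * ((B + Γ * B') * cB n A 1 (cL n Cm a) R₁)
    + √Γ ^ n * (B' * cB n A 1 (cL n Cm a) R₁) * (Γ * (1 + 2 * Cm)), ?_, ?_⟩
  · have : 0 ≤ Γ * √Γ ^ n * ((B + Γ * B') * cB n A 1 (cL n Cm a) R₁) := by positivity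
    have : 0 ≤ √Γ ^ n * (B' * cB n A 1 (cL n Cm a) R₁) * (Γ * (1 + 2 * Cm)) := by positivity
    linarith
  intro y t t' D hy hs ht' htt hΓ hμ hq hν hKt
  have ht := hs.pos
  have h16 := hs.le16 H.one H.n_pos.le
  have hD0 : 0 ≤ D := le_trans (by have := abs_nonneg K; positivity) hKt
  have hs' := hs.le H.one ht' htt.le
  have eI : ∀ r, 0 < r → I (wt m n p Φ y r) = ∫ z, Φ (bp m n p y r z / r) ∂m := by
    intro r hr
    exact integral_congr_ae (H.wt_ae hΦ.cont y hr)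
  rw [eI t ht, eI t' ht']
  have sA := H.stepA hΦ hy hs ht' htt hΓ hB hB' hμ hq
  have sB := H.stepB hΦ hy hs ht' htt hΓ hB'
  have sC := H.bdiff (n := n) (K := K) (t := t) (t' := t') y ht ht' htt (D := (1 + 2 * Cm) * D) (by
    intro s h1 h2
    have n1 := hν (t + s) (by linarith) (by linarith)
    have n2 := (abs_le.1 (H.osc1 y y (t := t + s) (by linarith) (by linarith))).2
    have n3 : ww (1 / 2) y y = -(1 / 2) := by
      rw [N2.H982.ww_of_lt (by unfold gg; simp)]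
      unfold gg; simp
    rw [n3, dist_self, zero_mul, zero_add] at n2
    have n4 : (|K| + 1) * (pt m p (t + s) (ww (1 / 2) y) y + 1 / 2)
        ≤ (|K| + 1) * (Cm * (2 * t)) := by
      have : pt m p (t + s) (ww (1 / 2) y) y + 1 / 2 ≤ Cm * (2 * t) := by nlinarith
      have := abs_nonneg K
      gcongr
    nlinarith)
  have q0 : 0 < √t' := Real.sqrt_pos.2 ht'
  have r3 : √t ^ n ≤ √Γ ^ n * √t' ^ n := by
    rw [← mul_pow]
    refine pow_le_pow_left₀ (Real.sqrt_nonneg _) ?_ n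
    rw [← Real.sqrt_mul (by linarith)]
    exact Real.sqrt_le_sqrt hΓ
  have sB2 : |(√t' ^ n)⁻¹ * (∫ z, Φ (bp m n p y t z / t') ∂m)
      - (√t' ^ n)⁻¹ * ∫ z, Φ (bp m n p y t' z / t') ∂m|
      ≤ √Γ ^ n * (B' * cB n A 1 (cL n Cm a) R₁) * (Γ * (1 + 2 * Cm)) * D := by
    rw [← mul_sub, abs_mul, abs_of_pos (by positivity)]
    calc (√t' ^ n)⁻¹ * |(∫ z, Φ (bp m n p y t z / t') ∂m) - ∫ z, Φ (bp m n p y t' z / t') ∂m|
        ≤ (√t' ^ n)⁻¹ * (B' * t'⁻¹ * (cB n A 1 (cL n Cm a) R₁ * √t ^ n) *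
          ((t - t') * ((1 + 2 * Cm) * D))) := by
          refine mul_le_mul_of_nonneg_left (sB.trans ?_) (by positivity)
          gcongr
      _ ≤ (√t' ^ n)⁻¹ * (B' * t'⁻¹ * (cB n A 1 (cL n Cm a) R₁ * (√Γ ^ n * √t' ^ n)) *
          ((Γ * t') * ((1 + 2 * Cm) * D))) := by
          have : t - t' ≤ Γ * t' := by linarith
          gcongr
      _ = _ := by field_simp
  calc |(√t ^ n)⁻¹ * (∫ z, Φ (bp m n p y t z / t) ∂m)
        - (√t' ^ n)⁻¹ * ∫ z, Φ (bp m n p y t' z / t') ∂m|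
      ≤ |(√t ^ n)⁻¹ * (∫ z, Φ (bp m n p y t z / t) ∂m)
        - (√t' ^ n)⁻¹ * ∫ z, Φ (bp m n p y t z / t') ∂m|
        + |(√t' ^ n)⁻¹ * (∫ z, Φ (bp m n p y t z / t') ∂m)
        - (√t' ^ n)⁻¹ * ∫ z, Φ (bp m n p y t' z / t') ∂m| := abs_sub_le _ _ _
    _ ≤ Γ * √Γ ^ n * ((B + Γ * B') * cB n A 1 (cL n Cm a) R₁) * D
        + √Γ ^ n * (B' * cB n A 1 (cL n Cm a) R₁) * (Γ * (1 + 2 * Cm)) * D := add_le_add sA sB2
    _ ≤ _ := by nlinarith

end Base

end Vale.Agent.P242.H937
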