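import Vale.Agent.P242.H751.KBall
import Vale.Agent.P242.H990.Ph
import Vale.Agent.P242.H363.Rad

/-! P242, package A-GL1 (helper937), part a: the function `β = P_t w_y + δ - n t` is comparable
with `d(y,·)²/2` at the scale `√t`; radial weights `Ψ(β/t)` are comparable with balls and with the
heat kernel. -/

set_option linter.all false

open MeasureTheory Filter Topology Set
open scoped ENNReal NNReal

universe u

namespace Vale.Agent.P242.H937

open Vale.Agent.P233 Vale.Agent.P242.H520 Vale.Agent.P242.H990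
open Vale.Agent.P233.RA (gg ww cc)

variable {M : Type u} [MetricSpace M] [CompleteSpace M] [SecondCountableTopology M]
  [MeasurableSpace M] [BorelSpace M] {m : Measure M} {n : ℕ} {K : ℝ} {p : ℝ → M → M → ℝ}

/-! ### moments of the kernel -/

/-- exponential moments of the kernel, uniform in the centre -/
def Mom (m : Measure M) (p : ℝ → M → M → ℝ) (Cm : ℝ) : Prop :=
  ∀ s, 0 < s → s ≤ 1 → ∀ x, Integrable (fun w => p s x w * Real.exp (dist x w / √s)) m ∧
    ∫ w, p s x w * Real.exp (dist x w / √s) ∂m ≤ Cm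

theorem mom_of_cd (h : CD.Hyp m n K) (k : Ker0 m p) : ∃ Cm : ℝ, 1 ≤ Cm ∧ Mom m p Cm := by
  obtain ⟨C, hC, hh⟩ := H751.tail_cd h k 1 zero_le_one
  refine ⟨C, hC, fun s hs hs1 x => ?_⟩
  obtain ⟨h1, h2⟩ := hh s hs hs1 x 0 le_rfl
  have huniv : {w : M | (0 : ℝ) ≤ dist x w} = univ := by ext w; simp
  simp only [one_mul] at h1 h2
  rw [huniv, Measure.restrict_univ] at h2
  refine ⟨h1, h2.trans (le_of_eq ?_)⟩
  have : (0 : ℝ) ^ 2 / (32 * s) = 0 := by simp
  rw [this, neg_zero, Real.exp_zero, mul_one]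

section mom

variable {Cm : ℝ} (hM : Mom m p Cm) (k : Ker0 m p) {s t : ℝ}
include hM k

/-- first and second moments -/
theorem mom_le {a b : ℝ} (ha : 0 ≤ a) (hb : 0 ≤ b) (hs : 0 < s) (hs1 : s ≤ 1) (x : M) :
    Integrable (fun w => p s x w * (a * dist x w + b * dist x w ^ 2)) m ∧
    ∫ w, p s x w * (a * dist x w + b * dist x w ^ 2) ∂m ≤ Cm * (a * √s + 2 * b * s) := by
  obtain ⟨h1, h2⟩ := hM s hs hs1 x
  have q0 : 0 < √s := Real.sqrt_pos.2 hs
  have key : ∀ w, p s x w * (a * dist x w + b * dist x w ^ 2)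
      ≤ (a * √s + 2 * b * s) * (p s x w * Real.exp (dist x w / √s)) := by
    intro w
    have hp0 := k.nonneg s hs x w
    have e1 : dist x w ≤ √s * Real.exp (dist x w / √s) := by
      have := Real.add_one_le_exp (dist x w / √s)
      have h3 : dist x w = √s * (dist x w / √s) := by field_simp
      calc dist x w = √s * (dist x w / √s) := h3
        _ ≤ √s * Real.exp (dist x w / √s) := by gcongr; linarith
    have e2 : dist x w ^ 2 ≤ 2 * s * Real.exp (dist x w / √s) := by
      have := Real.quadratic_le_exp_of_nonneg (x := dist x w / √s) (by positivity)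
      have h3 : dist x w ^ 2 = s * (dist x w / √s) ^ 2 := by
        rw [div_pow, Real.sq_sqrt hs.le]; field_simp
      have h4 : 0 ≤ dist x w / √s := by positivity
      calc dist x w ^ 2 = s * (dist x w / √s) ^ 2 := h3
        _ ≤ s * (2 * Real.exp (dist x w / √s)) := by gcongr; linarith
        _ = _ := by ring
    calc p s x w * (a * dist x w + b * dist x w ^ 2)
        ≤ p s x w * (a * (√s * Real.exp (dist x w / √s)) + b * (2 * s * Real.exp (dist x w / √s))) := by
          gcongr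
      _ = _ := by ring
  have hcx : Continuous fun w => p s x w := (k.cont s hs).comp (Continuous.prodMk_right x)
  have hc : Continuous fun w => p s x w * (a * dist x w + b * dist x w ^ 2) := by
    refine hcx.mul ?_
    fun_prop
  have hnn : ∀ w, 0 ≤ p s x w * (a * dist x w + b * dist x w ^ 2) := fun w =>
    mul_nonneg (k.nonneg s hs x w) (by positivity)
  have hint : Integrable (fun w => p s x w * (a * dist x w + b * dist x w ^ 2)) m := by
    refine (h1.const_mul (a * √s + 2 * b * s)).mono' hc.aestronglyMeasurable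
      (Eventually.of_forall fun w => ?_)
    rw [Real.norm_eq_abs, abs_of_nonneg (hnn w)]
    exact key w
  refine ⟨hint, ?_⟩
  calc ∫ w, p s x w * (a * dist x w + b * dist x w ^ 2) ∂m
      ≤ ∫ w, (a * √s + 2 * b * s) * (p s x w * Real.exp (dist x w / √s)) ∂m :=
        integral_mono hint (h1.const_mul _) key
    _ = (a * √s + 2 * b * s) * ∫ w, p s x w * Real.exp (dist x w / √s) ∂m := integral_const_mul _ _
    _ ≤ (a * √s + 2 * b * s) * Cm := by gcongr
    _ = _ := mul_comm _ _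

/-- oscillation of a function along the kernel -/
theorem osc_le {a b : ℝ} (ha : 0 ≤ a) (hb : 0 ≤ b) (hs : 0 < s) (hs1 : s ≤ 1) (x : M)
    {w : M → ℝ} (hw : MemLp w 2 m)
    (hosc : ∀ z, |w z - w x| ≤ a * dist x z + b * dist x z ^ 2) :
    |pt m p s w x - w x| ≤ Cm * (a * √s + 2 * b * s) := by
  obtain ⟨h1, h2⟩ := mom_le hM k ha hb hs hs1 x
  have i1 := pt_int k hs x hw
  have i2 : Integrable (fun z => p s x z * w x) m := (k.int s hs x).mul_const _
  have e : pt m p s w x - w x = ∫ z, p s x z * (w z - w x) ∂m := by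
    have e1 : ∫ z, p s x z * w x ∂m = w x := pt_const k hs x (w x)
    unfold pt
    conv_lhs => rw [← e1]
    rw [← integral_sub i1 i2]
    refine integral_congr_ae (Eventually.of_forall fun z => ?_)
    simp only
    ring
  rw [e]
  refine (abs_integral_le_integral_abs).trans (le_trans ?_ h2)
  refine integral_mono ?_ h1 fun z => ?_
  · have : Integrable (fun z => p s x z * w z - p s x z * w x) m := i1.sub i2
    refine this.abs.congr (Eventually.of_forall fun z => ?_)
    simp only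
    rw [mul_sub]
  · simp only
    rw [abs_mul, abs_of_nonneg (k.nonneg s hs x z)]
    exact mul_le_mul_of_nonneg_left (hosc z) (k.nonneg s hs x z)

end mom

/-! ### the function `β_{y,t} = P_t w_y + 1/2 - n t` -/

/-- the standing facts -/
structure Base (m : Measure M) (n : ℕ) (K : ℝ) (o : M) (A : ℝ) (p : ℝ → M → M → ℝ) (Cm : ℝ) :
    Prop where
  cd : CD.Hyp m n K
  ker : Ker0 m p
  kb : KB n o A p
  one : 1 ≤ Cm
  mom : Mom m p Cm

theorem Base.of (h : CD.Hyp m n K) (k : Ker0 m p) {o : M} {A : ℝ} (kb : KB n o A p) :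
    ∃ Cm, Base m n K o A p Cm := by
  obtain ⟨C, h1, h2⟩ := mom_of_cd h k
  exact ⟨C, h, k, kb, h1, h2⟩

/-- `w_y`, the class -/
noncomputable abbrev wy (m : Measure M) (y : M) : M →ₘ[m] ℝ := cl m (ww (1 / 2) y)

/-- `P_t w_y + 1/2 - n t`, pointwise -/
noncomputable def bp (m : Measure M) (n : ℕ) (p : ℝ → M → M → ℝ) (y : M) (t : ℝ) (z : M) : ℝ :=
  pt m p t (ww (1 / 2) y) z + 1 / 2 - n * t

/-- `P_t w_y`, the class -/
noncomputable def bb (m : Measure M) (y : M) (t : ℝ) : M →ₘ[m] ℝ := (sob m).P t (wy m y)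

namespace Base

variable {o : M} {A Cm : ℝ} (H : Base m n K o A p Cm)
include H

theorem nsp2 : ∃ θ : M → ℝ, N2.NSp2 m n K θ := H992.nsp2 H.cd

theorem dir : IsDir (sob m) := by
  obtain ⟨θ, h⟩ := H.nsp2; exact h.isDir

theorem gamma : IsGamma (sob m) := by
  obtain ⟨θ, h⟩ := H.nsp2; exact h.isGamma

theorem fin : ∀ (x : M) (r : ℝ), m (Metric.ball x r) < ∞ := by
  obtain ⟨θ, h⟩ := H.nsp2; exact h.fin

theorem sfin : SigmaFinite m := sigmaFinite_of_ball H.fin

theorem n_pos : (0 : ℝ) < n := by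
  obtain ⟨θ, h⟩ := H.nsp2; exact_mod_cast h.n_pos

theorem be : (sob m).BE K n := H992.be H.cd

theorem bei : (sob m).BEi K := H.gamma.bei H.n_pos H.be

theorem full : m.IsOpenPosMeasure := by
  obtain ⟨θ, h⟩ := H.nsp2; exact h.full

theorem w_A (y : M) : wy m y ∈ (sob m).A := N2.H982.ww_A H.fin (by norm_num) y

theorem w_mem2 (y : M) : MemLp (wy m y) 2 m := H.dir.memLp _ (H.w_A y).1

omit H in
theorem w_ae (y : M) : ⇑(wy m y) =ᵐ[m] ww (1 / 2) y := N2.H982.ww_ae (by norm_num) y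

theorem w_mem2' (y : M) : MemLp (ww (1 / 2) y) 2 m := (memLp_congr_ae (w_ae y)).1 (H.w_mem2 y)

theorem bb_ae (y : M) {t : ℝ} (ht : 0 < t) : ⇑(bb m y t) =ᵐ[m] pt m p t (ww (1 / 2) y) := by
  unfold bb
  filter_upwards [H.ker.rep t ht _ (H.w_mem2 y)] with z hz
  rw [hz]
  exact pt_congr H.ker (w_ae y) t z

/-- first comparison -/
theorem osc1 (y z : M) {t : ℝ} (ht : 0 < t) (ht1 : t ≤ 1) :
    |pt m p t (ww (1 / 2) y) z - ww (1 / 2) y z| ≤ Cm * (dist z y * √t + t) := by
  have h := osc_le H.mom H.ker (a := dist z y) (b := 1 / 2) dist_nonneg (by norm_num) ht ht1 z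
    (H.w_mem2' y) fun z' => by
      refine (H992.abs_ww_sub_le y z z').trans (le_of_eq ?_)
      rw [dist_comm z z']; ring
  refine h.trans (le_of_eq ?_)
  ring

/-- second comparison -/
theorem osc2 (y z : M) {t : ℝ} (ht : 0 < t) (ht1 : t ≤ 1) :
    |pt m p t (ww (1 / 2) y) z - ww (1 / 2) y z| ≤ Cm * √t := by
  have h := osc_le H.mom H.ker (a := 1) (b := 0) zero_le_one le_rfl ht ht1 z
    (H.w_mem2' y) fun z' => by
      have := N2.H982.abs_ww_sub (δ := 1 / 2) (by norm_num) y z' z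
      norm_num at this
      rw [dist_comm z z']
      linarith
  refine h.trans (le_of_eq ?_)
  ring

/-- `P_t w_y ≥ -1/2` -/
theorem pt_ge (y z : M) {t : ℝ} (ht : 0 < t) : -(1 / 2) ≤ pt m p t (ww (1 / 2) y) z := by
  have h1 := pt_mono H.ker (F := fun _ => -(1 / 2)) (G := ww (1 / 2) y) ht z
    ((H.ker.int t ht z).mul_const _) (pt_int H.ker ht z (H.w_mem2' y))
    (Eventually.of_forall fun x => N2.H982.ww_ge (by norm_num) y x)
  rwa [pt_const H.ker ht z] at h1

theorem pt_le (y z : M) {t : ℝ} (ht : 0 < t) : pt m p t (ww (1 / 2) y) z ≤ 0 := by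
  have h1 := pt_mono H.ker (F := ww (1 / 2) y) (G := fun _ => 0) ht z
    (pt_int H.ker ht z (H.w_mem2' y)) ((H.ker.int t ht z).mul_const _)
    (Eventually.of_forall fun x => N2.H982.ww_nonpos (1 / 2) y x)
  rwa [pt_const H.ker ht z] at h1

theorem bp_ge (y z : M) {t : ℝ} (ht : 0 < t) : -(n * t) ≤ bp m n p y t z := by
  have := H.pt_ge y z ht
  unfold bp; linarith

theorem bp_le (y z : M) {t : ℝ} (ht : 0 < t) : bp m n p y t z ≤ 1 / 2 := by
  have := H.pt_le y z ht
  have : 0 ≤ (n : ℝ) * t := by positivity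
  unfold bp; linarith

theorem bp_cont (y : M) {t : ℝ} (ht : 0 < t) : Continuous (bp m n p y t) := by
  unfold bp
  have := H.ker.contf t ht _ (H.w_mem2' y)
  fun_prop

theorem bp_ae (y : M) {t : ℝ} (ht : 0 < t) : ∀ᵐ z ∂m, bb m y t z + (1 / 2 - n * t) = bp m n p y t z := by
  filter_upwards [H.bb_ae y ht] with z hz
  rw [hz]; unfold bp; ring

/-- far from `y`, `β_t ≥ a t` -/
theorem bp_far {y z : M} {t a : ℝ} (ht : 0 < t) (ha : 1 ≤ a)
    (ht1 : t ≤ (4 * (Cm + n + a) ^ 2)⁻¹)
    (hz : (4 * (Cm + n + a)) * √t ≤ dist z y) : a * t ≤ bp m n p y t z := by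
  have hC := H.one
  have hn := H.n_pos
  set L := Cm + n + a with hL
  have hL2 : 2 ≤ L := by linarith
  have q0 : 0 < √t := Real.sqrt_pos.2 ht
  have qt : √t ^ 2 = t := Real.sq_sqrt ht.le
  have q1 : √t ≤ (2 * L)⁻¹ := by
    apply Real.sqrt_le_iff.2
    refine ⟨by positivity, ht1.trans (le_of_eq ?_)⟩
    rw [inv_pow]; ring
  have q2 : √t * (2 * L) ≤ 1 := by
    rw [← le_inv_mul_iff₀' (by positivity)]
    simpa using q1
  have ht2 : t ≤ 1 := by nlinarith
  rcases lt_or_ge (gg y z) (1 / 2) with hlt | hge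
  · have h1 := (abs_le.1 (H.osc1 y z ht ht2)).1
    rw [N2.H982.ww_of_lt hlt] at h1
    unfold gg at h1
    unfold bp
    have h2 : (4 * L * √t) * (2 * L * √t) ≤ dist z y * (dist z y / 2) := by
      apply mul_le_mul hz _ (by positivity) dist_nonneg
      linarith
    have h3 : Cm * (dist z y * √t) ≤ (L * √t) * dist z y := by
      have : Cm * √t ≤ L * √t := by gcongr; linarith
      nlinarith [dist_nonneg (x := z) (y := y)]
    have h4 : L * √t * dist z y ≤ dist z y ^ 2 / 4 := by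
      nlinarith [dist_nonneg (x := z) (y := y)]
    have h5 : L * t ≤ dist z y ^ 2 / 4 := by
      have : (4 * L * √t) ^ 2 ≤ dist z y ^ 2 := pow_le_pow_left₀ (by positivity) hz 2
      rw [mul_pow, qt] at this
      nlinarith
    have h6 : Cm * t + n * t + a * t = L * t := by rw [hL]; ring
    nlinarith
  · have h1 := (abs_le.1 (H.osc2 y z ht ht2)).1
    rw [N2.H982.ww_of_ge hge] at h1
    unfold bp
    have h2 : (n : ℝ) * t + a * t ≤ (n + a) * √t := by
      have h7 : t ≤ √t := by nlinarith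
      have h8 : (0 : ℝ) ≤ n + a := by linarith
      nlinarith
    have h3 : Cm * √t + (n + a) * √t = L * √t := by rw [hL]; ring
    nlinarith

/-! ### the upper bound of `β` near `y` (Laplacian comparison) -/

/-- `Δ P_s w_y (z) ≤ n + |K| (P_s w_y (z) + 1/2)` -/
theorem dw_le (y z : M) {s : ℝ} (hs : 0 < s) :
    I ((sob m).lap (ph m p s z) * wy m y) ≤ n + |K| * (pt m p s (ww (1 / 2) y) z + 1 / 2) := by
  obtain ⟨θ, hN⟩ := H.nsp2
  have hC := H.dir
  have k := H.ker
  have hφ := ph_mem hC k hs z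
  have h1 := H992.lc_all (N2.H883.toR hN) (δ := 1 / 2) (by norm_num) y hφ (ph_nonneg k hs z)
  have e1 : I ((sob m).lap (ph m p s z) * wy m y) = -I ((sob m).Γ (wy m y) (ph m p s z)) := by
    have := I_Γ_ph hC k hs z (H.w_A y).1
    rw [hC.symm _ (ph_mem hC k hs z) _ (H.w_A y).1] at this
    linarith
  rw [e1]
  refine h1.trans ?_
  have e2 : I (cl m (H992.aa n K (1 / 2) y) * ph m p s z) = pt m p s (H992.aa n K (1 / 2) y) z := by
    rw [mul_comm, I_ph_mul k hs, pt_congr k (H992.aa_ae y)]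
  have e3 : pt m p s (fun x => (n : ℝ) + |K| * (ww (1 / 2) y x + 1 / 2)) z
      = n + |K| * (pt m p s (ww (1 / 2) y) z + 1 / 2) := by
    have a1 := pt_int k hs z (H.w_mem2' y)
    have a2 := k.int s hs z
    unfold pt
    have : ∀ x, p s z x * (n + |K| * (ww (1 / 2) y x + 1 / 2))
        = (n + |K| / 2) * p s z x + |K| * (p s z x * ww (1 / 2) y x) := fun x => by ring
    simp_rw [this]
    rw [integral_add (a2.const_mul _) (a1.const_mul _), integral_const_mul, integral_const_mul,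
      k.mass s hs z]
    ring
  rw [e2, ← e3]
  refine pt_mono k hs z ?_ ?_ (Eventually.of_forall fun x => ?_)
  · exact pt_int k hs z ((memLp_congr_ae (H992.aa_ae y)).1 (H992.aa_mem hN.fin (by norm_num) y 2))
  · have a1 := pt_int k hs z (H.w_mem2' y)
    have a2 := k.int s hs z
    refine ((a2.const_mul (n + |K| / 2)).add (a1.const_mul |K|)).congr
      (Eventually.of_forall fun x => ?_)
    simp only [Pi.add_apply]
    ring
  · have g0 := N2.H982.gg_nonneg y x
    rcases lt_or_ge (gg y x) (1 / 2) with h | h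
    · rw [H992.aa_of_lt h, N2.H982.ww_of_lt h]
      have h2 : -(2 * K / 3) ≤ |K| := by
        have := neg_abs_le K
        have := abs_nonneg K
        linarith
      have h3 := mul_le_mul_of_nonneg_right h2 g0
      have e : |K| * (gg y x - 1 / 2 + 1 / 2) = |K| * gg y x := by ring
      rw [e]
      linarith
    · rw [H992.aa_of_ge h, N2.H982.ww_of_ge h]
      positivity

theorem hasDeriv_pt (y z : M) {s : ℝ} (hs : 0 < s) :
    HasDerivAt (fun s => pt m p s (ww (1 / 2) y) z) (I ((sob m).lap (ph m p s z) * wy m y)) s := by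
  have h := hasDerivAt_ph H.dir H.ker hs z (H.w_mem2 y)
  refine h.congr_of_eventuallyEq ?_
  filter_upwards [lt_mem_nhds hs] with r hr
  rw [I_ph_mul H.ker hr, pt_congr H.ker (w_ae y)]

/-- `P_t w_y(z) - w_y(z) ≤ n t + |K| t (...)` -/
theorem pt_sub_le (y z : M) {t : ℝ} (ht : 0 < t) (ht1 : t ≤ 1) :
    pt m p t (ww (1 / 2) y) z - ww (1 / 2) y z
      ≤ (n + |K| * (dist z y ^ 2 / 2 + Cm * (dist z y * √t + t))) * t := by
  set L := (n + |K| * (dist z y ^ 2 / 2 + Cm * (dist z y * √t + t))) with hL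
  have hC := H.one
  have step : ∀ ε, 0 < ε → ε < t → pt m p t (ww (1 / 2) y) z - pt m p ε (ww (1 / 2) y) z
      ≤ L * (t - ε) := by
    intro ε h0 h1
    refine Convex.image_sub_le_mul_sub_of_deriv_le (D := Icc ε t) (convex_Icc _ _)
      (f := fun s => pt m p s (ww (1 / 2) y) z) ?_ ?_ ?_ ε ⟨le_rfl, h1.le⟩ t ⟨h1.le, le_rfl⟩ h1.le
    · intro s hs
      exact (H.hasDeriv_pt y z (h0.trans_le hs.1)).continuousAt.continuousWithinAt
    · intro s hs
      rw [interior_Icc] at hs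
      exact (H.hasDeriv_pt y z (h0.trans hs.1)).differentiableAt.differentiableWithinAt
    · intro s hs
      rw [interior_Icc] at hs
      have s0 := h0.trans hs.1
      rw [(H.hasDeriv_pt y z s0).deriv]
      refine (H.dw_le y z s0).trans ?_
      rw [hL]
      have b1 := (abs_le.1 (H.osc1 y z s0 (hs.2.le.trans ht1))).2
      have b2 : ww (1 / 2) y z + 1 / 2 ≤ dist z y ^ 2 / 2 := by
        have : ww (1 / 2) y z + 1 / 2 = min (dist z y ^ 2 / 2) (1 / 2) := by
          unfold ww cc; ring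
        rw [this]; exact min_le_left _ _
      have b3 : √s ≤ √t := Real.sqrt_le_sqrt hs.2.le
      have b4 : Cm * (dist z y * √s + s) ≤ Cm * (dist z y * √t + t) := by
        have := hs.2.le
        gcongr
      have := mul_le_mul_of_nonneg_left (show pt m p s (ww (1 / 2) y) z + 1 / 2
        ≤ dist z y ^ 2 / 2 + Cm * (dist z y * √t + t) by linarith) (abs_nonneg K)
      linarith
  have hL0 : 0 ≤ L := by rw [hL]; positivity
  have step2 : ∀ ε, 0 < ε → ε < t → pt m p t (ww (1 / 2) y) z - ww (1 / 2) y z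
      ≤ L * t + Cm * √ε := by
    intro ε h0 h1
    have a := step ε h0 h1
    have b := (abs_le.1 (H.osc2 y z h0 (h1.le.trans ht1))).2
    nlinarith
  have hlim : Tendsto (fun ε => L * t + Cm * √ε) (𝓝[>] 0) (𝓝 (L * t + Cm * √0)) := by
    refine Tendsto.mono_left (Continuous.tendsto ?_ 0) nhdsWithin_le_nhds
    fun_prop
  rw [Real.sqrt_zero, mul_zero, add_zero] at hlim
  refine ge_of_tendsto hlim ?_
  filter_upwards [Ioo_mem_nhdsGT ht] with ε hε
  exact step2 ε hε.1 hε.2

/-- near `y`, `β_t ≤ t/4` -/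
theorem bp_near {y z : M} {t : ℝ} (ht : 0 < t) (ht1 : t ≤ 1 / 2) (htK : |K| * t * (16 * (Cm + 1)) ≤ 1)
    (hz : dist z y ≤ √t / 2) : bp m n p y t z ≤ t / 4 := by
  have hC := H.one
  have q0 : 0 < √t := Real.sqrt_pos.2 ht
  have qt : √t ^ 2 = t := Real.sq_sqrt ht.le
  have h1 := H.pt_sub_le y z ht (by linarith)
  have d0 : 0 ≤ dist z y := dist_nonneg
  have d2 : dist z y ^ 2 ≤ t / 4 := by
    have : dist z y ^ 2 ≤ (√t / 2) ^ 2 := pow_le_pow_left₀ d0 hz 2
    rw [div_pow, qt] at this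
    linarith
  have b2 : ww (1 / 2) y z + 1 / 2 ≤ dist z y ^ 2 / 2 := by
    have : ww (1 / 2) y z + 1 / 2 = min (dist z y ^ 2 / 2) (1 / 2) := by
      unfold ww cc; ring
    rw [this]; exact min_le_left _ _
  have b3 : dist z y ^ 2 / 2 + Cm * (dist z y * √t + t) ≤ t * (2 * (Cm + 1)) := by
    have : dist z y * √t ≤ t / 2 := by nlinarith
    nlinarith
  have b4 : |K| * (dist z y ^ 2 / 2 + Cm * (dist z y * √t + t)) ≤ 1 / 8 := by
    have h3 := mul_le_mul_of_nonneg_left b3 (abs_nonneg K)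
    have h4 : |K| * (t * (2 * (Cm + 1))) = |K| * t * (16 * (Cm + 1)) / 8 := by ring
    linarith
  unfold bp
  nlinarith

end Base

/-! ### balls and kernels -/

/-- the constant of `one_le_p` -/
noncomputable def cB (n : ℕ) (A Γ L R₁ : ℝ) : ℝ :=
  A * Real.exp (A * R₁) * √Γ ^ n * Real.exp (A * (L ^ 2 * Γ))

theorem cB_pos {n : ℕ} {A Γ L R₁ : ℝ} (hA : 1 ≤ A) (hΓ : 0 < Γ) : 0 < cB n A Γ L R₁ := by
  unfold cB
  have : 0 < √Γ := Real.sqrt_pos.2 hΓ
  positivity

omit [CompleteSpace M] [SecondCountableTopology M] [MeasurableSpace M] [BorelSpace M] in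
/-- on a ball the kernel at a comparable scale is bounded from below -/
theorem one_le_p {o : M} {A : ℝ} (kb : KB n o A p) {t s Γ L R₁ : ℝ} {q z : M} (hs : 0 < s)
    (ht : 0 < t) (h1 : t ≤ Γ * s) (h2 : s ≤ Γ * t) (h3 : s ≤ 1 / 2) (hq : dist q o ≤ R₁)
    (hz : dist q z ≤ L * √t) : 1 ≤ cB n A Γ L R₁ * √t ^ n * p s q z := by
  have hA := kb.one_le
  have hA0 := kb.pos
  have hΓ : 0 < Γ := by
    by_contra hc
    rw [not_lt] at hc
    nlinarith
  have qt : 0 < √t := Real.sqrt_pos.2 ht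
  have qs : 0 < √s := Real.sqrt_pos.2 hs
  have qΓ : 0 < √Γ := Real.sqrt_pos.2 hΓ
  have low := kb.lower s hs h3 q z
  have e1 : √s ≤ √Γ * √t := by
    rw [← Real.sqrt_mul hΓ.le]; exact Real.sqrt_le_sqrt h2
  have e2 : √s ^ n ≤ √Γ ^ n * √t ^ n := by
    rw [← mul_pow]; exact pow_le_pow_left₀ qs.le e1 n
  have e3 : A * dist q z ^ 2 / s ≤ A * (L ^ 2 * Γ) := by
    rw [div_le_iff₀ hs, mul_assoc]
    refine mul_le_mul_of_nonneg_left ?_ hA0.le
    calc dist q z ^ 2 ≤ (L * √t) ^ 2 := pow_le_pow_left₀ dist_nonneg hz 2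
      _ = L ^ 2 * t := by rw [mul_pow, Real.sq_sqrt ht.le]
      _ ≤ L ^ 2 * (Γ * s) := by gcongr
      _ = L ^ 2 * Γ * s := by ring
  have e4 : A * dist q o ≤ A * R₁ := by gcongr
  have pp := kb.p_pos hs h3 q z
  calc (1 : ℝ) = (A * Real.exp (A * R₁) * (√Γ ^ n * √t ^ n) * Real.exp (A * (L ^ 2 * Γ))) *
        (A⁻¹ * Real.exp (-(A * R₁)) * (√Γ ^ n * √t ^ n)⁻¹ * Real.exp (-(A * (L ^ 2 * Γ)))) := by
        rw [Real.exp_neg, Real.exp_neg]
        field_simp
    _ ≤ (A * Real.exp (A * R₁) * (√Γ ^ n * √t ^ n) * Real.exp (A * (L ^ 2 * Γ))) *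
        (A⁻¹ * Real.exp (-(A * dist q o)) * (√s ^ n)⁻¹ * Real.exp (-(A * dist q z ^ 2 / s))) := by
        gcongr
    _ ≤ (A * Real.exp (A * R₁) * (√Γ ^ n * √t ^ n) * Real.exp (A * (L ^ 2 * Γ))) * p s q z := by
        gcongr
    _ = _ := by unfold cB; ring

namespace Base

variable {o : M} {A Cm : ℝ} (H : Base m n K o A p Cm)
include H

/-- upper bound of the volume -/
theorem vol_le {t L R₁ : ℝ} {y : M} (ht : 0 < t) (ht1 : t ≤ 1 / 2) (hy : dist y o ≤ R₁) :
    (m (Metric.ball y (L * √t))).toReal ≤ cB n A 1 L R₁ * √t ^ n := by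
  have k := H.ker
  have hc : 0 < cB n A 1 L R₁ := cB_pos H.kb.one_le one_pos
  have q0 : 0 < √t := Real.sqrt_pos.2 ht
  have h1 : (m (Metric.ball y (L * √t))).toReal = ∫ z in Metric.ball y (L * √t), (1 : ℝ) ∂m := by
    simp [Measure.real]
  rw [h1]
  have i2 := (k.int t ht y).const_mul (cB n A 1 L R₁ * √t ^ n)
  calc ∫ z in Metric.ball y (L * √t), (1 : ℝ) ∂m
      ≤ ∫ z in Metric.ball y (L * √t), (cB n A 1 L R₁ * √t ^ n) * p t y z ∂m := by
        refine setIntegral_mono_on (integrableOn_const (H.fin y _).ne) i2.integrableOn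
          Metric.isOpen_ball.measurableSet fun z hz => ?_
        refine one_le_p H.kb ht ht (by linarith) (by linarith) ht1 hy ?_
        rw [Metric.mem_ball, dist_comm] at hz
        exact hz.le
    _ ≤ ∫ z, (cB n A 1 L R₁ * √t ^ n) * p t y z ∂m := by
        refine setIntegral_le_integral i2 (Eventually.of_forall fun z => ?_)
        have := k.nonneg t ht y z
        simp only [Pi.zero_apply]
        positivity
    _ = _ := by rw [integral_const_mul, k.mass t ht y, mul_one]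

/-- lower bound of the volume -/
theorem vol_ge {t R₁ : ℝ} {y : M} (ht : 0 < t) (ht1 : t ≤ 1 / 2) (hy : dist y o ≤ R₁) :
    √t ^ n ≤ (2 * A * Real.exp (A * R₁) * (2 * Real.log (2 * Cm)) ^ n) *
      (m (Metric.ball y (√t / 2))).toReal := by
  have k := H.ker
  have hA0 := H.kb.pos
  have hC := H.one
  set l := 2 * Real.log (2 * Cm) with hl
  have l1 : 1 ≤ l := by
    have h1 : Real.log 2 ≤ Real.log (2 * Cm) := Real.log_le_log (by norm_num) (by linarith)
    have h2 := Real.log_two_gt_d9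
    rw [hl]; linarith
  have l0 : 0 < l := by linarith
  have q0 : 0 < √t := Real.sqrt_pos.2 ht
  have hs : 0 < t / l ^ 2 := by positivity
  have l2 : 1 ≤ l ^ 2 := one_le_pow₀ l1
  have hst : t / l ^ 2 ≤ t := div_le_self ht.le l2
  have qs : √(t / l ^ 2) = √t / l := by
    rw [Real.sqrt_div ht.le, Real.sqrt_sq l0.le]
  obtain ⟨i1, h1⟩ := H.mom (t / l ^ 2) hs (by linarith) y
  have m1 := k.mass _ hs y
  have ip := k.int _ hs y
  have hB : MeasurableSet (Metric.ball y (√t / 2)) := Metric.isOpen_ball.measurableSet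
  rw [← integral_add_compl hB ip] at m1
  have tail : ∫ z in (Metric.ball y (√t / 2))ᶜ, p (t / l ^ 2) y z ∂m ≤ 1 / 2 := by
    have c1 : ∫ z in (Metric.ball y (√t / 2))ᶜ, p (t / l ^ 2) y z ∂m
        ≤ ∫ z in (Metric.ball y (√t / 2))ᶜ,
          (2 * Cm)⁻¹ * (p (t / l ^ 2) y z * Real.exp (dist y z / √(t / l ^ 2))) ∂m := by
      refine setIntegral_mono_on ip.integrableOn (i1.const_mul _).integrableOn hB.compl
        fun z hz => ?_
      have hp0 := k.nonneg _ hs y z
      have hz2 : √t / 2 ≤ dist y z := by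
        rw [Set.mem_compl_iff, Metric.mem_ball, not_lt, dist_comm] at hz
        exact hz
      have h3 : Real.log (2 * Cm) ≤ dist y z / √(t / l ^ 2) := by
        rw [qs, le_div_iff₀ (by positivity)]
        have : Real.log (2 * Cm) = l / 2 := by rw [hl]; ring
        rw [this]
        calc l / 2 * (√t / l) = √t / 2 := by field_simp
          _ ≤ dist y z := hz2
      have h4 : 2 * Cm ≤ Real.exp (dist y z / √(t / l ^ 2)) := by
        rw [← Real.exp_log (show 0 < 2 * Cm by linarith)]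
        exact Real.exp_le_exp.2 h3
      calc p (t / l ^ 2) y z = (2 * Cm)⁻¹ * (p (t / l ^ 2) y z * (2 * Cm)) := by
            field_simp
        _ ≤ _ := by gcongr
    have c2 : ∫ z in (Metric.ball y (√t / 2))ᶜ,
          (2 * Cm)⁻¹ * (p (t / l ^ 2) y z * Real.exp (dist y z / √(t / l ^ 2))) ∂m
        ≤ ∫ z, (2 * Cm)⁻¹ * (p (t / l ^ 2) y z * Real.exp (dist y z / √(t / l ^ 2))) ∂m := by
      refine setIntegral_le_integral (i1.const_mul _) (Eventually.of_forall fun z => ?_)
      have := k.nonneg _ hs y z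
      simp only [Pi.zero_apply]
      positivity
    have c2' : ∫ z, (2 * Cm)⁻¹ * (p (t / l ^ 2) y z * Real.exp (dist y z / √(t / l ^ 2))) ∂m
        = (2 * Cm)⁻¹ * ∫ z, p (t / l ^ 2) y z * Real.exp (dist y z / √(t / l ^ 2)) ∂m :=
      integral_const_mul _ _
    have c3 : (2 * Cm)⁻¹ * ∫ z, p (t / l ^ 2) y z * Real.exp (dist y z / √(t / l ^ 2)) ∂m
        ≤ (2 * Cm)⁻¹ * Cm := by gcongr
    have c4 : (2 * Cm)⁻¹ * Cm = 1 / 2 := by field_simp
    linarith
  have main : ∫ z in Metric.ball y (√t / 2), p (t / l ^ 2) y z ∂m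
      ≤ ∫ z in Metric.ball y (√t / 2), A * Real.exp (A * R₁) * (√(t / l ^ 2) ^ n)⁻¹ ∂m := by
    refine setIntegral_mono_on ip.integrableOn (integrableOn_const (H.fin y _).ne) hB fun z hz => ?_
    refine (H.kb.upper _ hs (by linarith) y z).trans ?_
    have e1 : Real.exp (-(dist y z ^ 2 / (A * (t / l ^ 2)))) ≤ 1 := by
      rw [Real.exp_le_one_iff]
      have : 0 ≤ dist y z ^ 2 / (A * (t / l ^ 2)) := by positivity
      linarith
    have qs0 : 0 < √(t / l ^ 2) := Real.sqrt_pos.2 hs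
    calc A * Real.exp (A * dist y o) * (√(t / l ^ 2) ^ n)⁻¹ * Real.exp (-(dist y z ^ 2 / (A * (t / l ^ 2))))
        ≤ A * Real.exp (A * R₁) * (√(t / l ^ 2) ^ n)⁻¹ * 1 := by gcongr
      _ = _ := mul_one _
  have e5 : ∫ z in Metric.ball y (√t / 2), A * Real.exp (A * R₁) * (√(t / l ^ 2) ^ n)⁻¹ ∂m
      = A * Real.exp (A * R₁) * (√(t / l ^ 2) ^ n)⁻¹ * (m (Metric.ball y (√t / 2))).toReal := by
    rw [setIntegral_const]
    simp only [Measure.real, smul_eq_mul]
    ring
  rw [e5] at main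
  have e6 : (√(t / l ^ 2) ^ n)⁻¹ = l ^ n * (√t ^ n)⁻¹ := by
    rw [qs, div_pow]; field_simp
  rw [e6] at main
  have half : 1 / 2 ≤ A * Real.exp (A * R₁) * (l ^ n * (√t ^ n)⁻¹) *
      (m (Metric.ball y (√t / 2))).toReal := by linarith
  have qn : 0 < √t ^ n := pow_pos q0 n
  have := mul_le_mul_of_nonneg_left half qn.le
  calc √t ^ n = 2 * (√t ^ n * (1 / 2)) := by ring
    _ ≤ 2 * (√t ^ n * (A * Real.exp (A * R₁) * (l ^ n * (√t ^ n)⁻¹) *
      (m (Metric.ball y (√t / 2))).toReal)) := by gcongr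
    _ = _ := by field_simp

end Base

end Vale.Agent.P242.H937
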